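import Vale.Agent.helper4.Q4R2

/-!
Checks for pairs of intervals of second moments.
-/

set_option maxRecDepth 100000
set_option linter.unusedVariables false

namespace Vale.Agent.helper4.Q4

noncomputable def LFR : LitT := ⟨⟨2,1,1,0,0,0⟩, [[[[[16777216]]],[[[14131264]]]],[[[[]]],[[[]]]]], [[[[[1818752]]],[[[4194304]]]],[[[[17448960]]],[[[]]]]]⟩

def RtFR : Roots := ⟨⟨0,3073,1024⟩,⟨1,3,4⟩,⟨0,17,8⟩,⟨0,11,16⟩,⟨0,17,4⟩,⟨0,17,16⟩,⟨0,1,2⟩,⟨0,17,16⟩⟩

theorem cFR_3_0 : chunkOk (LFR.ctx true true 69 156723 131072 4 8 1071 833 32 32) muQ true true 64 RtFR.Cx RtFR.CX RtFR.Ctp.left RtFR.Ce.left RtFR.CTp RtFR.CEr 0x4141594159741059043744770449349349359059043590593597475930000059337770593597346906975930469759321747593005932170021769374705975935973000069775937593344421774959217730006904321704217704749596970021774596973059307404734 = true := by decide +kernel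

theorem cFR_3_1 : chunkOk (LFR.ctx true true 15 1 1 1 1 1 1 1 1) muQ true true 64 RtFR.Cx.left.left RtFR.CX RtFR.Ctp.right RtFR.Ce.left RtFR.CTp RtFR.CEr 0x01 = true := by decide +kernel

theorem cFR_3_2 : chunkOk (LFR.ctx true true 15 1 1 1 1 1 1 1 1) muQ true true 64 RtFR.Cx.left.right RtFR.CX RtFR.Ctp.right RtFR.Ce.left.left RtFR.CTp RtFR.CEr 0x11 = true := by decide +kernel

theorem cFR_3_3 : chunkOk (LFR.ctx true true 70 291935 262144 4 8 595 799 32 32) muQ true true 64 RtFR.Cx.left.right RtFR.CX RtFR.Ctp.right.left RtFR.Ce.left.right.left RtFR.CTp RtFR.CEr 0x001000697706973040433701210069732172174002170434321776900017774 = true := by decide +kernel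

theorem cFR_3_4 : chunkOk (LFR.ctx true true 75 746739 524288 4 8 1411 2023 32 32) muQ true true 64 RtFR.Cx.left.right RtFR.CX RtFR.Ctp.right.left RtFR.Ce.left.right.right RtFR.CTp RtFR.CEr 0x01210217017693421700693217002177432170002172177344359590597593597400593769700069777445936975934321700170069721700217747005973697300069704374210217217693217475905935975934597300069732170021774700059737059759730000593777469006977593697473434217 = true := by decide +kernel

theorem cFR_3_5 : chunkOk (LFR.ctx true true 15 1 1 1 1 1 1 1 1) muQ true true 64 RtFR.Cx.left.right RtFR.CX RtFR.Ctp.right.right RtFR.Ce.left.right RtFR.CTp RtFR.CEr 0x01 = true := by decide +kernel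

theorem cFR_3_6 : chunkOk (LFR.ctx true true 15 1 1 1 1 1 1 1 1) muQ true true 64 RtFR.Cx.right RtFR.CX RtFR.Ctp.right.left RtFR.Ce.left.left RtFR.CTp RtFR.CEr 0x11 = true := by decide +kernel

theorem cFR_3_7 : chunkOk (LFR.ctx true true 53 9219 4096 4 8 85 85 32 32) muQ true true 64 RtFR.Cx.right RtFR.CX RtFR.Ctp.right.left RtFR.Ce.left.right.left RtFR.CTp RtFR.CEr 0x0 = true := by decide +kernel

theorem cFR_3_8 : chunkOk (LFR.ctx true true 68 107555 65536 4 8 1207 935 32 32) muQ true true 64 RtFR.Cx.right.left RtFR.CX RtFR.Ctp.right.left RtFR.Ce.left.right.right.left RtFR.CTp RtFR.CEr 0x0110490059735930049597334704337 = true := by decide +kernel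

theorem cFR_3_9 : chunkOk (LFR.ctx true true 75 820491 524288 4 8 1411 2159 32 32) muQ true true 64 RtFR.Cx.right.left RtFR.CX RtFR.Ctp.right.left RtFR.Ce.left.right.right.right RtFR.CTp RtFR.CEr 0x6900000217721700217747005970435906975975934730000697705975973000693774734704374900590477495905974730449595904593473590590475905974359059759745937459370000597759300593747005977593597300059770597300059377434744959590597593597459347373 = true := by decide +kernel

theorem cFR_3_10 : chunkOk (LFR.ctx true true 15 1 1 1 1 1 1 1 1) muQ true true 64 RtFR.Cx.right.right RtFR.CX RtFR.Ctp.right.left RtFR.Ce.left.right.right RtFR.CTp RtFR.CEr 0x49 = true := by decide +kernel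

theorem cFR_3_11 : chunkOk (LFR.ctx true true 15 1 1 1 1 1 1 1 1) muQ true true 64 RtFR.Cx.right RtFR.CX RtFR.Ctp.right.right RtFR.Ce.left RtFR.CTp RtFR.CEr 0x11 = true := by decide +kernel

theorem cFR_3_12 : chunkOk (LFR.ctx true true 15 1 1 1 1 1 1 1 1) muQ true true 64 RtFR.Cx.left RtFR.CX RtFR.Ctp RtFR.Ce.right RtFR.CTp RtFR.CEr 0x21 = true := by decide +kernel

theorem cFR_3_13 : chunkOk (LFR.ctx true true 15 1 1 1 1 1 1 1 1) muQ true true 64 RtFR.Cx.right RtFR.CX RtFR.Ctp.left RtFR.Ce.right RtFR.CTp RtFR.CEr 0x41597 = true := by decide +kernel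

theorem cFR_3_14 : chunkOk (LFR.ctx true true 69 119847 65536 4 8 2703 1105 32 32) muQ true true 64 RtFR.Cx.right.left RtFR.CX RtFR.Ctp.right.left.left RtFR.Ce.right.left.left RtFR.CTp RtFR.CEr 0x4959595904934935974593597459347 = true := by decide +kernel

theorem cFR_3_15 : chunkOk (LFR.ctx true true 76 943411 524288 4 8 3043 2397 32 32) muQ true true 64 RtFR.Cx.right.left RtFR.CX RtFR.Ctp.right.left.right RtFR.Ce.right.left.left.left RtFR.CTp RtFR.CEr 0x049490005904694337774933000177000005933777021047590597432177000690437743217001002170433017745904597593597000593375900597745937459590597459359743217000597040437005973590597459370059043743690421759321700597043210217469321774595905974593459737437 = true := by decide +kernel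

theorem cFR_3_16 : chunkOk (LFR.ctx true true 75 513191 262144 4 8 3179 2703 32 32) muQ true true 64 RtFR.Cx.right.left RtFR.CX RtFR.Ctp.right.left.right RtFR.Ce.right.left.left.right RtFR.CTp RtFR.CEr 0x049300597043590421759370000593759773459059047495973597437000005937590597437043744959495900593759759347474933210590432170459059704590597434321742175937 = true := by decide +kernel

theorem cFR_3_17 : chunkOk (LFR.ctx true true 74 537775 262144 4 8 3179 1411 32 32) muQ true true 64 RtFR.Cx.right.left RtFR.CX RtFR.Ctp.right.left RtFR.Ce.right.left.right RtFR.CTp RtFR.CEr 0x5949597217490597593749004933744935905975975934217593745934217593 = true := by decide +kernel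

theorem cFR_3_18 : chunkOk (LFR.ctx true true 15 1 1 1 1 1 1 1 1) muQ true true 64 RtFR.Cx.right.right RtFR.CX RtFR.Ctp.right.left RtFR.Ce.right.left RtFR.CTp RtFR.CEr 0x49 = true := by decide +kernel

theorem cFR_3_19 : chunkOk (LFR.ctx true true 75 574651 262144 4 8 3587 2737 32 32) muQ true true 64 RtFR.Cx.right RtFR.CX RtFR.Ctp.right.right RtFR.Ce.right.left RtFR.CTp RtFR.CEr 0x111100010059040433377749494959759700597749597347047493304301210021759300217745933217421700170002170437049597359700021770597597374321700102175930210474321774343017711690010101010217040411433337701774 = true := by decide +kernel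

theorem cFR_3_20 : chunkOk (LFR.ctx true true 76 623819 262144 4 8 7667 2057 32 32) muQ true true 64 RtFR.Cx.right RtFR.CX RtFR.Ctp.right RtFR.Ce.right.right RtFR.CTp RtFR.CEr 0x212102174217421700493217049021721773434495973217001010101021040433333017017017704934934934932105932175934217749597300021774959732170210021774217747494959774933434493217 = true := by decide +kernel

theorem cFR_2_0 : chunkOk (LFR.ctx false true 62 64533 131072 4 8 64 128 32 32) muQ false true 64 RtFR.Cx RtFR.CX RtFR.Ctn RtFR.Ce RtFR.CTp RtFR.CEr 0x4121592175969695121721744595907077217475941073074447 = true := by decide +kernel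

theorem cFR_1_0 : chunkOk (LFR.ctx true false 69 156723 131072 4 8 1071 833 4 128) muQ true false 64 RtFR.Cx RtFR.CX RtFR.Ctp.left RtFR.Ce.left RtFR.CTn RtFR.CEr.left.left 0x4141594159741059043744770449349349359059043590593597475930000059337770593597346906975930469759321747593005932170021769374705975935973000069775937593344421774959217730006904321704217704749596970021774596973059307404734 = true := by decide +kernel

theorem cFR_1_1 : chunkOk (LFR.ctx true false 15 1 1 1 1 1 1 1 1) muQ true false 64 RtFR.Cx.left.left RtFR.CX RtFR.Ctp.right RtFR.Ce.left RtFR.CTn RtFR.CEr.left.left 0x01 = true := by decide +kernel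

theorem cFR_1_2 : chunkOk (LFR.ctx true false 15 1 1 1 1 1 1 1 1) muQ true false 64 RtFR.Cx.left.right RtFR.CX RtFR.Ctp.right RtFR.Ce.left.left RtFR.CTn RtFR.CEr.left.left 0x11 = true := by decide +kernel

theorem cFR_1_3 : chunkOk (LFR.ctx true false 70 291935 262144 4 8 595 799 4 128) muQ true false 64 RtFR.Cx.left.right RtFR.CX RtFR.Ctp.right.left RtFR.Ce.left.right.left RtFR.CTn RtFR.CEr.left.left 0x001000697706973040433701210069732172174002170434321776900017774 = true := by decide +kernel

theorem cFR_1_4 : chunkOk (LFR.ctx true false 75 746739 524288 4 8 1411 2023 4 128) muQ true false 64 RtFR.Cx.left.right RtFR.CX RtFR.Ctp.right.left RtFR.Ce.left.right.right RtFR.CTn RtFR.CEr.left.left 0x01210217017693421700693217002177432170002172177344359590597593597400593769700069777445936975934321700170069721700217747005973697300069704374210217217693217475905935975934597300069732170021774700059737059759730000593777469006977593697473434217 = true := by decide +kernel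

theorem cFR_1_5 : chunkOk (LFR.ctx true false 15 1 1 1 1 1 1 1 1) muQ true false 64 RtFR.Cx.left.right RtFR.CX RtFR.Ctp.right.right RtFR.Ce.left.right RtFR.CTn RtFR.CEr.left.left 0x01 = true := by decide +kernel

theorem cFR_1_6 : chunkOk (LFR.ctx true false 15 1 1 1 1 1 1 1 1) muQ true false 64 RtFR.Cx.right RtFR.CX RtFR.Ctp.right.left RtFR.Ce.left.left RtFR.CTn RtFR.CEr.left.left 0x11 = true := by decide +kernel

theorem cFR_1_7 : chunkOk (LFR.ctx true false 53 9219 4096 4 8 85 85 4 128) muQ true false 64 RtFR.Cx.right RtFR.CX RtFR.Ctp.right.left RtFR.Ce.left.right.left RtFR.CTn RtFR.CEr.left.left 0x0 = true := by decide +kernel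

theorem cFR_1_8 : chunkOk (LFR.ctx true false 68 107555 65536 4 8 1207 935 4 128) muQ true false 64 RtFR.Cx.right.left RtFR.CX RtFR.Ctp.right.left RtFR.Ce.left.right.right.left RtFR.CTn RtFR.CEr.left.left 0x0110490059735930049597334704337 = true := by decide +kernel

theorem cFR_1_9 : chunkOk (LFR.ctx true false 75 820491 524288 4 8 1411 2159 4 128) muQ true false 64 RtFR.Cx.right.left RtFR.CX RtFR.Ctp.right.left RtFR.Ce.left.right.right.right RtFR.CTn RtFR.CEr.left.left 0x6900000217721700217747005970435906975975934730000697705975973000693774734704374900590477495905974730449595904593473590590475905974359059759745937459370000597759300593747005977593597300059770597300059377434744959590597593597459347373 = true := by decide +kernel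

theorem cFR_1_10 : chunkOk (LFR.ctx true false 15 1 1 1 1 1 1 1 1) muQ true false 64 RtFR.Cx.right.right RtFR.CX RtFR.Ctp.right.left RtFR.Ce.left.right.right RtFR.CTn RtFR.CEr.left.left 0x49 = true := by decide +kernel

theorem cFR_1_11 : chunkOk (LFR.ctx true false 15 1 1 1 1 1 1 1 1) muQ true false 64 RtFR.Cx.right RtFR.CX RtFR.Ctp.right.right RtFR.Ce.left RtFR.CTn RtFR.CEr.left.left 0x11 = true := by decide +kernel

theorem cFR_1_12 : chunkOk (LFR.ctx true false 15 1 1 1 1 1 1 1 1) muQ true false 64 RtFR.Cx.left RtFR.CX RtFR.Ctp RtFR.Ce.right RtFR.CTn RtFR.CEr.left.left 0x21 = true := by decide +kernel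

theorem cFR_1_13 : chunkOk (LFR.ctx true false 15 1 1 1 1 1 1 1 1) muQ true false 64 RtFR.Cx.right RtFR.CX RtFR.Ctp.left RtFR.Ce.right RtFR.CTn RtFR.CEr.left.left 0x41597 = true := by decide +kernel

theorem cFR_1_14 : chunkOk (LFR.ctx true false 69 119847 65536 4 8 2703 1105 4 128) muQ true false 64 RtFR.Cx.right.left RtFR.CX RtFR.Ctp.right.left.left RtFR.Ce.right.left.left RtFR.CTn RtFR.CEr.left.left 0x4959595904934935974593597459347 = true := by decide +kernel

theorem cFR_1_15 : chunkOk (LFR.ctx true false 76 943411 524288 4 8 3043 2397 4 128) muQ true false 64 RtFR.Cx.right.left RtFR.CX RtFR.Ctp.right.left.right RtFR.Ce.right.left.left.left RtFR.CTn RtFR.CEr.left.left 0x049490005904694337774933000177000005933777021047590597432177000690437743217001002170433017745904597593597000593375900597745937459590597459359743217000597040437005973590597459370059043743690421759321700597043210217469321774595905974593459737437 = true := by decide +kernel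

theorem cFR_1_16 : chunkOk (LFR.ctx true false 75 513191 262144 4 8 3179 2703 4 128) muQ true false 64 RtFR.Cx.right.left RtFR.CX RtFR.Ctp.right.left.right RtFR.Ce.right.left.left.right RtFR.CTn RtFR.CEr.left.left 0x049300597043590421759370000593759773459059047495973597437000005937590597437043744959495900593759759347474933210590432170459059704590597434321742175937 = true := by decide +kernel

theorem cFR_1_17 : chunkOk (LFR.ctx true false 74 537775 262144 4 8 3179 1411 4 128) muQ true false 64 RtFR.Cx.right.left RtFR.CX RtFR.Ctp.right.left RtFR.Ce.right.left.right RtFR.CTn RtFR.CEr.left.left 0x5949597217490597593749004933744935905975975934217593745934217593 = true := by decide +kernel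

theorem cFR_1_18 : chunkOk (LFR.ctx true false 15 1 1 1 1 1 1 1 1) muQ true false 64 RtFR.Cx.right.right RtFR.CX RtFR.Ctp.right.left RtFR.Ce.right.left RtFR.CTn RtFR.CEr.left.left 0x49 = true := by decide +kernel

theorem cFR_1_19 : chunkOk (LFR.ctx true false 75 574651 262144 4 8 3587 2737 4 128) muQ true false 64 RtFR.Cx.right RtFR.CX RtFR.Ctp.right.right RtFR.Ce.right.left RtFR.CTn RtFR.CEr.left.left 0x111100010059040433377749494959759700597749597347047493304301210021759300217745933217421700170002170437049597359700021770597597374321700102175930210474321774343017711690010101010217040411433337701774 = true := by decide +kernel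

theorem cFR_1_20 : chunkOk (LFR.ctx true false 76 623819 262144 4 8 7667 2057 4 128) muQ true false 64 RtFR.Cx.right RtFR.CX RtFR.Ctp.right RtFR.Ce.right.right RtFR.CTn RtFR.CEr.left.left 0x212102174217421700493217049021721773434495973217001010101021040433333017017017704934934934932105932175934217749597300021774959732170210021774217747494959774933434493217 = true := by decide +kernel

theorem cFR_1_21 : chunkOk (LFR.ctx true false 15 1 1 1 1 1 1 1 1) muQ true false 64 RtFR.Cx RtFR.CX RtFR.Ctp RtFR.Ce RtFR.CTn RtFR.CEr.left.right 0x5a = true := by decide +kernel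

theorem cFR_1_22 : chunkOk (LFR.ctx true false 15 1 1 1 1 1 1 1 1) muQ true false 64 RtFR.Cx RtFR.CX RtFR.Ctp RtFR.Ce RtFR.CTn RtFR.CEr.right 0x5a = true := by decide +kernel

theorem cFR_0_0 : chunkOk (LFR.ctx false false 62 64533 131072 4 8 64 128 4 128) muQ false false 64 RtFR.Cx RtFR.CX RtFR.Ctn RtFR.Ce RtFR.CTn RtFR.CEr 0x41215a5a59217596969512172174459590707721747594107307446647 = true := by decide +kernel

theorem covFR : LFR.Full muQ.val RtFR := ⟨(LitT.Cov.split_e (LitT.Cov.split_t (LitT.cov_of_chunk cFR_3_0) (LitT.Cov.split_x (LitT.Cov.split_x (LitT.cov_of_chunk cFR_3_1) (LitT.Cov.split_e (LitT.cov_of_chunk cFR_3_2) (LitT.Cov.split_t (LitT.Cov.split_e (LitT.cov_of_chunk cFR_3_3) (LitT.cov_of_chunk cFR_3_4)) (LitT.cov_of_chunk cFR_3_5)))) (LitT.Cov.split_t (LitT.Cov.split_e (LitT.cov_of_chunk cFR_3_6) (LitT.Cov.split_e (LitT.cov_of_chunk cFR_3_7) (LitT.Cov.split_x (LitT.Cov.split_e (LitT.cov_of_chunk cFR_3_8) (LitT.cov_of_chunk cFR_3_9)) (LitT.cov_of_chunk cFR_3_10)))) (LitT.cov_of_chunk cFR_3_11)))) (LitT.Cov.split_x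 (LitT.cov_of_chunk cFR_3_12) (LitT.Cov.split_t (LitT.cov_of_chunk cFR_3_13) (LitT.Cov.split_e (LitT.Cov.split_t (LitT.Cov.split_x (LitT.Cov.split_e (LitT.Cov.split_t (LitT.cov_of_chunk cFR_3_14) (LitT.Cov.split_e (LitT.cov_of_chunk cFR_3_15) (LitT.cov_of_chunk cFR_3_16))) (LitT.cov_of_chunk cFR_3_17)) (LitT.cov_of_chunk cFR_3_18)) (LitT.cov_of_chunk cFR_3_19)) (LitT.cov_of_chunk cFR_3_20))))), (LitT.Cov.split_E (LitT.Cov.split_E (LitT.Cov.split_e (LitT.Cov.split_t (LitT.cov_of_chunk cFR_1_0) (LitT.Cov.split_x (LitT.Cov.split_x (LitT.cov_of_chunk cFR_1_1) (LitT.Cov.split_e (LitT.cov_of_chunk cFR_1_2) (LitT.Cov.split_t (LitT.Cov.split_e (LitT.cov_of_chunk cFR_1_3) (LitT.cov_of_chunk cFR_1_4)) (LitT.cov_of_chunk cFR_1_5)))) (LitT.Cov.split_t (LitT.Cov.split_e (LitT.cov_of_chunk cFR_1_6) (LitT.Cov.split_e (LitT.cov_of_chunk cFR_1_7) (LitT.Cov.split_x (LitT.Cov.split_e (LitT.cov_of_chunk cFR_1_8) (LitT.cov_of_chunk cFR_1_9)) (LitT.cov_of_chunk cFR_1_10)))) (LitT.cov_of_chunk cFR_1_11)))) (LitT.Cov.split_x (LitT.cov_of_chunk cFR_1_12)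 (LitT.Cov.split_t (LitT.cov_of_chunk cFR_1_13) (LitT.Cov.split_e (LitT.Cov.split_t (LitT.Cov.split_x (LitT.Cov.split_e (LitT.Cov.split_t (LitT.cov_of_chunk cFR_1_14) (LitT.Cov.split_e (LitT.cov_of_chunk cFR_1_15) (LitT.cov_of_chunk cFR_1_16))) (LitT.cov_of_chunk cFR_1_17)) (LitT.cov_of_chunk cFR_1_18)) (LitT.cov_of_chunk cFR_1_19)) (LitT.cov_of_chunk cFR_1_20))))) (LitT.cov_of_chunk cFR_1_21)) (LitT.cov_of_chunk cFR_1_22)), (LitT.cov_of_chunk cFR_2_0), (LitT.cov_of_chunk cFR_0_0)⟩


theorem okFR : LFR.ok = true := by decide +kernel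

theorem rootFR : RtFR.ok muQ = true := by decide +kernel

/-- The terms of the polynomial. -/
def flatFR : FN := [(65,Int.ofNat 4096),(193,Int.negSucc 443),(16777281,Int.negSucc 1023),(16777345,Int.ofNat 3450),(1073741889,Int.negSucc 4259)]

theorem flatFR_eq : FN.beq LFR.flat flatFR = true := by decide +kernel

open FN in
lemma val_flatFR (v : V6) : val flatFR v = v.X * ((dF : ℝ) * Fr v.x (v.x * v.t) (v.x * (v.x + v.e))) := by
  have h : (dF : ℝ) ≠ 0 := by norm_num [dF]
  simp only [flatFR, val_cons, val_nil, mon]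
  norm_num [Fr, dF, F1, F2, F3, F4, F5]
  field_simp
  ring

theorem Fr_pos_part {c : Fin 4 → ℝ} (hc : GW.Simp c) (hx : 0 < mom c 2) : 0 ≤ Fr (mom c 2) (mom c 3) (mom c 4) := by
  have hmu : 0 < muQ.val := by norm_num [muQ, QQ.val]
  have d1 := domS_of (μ := 1) (by norm_num) hx (momF_msg hc.1) (momB_msg (by norm_num) hc.1 (fun l => (hc.2 l).le))
  have hb := (momB_msg (μ := 1) (by norm_num) hc.1 (fun l => (hc.2 l).le)).d4
  have d2 : DomS muQ.val (1 / 2) 0 0 := by
    constructor
    · intro _
      refine ⟨by norm_num, le_rfl, le_rfl, by norm_num, by norm_num, by norm_num, ?_, ?_, ?_, by norm_num, by simp⟩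
      · norm_num [muQ, QQ.val]
      · norm_num [muQ, QQ.val]
      · simp only [if_true]
        norm_num [muQ, QQ.val]
    · intro h
      exact absurd h (lt_irrefl _)
  set v : V6 := ⟨mom c 2, mom c 3 / mom c 2, mom c 4 / mom c 2 - mom c 2, 1 / 2, 0, 0⟩ with hv
  have m1 : RtFR.Cx.mem v.x := by
    constructor
    · simp only [RtFR, hv]
      have := hx.le
      norm_num
      linarith
    · simp only [RtFR, hv]
      norm_num
      norm_num at hb
      linarith
  have m2 : RtFR.CX.mem v.X := by
    constructor <;> simp only [RtFR, hv] <;> norm_num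
  have key := LitT.nonneg okFR rootFR covFR (v := v) m1 m2 d1 d2
  rw [FN.val_of_beq flatFR_eq, val_flatFR] at key
  have e1 : v.x * v.t = mom c 3 := by
    simp only [hv]
    field_simp
  have e2 : v.x * (v.x + v.e) = mom c 4 := by
    simp only [hv]
    field_simp
    ring
  rw [e1, e2] at key
  have hv2 : v.x = mom c 2 := rfl
  rw [hv2] at key
  have h3 : v.X = 1 / 2 := rfl
  rw [h3] at key
  have hd : (0 : ℝ) < (dF : ℝ) := by norm_num [dF]
  by_contra hneg
  push Not at hneg
  have := mul_neg_of_pos_of_neg hd hneg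
  linarith

end Vale.Agent.helper4.Q4
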