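import Vale.Agent.helper4.Q4TreeM
import Vale.Agent.helper4.Q4G.PA22_15

/-!
Checks for pairs of intervals of second moments.
-/

set_option maxRecDepth 100000
set_option linter.unusedVariables false

namespace Vale.Agent.helper4.Q4

theorem cA22_15_3_63 : chunkOkM (LA22_15.ctx true true 255 349 128 7 8 1954 1868 75 77) muQ true true 64 RtA22_15.Cx.right.right.right RtA22_15.CX RtA22_15.Ctp.right.right.right.right.left.right.left RtA22_15.Ce.right.right.right.left.right.left.left RtA22_15.CTp.right.right RtA22_15.CEr.right 0xdd92ff6b9443889b48c21201a04d59b130d276e3de7bd1ca6c747b8156d24c7b71a0fe9e7c67ac9cf77b150d2c75b2978ad1d7e2f07b9226ca6388a8d749066c664820e6c48eac5a97b160d53116901229bdc47bd1b9b5997b811ebafe7b718bc21a7c69b337c67b150d27ffaf288ad1bef6817b91fbf67628a81d997a87c6a33c9987b150d537342efd8677bd21285167b8f588306c6e84145c499d87787b150d6 = true := by decide +kernel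

theorem cA22_15_3_64 : chunkOkM (LA22_15.ctx true true 277 1407 512 7 8 7842 1876 75 165) muQ true true 64 RtA22_15.Cx.right.right.right RtA22_15.CX RtA22_15.Ctp.right.right.right.right.left.right.left RtA22_15.Ce.right.right.right.left.right.left.right RtA22_15.CTp.right.right RtA22_15.CEr.right 0x2101010122c43ffd8ad1c5dfb17b8162b3117b7ada435d692b60c97b150d255616ec8ad195509d7b924a853818a8270d356c697bfc207b150d501701733327996aeb8ad1a9ef72d8a8eb0c396b71aa95fc7c67fbe91a7b150d2afe03d98ad1a5eed67b8138bd107b71163b197c67ec85d07b150d63287a8bc98ad259d0777b831a3b107c67d54b187b140d64217 = true := by decide +kernel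

theorem cA22_15_3_65 : chunkOkM (LA22_15.ctx true true 82 1 1 1 1 1 1 1 1) muQ true true 64 RtA22_15.Cx.right.right RtA22_15.CX RtA22_15.Ctp.right.right.right.right.left.right.right RtA22_15.Ce.right.right.right.left.right.left RtA22_15.CTp.right RtA22_15.CEr.right 0x01 = true := by decide +kernel

theorem cA22_15_3_66 : chunkOkM (LA22_15.ctx true true 82 1 1 1 1 1 1 1 1) muQ true true 64 RtA22_15.Cx.right RtA22_15.CX RtA22_15.Ctp.right.right.right.right.left RtA22_15.Ce.right.right.right.left.right.right RtA22_15.CTp.right RtA22_15.CEr 0x21 = true := by decide +kernel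

theorem cA22_15_3_67 : chunkOkM (LA22_15.ctx true true 82 1 1 1 1 1 1 1 1) muQ true true 64 RtA22_15.Cx RtA22_15.CX RtA22_15.Ctp.right.right.right.right.right RtA22_15.Ce.right.right.right.left RtA22_15.CTp.right RtA22_15.CEr 0x01 = true := by decide +kernel

theorem cA22_15_3_68 : chunkOkM (LA22_15.ctx true true 82 1 1 1 1 1 1 1 1) muQ true true 64 RtA22_15.Cx RtA22_15.CX RtA22_15.Ctp.right.right.right RtA22_15.Ce.right.right.right.right RtA22_15.CTp.right RtA22_15.CEr 0x21 = true := by decide +kernel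

theorem cA22_15_2_0 : chunkOkM (LA22_15.ctx false true 82 1 1 1 1 1 1 1 1) muQ false true 64 RtA22_15.Cx RtA22_15.CX RtA22_15.Ctn RtA22_15.Ce RtA22_15.CTp RtA22_15.CEr 0x49 = true := by decide +kernel

theorem cA22_15_1_0 : chunkOkM (LA22_15.ctx true false 82 1 1 1 1 1 1 1 1) muQ true false 64 RtA22_15.Cx RtA22_15.CX RtA22_15.Ctp RtA22_15.Ce RtA22_15.CTn RtA22_15.CEr 0x4a = true := by decide +kernel

theorem cA22_15_0_0 : chunkOkM (LA22_15.ctx false false 82 1 1 1 1 1 1 1 1) muQ false false 64 RtA22_15.Cx RtA22_15.CX RtA22_15.Ctn RtA22_15.Ce RtA22_15.CTn RtA22_15.CEr 0x49 = true := by decide +kernel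

end Vale.Agent.helper4.Q4
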