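import Vale.Agent.helper4.Q4TreeM
import Vale.Agent.helper4.Q4G.PB15_5

/-!
Checks for pairs of intervals of second moments.
-/

set_option maxRecDepth 100000
set_option linter.unusedVariables false

namespace Vale.Agent.helper4.Q4

theorem cB15_5_1_9 : chunkOkM (LB15_5.ctx true false 244 47 32 7 32 177 1955 4 64) muQ true false 64 RtB15_5.Cx RtB15_5.CX RtB15_5.Ctp.right.right.right RtB15_5.Ce.right.right.right.left.left RtB15_5.CTn RtB15_5.CEr 0xe81e2237f00b1fce0347fd37e58ea75c2e6a2f0d8f630d5aad7557fddbbbaa65c536b3b828f630d3863431f8f06b43166f6ec7fd382016d75c120de1308f619f5bf698f240d8832d4448f06b1f950367fd409ed1975c609389148f630d4373 = true := by decide +kernel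

theorem cB15_5_1_10 : chunkOkM (LB15_5.ctx true false 243 47 32 7 32 177 2023 4 64) muQ true false 64 RtB15_5.Cx RtB15_5.CX RtB15_5.Ctp.right.right.right RtB15_5.Ce.right.right.right.left.right RtB15_5.CTn RtB15_5.CEr 0x1bf423078f02bd5eedf6fd46f794c75c56f6f7b68f630d34cd0e07fd3158c6f75c4d19d5b48f6326aa7b7f240d46931360c77fd11116d875c61968c608f630d433217 = true := by decide +kernel

theorem cB15_5_1_11 : chunkOkM (LB15_5.ctx true false 266 383 256 7 32 93 8177 4 64) muQ true false 64 RtB15_5.Cx RtB15_5.CX RtB15_5.Ctp.right.right.right RtB15_5.Ce.right.right.right.right RtB15_5.CTn RtB15_5.CEr 0x21212121157ec2098f02b13151917fd312213175c2b2e784889f630d32174217421742174 = true := by decide +kernel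

theorem cB15_5_0_0 : chunkOkM (LB15_5.ctx false false 100 1 1 1 1 1 1 1 1) muQ false false 64 RtB15_5.Cx RtB15_5.CX RtB15_5.Ctn RtB15_5.Ce RtB15_5.CTn RtB15_5.CEr 0x49 = true := by decide +kernel

end Vale.Agent.helper4.Q4
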