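import Vale.Agent.helper4.Q4TreeM
import Vale.Agent.helper4.Q4G.PB15_7

/-!
Checks for pairs of intervals of second moments.
-/

set_option maxRecDepth 100000
set_option linter.unusedVariables false

namespace Vale.Agent.helper4.Q4

theorem cB15_7_3_32 : chunkOkM (LB15_7.ctx true true 260 91 64 7 16 345 3791 64 64) muQ true true 64 RtB15_7.Cx.left RtB15_7.CX RtB15_7.Ctp.right.right.right.left RtB15_7.Ce.right.right.left.right.right RtB15_7.CTp.left RtB15_7.CEr.left 0xd93a3ab7dd8c48c6173cb8706467d6b9582a37d2aea1ec6d050d8d1c5ca7dd70ec76b73c3f27e1c98d630d69251e57dd49e51f573c42c8f0328d6b990ac37d240d105492768dda4319e673c49080b7c8d65b85ced7d240d5b8335817dd77a40e273ce2a5be698d630d34eb68e37dd3f6390873c1b7216da8d6641836b7d240dd80e2757dd9d7522273c352446a08d614dabaa7d240d5473a03cfb57dd776118273c1fef05a48d630d4 = true := by decide +kernel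

theorem cB15_7_3_33 : chunkOkM (LB15_7.ctx true true 236 47 32 7 16 87 935 32 64) muQ true true 64 RtB15_7.Cx.right RtB15_7.CX RtB15_7.Ctp.right.right.right.left RtB15_7.Ce.right.right.left.right.right RtB15_7.CTp.left RtB15_7.CEr.left 0x55ca48e7dd43f27ab73c77fb28678d630d = true := by decide +kernel

theorem cB15_7_3_34 : chunkOkM (LB15_7.ctx true true 231 23 16 7 16 87 459 64 64) muQ true true 64 RtB15_7.Cx RtB15_7.CX RtB15_7.Ctp.right.right.right.left RtB15_7.Ce.right.right.left.right RtB15_7.CTp.left RtB15_7.CEr.right 0x36214357dd417b57373c156f8fe58d630d5a5 = true := by decide +kernel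

theorem cB15_7_3_35 : chunkOkM (LB15_7.ctx true true 224 23 16 7 16 87 459 32 32) muQ true true 64 RtB15_7.Cx RtB15_7.CX RtB15_7.Ctp.right.right.right.left RtB15_7.Ce.right.right.left.right RtB15_7.CTp.right RtB15_7.CEr 0x1a0908f7dd51a8966d814c124cb8d630d = true := by decide +kernel

theorem cB15_7_3_36 : chunkOkM (LB15_7.ctx true true 92 1 1 1 1 1 1 1 1) muQ true true 64 RtB15_7.Cx RtB15_7.CX RtB15_7.Ctp.right.right.right.right RtB15_7.Ce.right.right.left RtB15_7.CTp RtB15_7.CEr 0x11 = true := by decide +kernel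

end Vale.Agent.helper4.Q4
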