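import Vale.Agent.helper4.Q4TreeM
import Vale.Agent.helper4.Q4G.PB15_7

/-!
Checks for pairs of intervals of second moments.
-/

set_option maxRecDepth 100000
set_option linter.unusedVariables false

namespace Vale.Agent.helper4.Q4

theorem cB15_7_3_37 : chunkOkM (LB15_7.ctx true true 92 1 1 1 1 1 1 1 1) muQ true true 64 RtB15_7.Cx RtB15_7.CX RtB15_7.Ctp.right.right.left.left RtB15_7.Ce.right.right.right RtB15_7.CTp RtB15_7.CEr 0x59 = true := by decide +kernel

theorem cB15_7_3_38 : chunkOkM (LB15_7.ctx true true 92 1 1 1 1 1 1 1 1) muQ true true 64 RtB15_7.Cx RtB15_7.CX RtB15_7.Ctp.right.right.left.right.left RtB15_7.Ce.right.right.right.left.left RtB15_7.CTp RtB15_7.CEr 0x59 = true := by decide +kernel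

theorem cB15_7_3_39 : chunkOkM (LB15_7.ctx true true 92 1 1 1 1 1 1 1 1) muQ true true 64 RtB15_7.Cx.left RtB15_7.CX RtB15_7.Ctp.right.right.left.right.right RtB15_7.Ce.right.right.right.left.left RtB15_7.CTp RtB15_7.CEr 0x69 = true := by decide +kernel

theorem cB15_7_3_40 : chunkOkM (LB15_7.ctx true true 266 187 128 7 16 657 3859 32 64) muQ true true 64 RtB15_7.Cx.right RtB15_7.CX RtB15_7.Ctp.right.right.left.right.right.left RtB15_7.Ce.right.right.right.left.left.left RtB15_7.CTp RtB15_7.CEr 0x1492558d8cdcf70d56d8b4a67d07d618fef4a28d540d61fa8987dd402414773c2306682e8d530d51b91877dd2d6d5df73c1f1192a68d530d65935975c1a0e17dd58e5b3373c10b5dca7e61a83c37a8d540d6029aa27dd3dd115573cbae1306e61a9246588d540d64aa17107dd4e2c43c73c1d816917e613291dd7e540d5eb44b37dd392cb1173c10f7893e8d615c142258d540d6697593745 = true := by decide +kernel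

theorem cB15_7_3_41 : chunkOkM (LB15_7.ctx true true 260 95 64 7 16 669 3859 32 64) muQ true true 64 RtB15_7.Cx.right RtB15_7.CX RtB15_7.Ctp.right.right.left.right.right.right RtB15_7.Ce.right.right.right.left.left.left RtB15_7.CTp.left RtB15_7.CEr 0x66064887dd641685773c22485f57e6e5477e97d540d597ee6c7dd2ec085473c4a85a8f7e64fe4a2a7d540d573e14f7dd31ee51073c1b393457e6125e8baa8d540d368d08867dd385eede73c72d9d2a78d611fb27c7d540d7654b9277dd34338f573c276863c7e6baf7c107d540d53de3347dd2c9a50b73c4e6d4807e61107b337d540d746 = true := by decide +kernel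

end Vale.Agent.helper4.Q4
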