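import Vale.Agent.helper4.Q4TreeM
import Vale.Agent.helper4.Q4G.PB15_7

/-!
Checks for pairs of intervals of second moments.
-/

set_option maxRecDepth 100000
set_option linter.unusedVariables false

namespace Vale.Agent.helper4.Q4

theorem cB15_7_3_42 : chunkOkM (LB15_7.ctx true true 253 95 64 7 16 333 3859 32 32) muQ true true 64 RtB15_7.Cx.right RtB15_7.CX RtB15_7.Ctp.right.right.left.right.right.right RtB15_7.Ce.right.right.right.left.left.left RtB15_7.CTp.right RtB15_7.CEr 0x132d52ad8cdfbaf906d81c16c437e6ee42fa37d540d14a1508f8cd10214157d840505ac38d65f1b6407d540d71352dca58cde23da26d8209df817e6a7dd72b7d540d4 = true := by decide +kernel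

theorem cB15_7_3_43 : chunkOkM (LB15_7.ctx true true 277 191 128 7 16 1341 7837 64 64) muQ true true 64 RtB15_7.Cx.right RtB15_7.CX RtB15_7.Ctp.right.right.left.right.right RtB15_7.Ce.right.right.right.left.left.right RtB15_7.CTp RtB15_7.CEr 0x163c0bc58cdec924e6d8179101878d6138585478d540d5962bd22b7dd465572e73c67480787e630d547e88ad8cd2cf1af873c15cabf37e61669d0148d540d659345975935b925f57dd6079bdf73cfc06496e61682e1a7e540d58c9bbc7dd330e6ce73c307467938d6fed982c7d540d330bc447ddf296666d8816a5b6e617a23e4b8d540d89e05ea7dd4cf1d6673c2efae2c7e6109fe8588d540d54513acef7dd2f7614473c1e84aebc8d530d3645697593 = true := by decide +kernel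

theorem cB15_7_3_44 : chunkOkM (LB15_7.ctx true true 92 1 1 1 1 1 1 1 1) muQ true true 64 RtB15_7.Cx RtB15_7.CX RtB15_7.Ctp.right.right.left.right RtB15_7.Ce.right.right.right.left.right RtB15_7.CTp RtB15_7.CEr 0x59 = true := by decide +kernel

theorem cB15_7_3_45 : chunkOkM (LB15_7.ctx true true 92 1 1 1 1 1 1 1 1) muQ true true 64 RtB15_7.Cx RtB15_7.CX RtB15_7.Ctp.right.right.left.right RtB15_7.Ce.right.right.right.right RtB15_7.CTp RtB15_7.CEr 0x59 = true := by decide +kernel

theorem cB15_7_3_46 : chunkOkM (LB15_7.ctx true true 260 91 64 7 16 351 3859 64 64) muQ true true 64 RtB15_7.Cx.left RtB15_7.CX RtB15_7.Ctp.right.right.right.left RtB15_7.Ce.right.right.right.left.left.left RtB15_7.CTp.left RtB15_7.CEr 0x354ccec7dd45effcc73c251714678d64e166447d240d5a51186a2f547dd4cc00fb73c1acd49698d6a175e857d240df0ede677dd9476a8173c196c1ba48d6bcaf3ed7d240d53cb80f667dd81f12f573ced61d757d610cc1a4e8d23ba975d050d7dd5aa377dd8098d7d73c50f23cdb8d630d98398fb7dd78bc55373c47b0dab7e630d4771fbb97dd5ed41e373c420089a38d630d321c9379e87dd84d30f073c4d751d788d66a755007d240d4693736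 = true := by decide +kernel

end Vale.Agent.helper4.Q4
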