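import Vale.Agent.helper4.Q4TreeM
import Vale.Agent.helper4.Q4G.PB15_7

/-!
Checks for pairs of intervals of second moments.
-/

set_option maxRecDepth 100000
set_option linter.unusedVariables false

namespace Vale.Agent.helper4.Q4

theorem cB15_7_3_47 : chunkOkM (LB15_7.ctx true true 293 735 512 7 16 1389 15521 64 64) muQ true true 64 RtB15_7.Cx.left RtB15_7.CX RtB15_7.Ctp.right.right.right.left RtB15_7.Ce.right.right.right.left.left.right RtB15_7.CTp.left RtB15_7.CEr 0x93c12157dd97b69a973c3599b147e69673976e240d214376c107dd31d5dae73c22b924b7e6a66d0d6e240dd46a7b37dd8dc6bcd73c2e69f377e68f880f6e240d521742177bd2ee87dd5f67f4e73c16a32a6c8d6c4c89d77d240da715ef17dd7eef63c73c2e5a7e8e8d6b7191547d240d546696969a1905cf15c90c48cd86c661873c136a3c308e630d66934697697469369746933217 = true := by decide +kernel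

theorem cB15_7_3_48 : chunkOkM (LB15_7.ctx true true 237 45 32 7 16 177 969 32 32) muQ true true 64 RtB15_7.Cx.left RtB15_7.CX RtB15_7.Ctp.right.right.right.left RtB15_7.Ce.right.right.right.left.left RtB15_7.CTp.right RtB15_7.CEr 0x203189858cd264dd16d81ac823ca8d679ec2387d240d1a49382f8cd4806a86d82b851fa48d630d3 = true := by decide +kernel

theorem cB15_7_3_49 : chunkOkM (LB15_7.ctx true true 243 47 32 7 16 171 1921 32 64) muQ true true 64 RtB15_7.Cx.right RtB15_7.CX RtB15_7.Ctp.right.right.right.left.left RtB15_7.Ce.right.right.right.left.left.left RtB15_7.CTp RtB15_7.CEr 0x16fa0da08cd8377746d8346e63178d630d37d95227dd64abaa573c395be18a8d630d5e852a07dd426bdf273c38970edc8d630d65 = true := by decide +kernel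

end Vale.Agent.helper4.Q4
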