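import Vale.Agent.helper4.Q4TreeM
import Vale.Agent.helper4.Q4G.PB16_10

/-!
Checks for pairs of intervals of second moments.
-/

set_option maxRecDepth 100000
set_option linter.unusedVariables false

namespace Vale.Agent.helper4.Q4

theorem cB16_10_3_113 : chunkOkM (LB16_10.ctx true true 290 439 256 13 16 1547 2345 135 75) muQ true true 64 RtB16_10.Cx.right.right RtB16_10.CX RtB16_10.Ctp.right.right.right.left.right.right RtB16_10.Ce.right.right.right.left.right.left RtB16_10.CTp.right.right RtB16_10.CEr.right.right 0x91794277ed231908574c77de8217f62f82ac6f240d5a571b9ec57ed313df0174c92681327f64a715c6f240d7f8c6007edc0dec537f620d46217d98d1a7ed2e7b89074cabad9f57f62ac1d267f240d817319e7ed3a6dcd374ca1b907f7f6137f58f7f240d621742178d99e937ed4b1b9ba74c790946f7f610608e27f240d7db03ac7ed35887c774c79e81667f6125ab477f240d647 = true := by decide +kernel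

theorem cB16_10_3_114 : chunkOkM (LB16_10.ctx true true 291 447 256 13 16 3107 2385 64 75) muQ true true 64 RtB16_10.Cx.right.right RtB16_10.CX RtB16_10.Ctp.right.right.right.left.right RtB16_10.Ce.right.right.right.left.right.right RtB16_10.CTp.right.right RtB16_10.CEr.right.right 0x2150869727ed343db2a74c19eaf7128f630d2174217693abf32787ed1f7cde774c8c40e657f69736066f240d6e019af7ed32c399474c95774d67f67c34106f240d6448bbda27ed2c217fc74c6f7f768c8f630d3217 = true := by decide +kernel

theorem cB16_10_3_115 : chunkOkM (LB16_10.ctx true true 289 223 128 13 16 6253 2385 128 35) muQ true true 64 RtB16_10.Cx.right RtB16_10.CX RtB16_10.Ctp.right.right.right.right RtB16_10.Ce.right.right.right.left RtB16_10.CTp.right RtB16_10.CEr.right 0x010101012150e0f927ed33c134b74cbd22e9e7f61a9ae0b7f240d45851a6938dd347009e74c3cf07a47f624d7d6b7f240d4643e10418dd1c8884474c35c3b7b7f62ad0d457f240d67fcf617e294c2409f5d3d97b2a1b19a7f230d4968c9d28dd4b2062e74c3338bac77b2be3ec87f6357daa67f250d64a551141143301730170173 = true := by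 decide +kernel

theorem cB16_10_3_116 : chunkOkM (LB16_10.ctx true true 98 1 1 1 1 1 1 1 1) muQ true true 64 RtB16_10.Cx RtB16_10.CX RtB16_10.Ctp.right.right RtB16_10.Ce.right.right.right.right RtB16_10.CTp.right RtB16_10.CEr 0x21 = true := by decide +kernel

theorem cB16_10_2_0 : chunkOkM (LB16_10.ctx false true 98 1 1 1 1 1 1 1 1) muQ false true 64 RtB16_10.Cx RtB16_10.CX RtB16_10.Ctn RtB16_10.Ce RtB16_10.CTp RtB16_10.CEr 0x49 = true := by decide +kernel

theorem cB16_10_1_0 : chunkOkM (LB16_10.ctx true false 98 1 1 1 1 1 1 1 1) muQ true false 64 RtB16_10.Cx RtB16_10.CX RtB16_10.Ctp RtB16_10.Ce RtB16_10.CTn RtB16_10.CEr 0x4a = true := by decide +kernel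

theorem cB16_10_0_0 : chunkOkM (LB16_10.ctx false false 98 1 1 1 1 1 1 1 1) muQ false false 64 RtB16_10.Cx RtB16_10.CX RtB16_10.Ctn RtB16_10.Ce RtB16_10.CTn RtB16_10.CEr 0x49 = true := by decide +kernel

end Vale.Agent.helper4.Q4
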