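import Vale.Agent.helper4.Q4TreeM
import Vale.Agent.helper4.Q4G.PB16_6

/-!
Checks for pairs of intervals of second moments.
-/

set_option maxRecDepth 100000
set_option linter.unusedVariables false

namespace Vale.Agent.helper4.Q4

theorem cB16_6_1_36 : chunkOkM (LB16_6.ctx true false 259 111 64 5 16 1547 1195 4 128) muQ true false 64 RtB16_6.Cx.right.right RtB16_6.CX RtB16_6.Ctp.right.right.right.left.right RtB16_6.Ce.right.right.right.left.right RtB16_6.CTn RtB16_6.CEr.left 0x14d098b38ed6dcfe0674c19c34c2b8f630d142869c78ed9cd0ea674c1a8d76f18f630d44d9131d74c11ec6de8a9f620d3217d1b6e3b7ed7dbf4a574c5f010b6f8d762d6b7f640d16d389f18eda7f4c1a74cf2081437f619acbfb7f240d711814cf18ed57ac19b74c24d80c6f81bba11ef8f640d1af2f6fc8ed49329e674c185ca0248f630d4699157d8674c2ad658978f620d4734 = true := by decide +kernel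

theorem cB16_6_1_37 : chunkOkM (LB16_6.ctx true false 226 27 16 5 16 403 145 4 128) muQ true false 64 RtB16_6.Cx.right RtB16_6.CX RtB16_6.Ctp.right.right.right.right RtB16_6.Ce.right.right.right.left RtB16_6.CTn RtB16_6.CEr.left 0xf6fb236fd6caa5f65c10d66a428e66c4e1487f240d = true := by decide +kernel

theorem cB16_6_1_38 : chunkOkM (LB16_6.ctx true false 97 1 1 1 1 1 1 1 1) muQ true false 64 RtB16_6.Cx RtB16_6.CX RtB16_6.Ctp.right.right RtB16_6.Ce.right.right.right.right RtB16_6.CTn RtB16_6.CEr.left 0x21 = true := by decide +kernel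

theorem cB16_6_1_39 : chunkOkM (LB16_6.ctx true false 97 1 1 1 1 1 1 1 1) muQ true false 64 RtB16_6.Cx RtB16_6.CX RtB16_6.Ctp.right RtB16_6.Ce RtB16_6.CTn RtB16_6.CEr.right 0x5a = true := by decide +kernel

theorem cB16_6_0_0 : chunkOkM (LB16_6.ctx false false 97 1 1 1 1 1 1 1 1) muQ false false 64 RtB16_6.Cx RtB16_6.CX RtB16_6.Ctn RtB16_6.Ce RtB16_6.CTn RtB16_6.CEr 0x49 = true := by decide +kernel

end Vale.Agent.helper4.Q4
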