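import Vale.Agent.helper4.Q4TreeM
import Vale.Agent.helper4.Q4G.PB16_8

/-!
Checks for pairs of intervals of second moments.
-/

set_option maxRecDepth 100000
set_option linter.unusedVariables false

namespace Vale.Agent.helper4.Q4

theorem cB16_8_3_0 : chunkOkM (LB16_8.ctx true true 101 1 1 1 1 1 1 1 1) muQ true true 64 RtB16_8.Cx RtB16_8.CX RtB16_8.Ctp.left RtB16_8.Ce RtB16_8.CTp RtB16_8.CEr 0x41 = true := by decide +kernel

theorem cB16_8_3_1 : chunkOkM (LB16_8.ctx true true 190 13 8 9 16 39 8 2 16) muQ true true 64 RtB16_8.Cx RtB16_8.CX RtB16_8.Ctp.right RtB16_8.Ce.left RtB16_8.CTp RtB16_8.CEr 0x24f56227fd1c783f97f817921fa034af42769630859f140d = true := by decide +kernel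

theorem cB16_8_3_2 : chunkOkM (LB16_8.ctx true true 250 193 128 9 16 1027 195 4 16) muQ true true 64 RtB16_8.Cx RtB16_8.CX RtB16_8.Ctp.right.left RtB16_8.Ce.right.left.left RtB16_8.CTp RtB16_8.CEr 0x1169eef1e86fd32ad20f7f824ea13a7f61f8f3a358f510414687f450d51048197fd5f1742575c1f5d5e138f5ef64a06f440d5369431144141414910bea24e8ed2b721767f813ca97a78f644b31e118f58faa14f7f450d3d107097fd506472c75c1816440a8f646ab38de8f570d13db7f450d577776946944934934933 = true := by decide +kernel

theorem cB16_8_3_3 : chunkOkM (LB16_8.ctx true true 205 13 8 9 16 128 55 2 16) muQ true true 64 RtB16_8.Cx RtB16_8.CX RtB16_8.Ctp.right.left.left RtB16_8.Ce.right.left.right RtB16_8.CTp RtB16_8.CEr 0x8eced16fd1a2b1066c2783242339f55db215c1c9f440d = true := by decide +kernel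

theorem cB16_8_3_4 : chunkOkM (LB16_8.ctx true true 234 49 32 9 16 559 205 4 16) muQ true true 64 RtB16_8.Cx.left RtB16_8.CX RtB16_8.Ctp.right.left.right.left RtB16_8.Ce.right.left.right.left.left RtB16_8.CTp RtB16_8.CEr 0xebe2c16fd25cf69e7f858d52347f6217e28208f540d3e72af77fd571856a75cf635b0a7f630881b518f540d549fae68637ed32ffbf47f810ef61d28f64111854d8f540d4eda4e37fd74f6dfd75c131361cd8f645995d8c8f540d573 = true := by decide +kernel

theorem cB16_8_3_5 : chunkOkM (LB16_8.ctx true true 232 25 16 9 16 559 435 4 16) muQ true true 64 RtB16_8.Cx.left RtB16_8.CX RtB16_8.Ctp.right.left.right.left RtB16_8.Ce.right.left.right.left.right RtB16_8.CTp RtB16_8.CEr 0xbb408fc7ed27c47877f8be750687f63b7700ce8f5a2c7a677f450d35bb51d7fd40e7da875c1b1c122e8f6558e36c28f5374e1867f450d5132104f18ed1fc45387f825cffabc8f581bb3ef7f440d4da91367fd7ee257475c7d75296f626d917358f55fba8107f450d54185d0fd7fdbf745e6f8210587a4e9f52b45135e39f440d3 = true := by decide +kernel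

theorem cB16_8_3_6 : chunkOkM (LB16_8.ctx true true 101 1 1 1 1 1 1 1 1) muQ true true 64 RtB16_8.Cx.right RtB16_8.CX RtB16_8.Ctp.right.left.right.left RtB16_8.Ce.right.left.right.left RtB16_8.CTp RtB16_8.CEr 0x49 = true := by decide +kernel

end Vale.Agent.helper4.Q4
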