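import Vale.Agent.helper4.Q4TreeM
import Vale.Agent.helper4.Q4G.PB16_8

/-!
Checks for pairs of intervals of second moments.
-/

set_option maxRecDepth 100000
set_option linter.unusedVariables false

namespace Vale.Agent.helper4.Q4

theorem cB16_8_3_14 : chunkOkM (LB16_8.ctx true true 101 1 1 1 1 1 1 1 1) muQ true true 64 RtB16_8.Cx RtB16_8.CX RtB16_8.Ctp.right.right.left RtB16_8.Ce.right.left.left RtB16_8.CTp RtB16_8.CEr 0x11 = true := by decide +kernel

theorem cB16_8_3_15 : chunkOkM (LB16_8.ctx true true 101 1 1 1 1 1 1 1 1) muQ true true 64 RtB16_8.Cx RtB16_8.CX RtB16_8.Ctp.right.right.left.left RtB16_8.Ce.right.left.right.left RtB16_8.CTp RtB16_8.CEr 0x11 = true := by decide +kernel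

theorem cB16_8_3_16 : chunkOkM (LB16_8.ctx true true 231 13 8 9 16 1261 225 4 32) muQ true true 64 RtB16_8.Cx RtB16_8.CX RtB16_8.Ctp.right.right.left.left RtB16_8.Ce.right.left.right.right.left RtB16_8.CTp RtB16_8.CEr 0x696919010f37f06c11c05c97adb927fdaf8f7e975cd0de3377f530d6533 = true := by decide +kernel

theorem cB16_8_3_17 : chunkOkM (LB16_8.ctx true true 237 25 16 9 16 663 235 8 32) muQ true true 64 RtB16_8.Cx.left RtB16_8.CX RtB16_8.Ctp.right.right.left.left RtB16_8.Ce.right.left.right.right.right RtB16_8.CTp RtB16_8.CEr 0x17040d07f06c1bf9b217fd7b15b5f83602896f780e34eb7f6191297308f550d36a6a602a677fdefe8da675c163906b68f6181330dc8f540d1d340e17f06cf78546a7fdda7a6b275c7c136e67f530d5d5b19a57fdc8251fb75c2b9fcf68b856f68d7f61a13465e8f550d365 = true := by decide +kernel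

theorem cB16_8_3_18 : chunkOkM (LB16_8.ctx true true 230 27 16 9 16 637 235 4 16) muQ true true 64 RtB16_8.Cx.right RtB16_8.CX RtB16_8.Ctp.right.right.left.left RtB16_8.Ce.right.left.right.right.right RtB16_8.CTp RtB16_8.CEr 0x69eebfd16fd1eb12fa7f826a5f2038f638d72bb18f540d2e6457a7fd3fa6a9275c223035608f6369233548f540d53 = true := by decide +kernel

theorem cB16_8_3_19 : chunkOkM (LB16_8.ctx true true 101 1 1 1 1 1 1 1 1) muQ true true 64 RtB16_8.Cx RtB16_8.CX RtB16_8.Ctp.right.right.left.right RtB16_8.Ce.right.left.right RtB16_8.CTp RtB16_8.CEr 0x69 = true := by decide +kernel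

theorem cB16_8_3_20 : chunkOkM (LB16_8.ctx true true 101 1 1 1 1 1 1 1 1) muQ true true 64 RtB16_8.Cx RtB16_8.CX RtB16_8.Ctp.right.right.right RtB16_8.Ce.right.left RtB16_8.CTp RtB16_8.CEr 0x11 = true := by decide +kernel

end Vale.Agent.helper4.Q4
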