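import Vale.Agent.helper4.Q4TreeM
import Vale.Agent.helper4.Q4G.PB16_9

/-!
Checks for pairs of intervals of second moments.
-/

set_option maxRecDepth 100000
set_option linter.unusedVariables false

namespace Vale.Agent.helper4.Q4

theorem cB16_9_3_218 : chunkOkM (LB16_9.ctx true true 306 447 256 11 16 6227 2385 256 128) muQ true true 64 RtB16_9.Cx.right.right.right RtB16_9.CX RtB16_9.Ctp.right.right.right.left.right.right RtB16_9.Ce.right.right.right.left.right.right RtB16_9.CTp.right RtB16_9.CEr.right.left 0x21a6402207ed110d670209f620d15a11a288ed250a839284c19bcd967b3ddb093d8f62b96f4f7f250d56932174693217b254fb87ed219c7df78f620de80d0fc7eddf7600874c1e26a33c8f612b4be17f240d192b3b938ed24bc067584c2f3839e77b2623b3b98f6e4188e6f250d5169653018ed2178b84f84c369dace18f630d3211daa4ac18ed2b92f9e884c38f045538f64f074067f240d4693754 = true := by decide +kernel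

theorem cB16_9_3_219 : chunkOkM (LB16_9.ctx true true 282 111 64 11 16 1547 1195 256 128) muQ true true 64 RtB16_9.Cx.right.right.right RtB16_9.CX RtB16_9.Ctp.right.right.right.left.right.right RtB16_9.Ce.right.right.right.left.right.right RtB16_9.CTp.right RtB16_9.CEr.right.right 0xfffc58f7ed14992265c18d9116a8f61f363b57f240dcf20c9c7ed14b833574c247856f98f62fefb137f240d412e079718ed184ce5475c1b70797e8f622e32a77f240d5a55 = true := by decide +kernel

theorem cB16_9_3_220 : chunkOkM (LB16_9.ctx true true 289 223 128 11 16 6253 595 128 128) muQ true true 64 RtB16_9.Cx.right RtB16_9.CX RtB16_9.Ctp.right.right.right.right RtB16_9.Ce.right.right.right.left RtB16_9.CTp.right RtB16_9.CEr 0x01010101e7d03287edce4fe2f7f220d28d3221e8ed24f2d8e75c11fe09b7f6afcb79e7f240d51d7581658ed85f8e7f7f6aaf27717f230d14b2161c8ed232ffef284c2b2b7b07f6c0f27e07f240d5641e815a48ede12f6f07f220d61141143330170173017 = true := by decide +kernel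

theorem cB16_9_3_221 : chunkOkM (LB16_9.ctx true true 99 1 1 1 1 1 1 1 1) muQ true true 64 RtB16_9.Cx RtB16_9.CX RtB16_9.Ctp.right.right RtB16_9.Ce.right.right.right.right RtB16_9.CTp RtB16_9.CEr 0x21 = true := by decide +kernel

theorem cB16_9_2_0 : chunkOkM (LB16_9.ctx false true 99 1 1 1 1 1 1 1 1) muQ false true 64 RtB16_9.Cx RtB16_9.CX RtB16_9.Ctn RtB16_9.Ce RtB16_9.CTp RtB16_9.CEr 0x49 = true := by decide +kernel

theorem cB16_9_1_0 : chunkOkM (LB16_9.ctx true false 99 1 1 1 1 1 1 1 1) muQ true false 64 RtB16_9.Cx RtB16_9.CX RtB16_9.Ctp RtB16_9.Ce RtB16_9.CTn RtB16_9.CEr 0x4a = true := by decide +kernel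

theorem cB16_9_0_0 : chunkOkM (LB16_9.ctx false false 99 1 1 1 1 1 1 1 1) muQ false false 64 RtB16_9.Cx RtB16_9.CX RtB16_9.Ctn RtB16_9.Ce RtB16_9.CTn RtB16_9.CEr 0x49 = true := by decide +kernel

end Vale.Agent.helper4.Q4
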