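import Vale.Agent.helper4.Q4TreeM
import Vale.Agent.helper4.Q4G.PB17_11

/-!
Checks for pairs of intervals of second moments.
-/

set_option maxRecDepth 100000
set_option linter.unusedVariables false

namespace Vale.Agent.helper4.Q4

theorem cB17_11_3_200 : chunkOkM (LB17_11.ctx true true 280 255 128 15 16 1673 5401 35 165) muQ true true 64 RtB17_11.Cx.right.right.right RtB17_11.CX RtB17_11.Ctp.right.right.right.left.right.right RtB17_11.Ce.right.right.right.right.left.right.left RtB17_11.CTp.right.right RtB17_11.CEr.right.right 0x31f26a6dd53c344d73cdb997a6d9ab4b38d08d11f132c318e050df03265dd6a1dcf873c820b996d7fd872557e640d8a686577cd555fbe873c8482476d93e1aac6d7dd45b4e7e623ab556e260d787ae7d6dd5d59e6673c88ca206d7c71f8297e640d43298dd66f00be743546dd48ba6bd73c131b9ba38e630d491402173c115fe3d58e68d98356e230d76c4a966dd588620c73cdfaf9d67e630d436 = true := by decide +kernel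

theorem cB17_11_3_201 : chunkOkM (LB17_11.ctx true true 280 255 128 15 16 1673 5445 35 165) muQ true true 64 RtB17_11.Cx.right.right RtB17_11.CX RtB17_11.Ctp.right.right.right.left.right.right RtB17_11.Ce.right.right.right.right.left.right.right RtB17_11.CTp.right.right RtB17_11.CEr.right.right 0x5e9c1f6dd471172273cad63666d96ec9a7c7e627aafd17e250d484f0c6dd4f448f373c10987097d9142ebdd78e6403eb96e250d6ba0ac6dd4fb442a73cfd2b626d91604f0ec8e640d1431f447dd6c7d6c573c8859946d7182ba0348e6138d8177e250d743b656447cd439949473c5f0f386d915745fad8e63f6af36e250d88eaad87cd444a40c73ccf6c7747e630d3fa88b573cec5665d917255cb08e6b3420d6e240d7463217 = true := by decide +kernel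

theorem cB17_11_3_202 : chunkOkM (LB17_11.ctx true true 303 1023 512 15 16 6685 21835 35 77) muQ true true 64 RtB17_11.Cx.right RtB17_11.CX RtB17_11.Ctp.right.right.right.left RtB17_11.Ce.right.right.right.right.right RtB17_11.CTp.right RtB17_11.CEr.right 0x2121212121014d5281573c3281fa6d93e144617f623b0a06e240d15275c4a8cd851b5c873c1208c9776b40c781f7f6150eb66f250d52238ce388cd3cfb65676b51b39447f613fef26f240d6693342174217401769342175932174593 = true := by decide +kernel

theorem cB17_11_3_203 : chunkOkM (LB17_11.ctx true true 93 1 1 1 1 1 1 1 1) muQ true true 64 RtB17_11.Cx RtB17_11.CX RtB17_11.Ctp.right.right.right.right RtB17_11.Ce.right.right RtB17_11.CTp.right RtB17_11.CEr.right 0x01 = true := by decide +kernel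

theorem cB17_11_2_0 : chunkOkM (LB17_11.ctx false true 93 1 1 1 1 1 1 1 1) muQ false true 64 RtB17_11.Cx RtB17_11.CX RtB17_11.Ctn RtB17_11.Ce RtB17_11.CTp RtB17_11.CEr 0x49 = true := by decide +kernel

theorem cB17_11_1_0 : chunkOkM (LB17_11.ctx true false 93 1 1 1 1 1 1 1 1) muQ true false 64 RtB17_11.Cx RtB17_11.CX RtB17_11.Ctp RtB17_11.Ce RtB17_11.CTn RtB17_11.CEr 0x4a = true := by decide +kernel

theorem cB17_11_0_0 : chunkOkM (LB17_11.ctx false false 93 1 1 1 1 1 1 1 1) muQ false false 64 RtB17_11.Cx RtB17_11.CX RtB17_11.Ctn RtB17_11.Ce RtB17_11.CTn RtB17_11.CEr 0x49 = true := by decide +kernel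

end Vale.Agent.helper4.Q4
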