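import Vale.Agent.helper4.Q4TreeM
import Vale.Agent.helper4.Q4G.PB17_12

/-!
Checks for pairs of intervals of second moments.
-/

set_option maxRecDepth 100000
set_option linter.unusedVariables false

namespace Vale.Agent.helper4.Q4

theorem cB17_12_3_44 : chunkOkM (LB17_12.ctx true true 97 1 1 1 1 1 1 1 1) muQ true true 64 RtB17_12.Cx.left.left RtB17_12.CX RtB17_12.Ctp.right.right.right.left.left RtB17_12.Ce.right.right.right.left.left.right RtB17_12.CTp.right.right RtB17_12.CEr.right.right 0x21 = true := by decide +kernel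

theorem cB17_12_3_45 : chunkOkM (LB17_12.ctx true true 298 239 128 33 32 1589 2541 275 169) muQ true true 64 RtB17_12.Cx.left.right RtB17_12.CX RtB17_12.Ctp.right.right.right.left.left RtB17_12.Ce.right.right.right.left.left.right RtB17_12.CTp.right.right RtB17_12.CEr.right.right.left 0x2caa0417ed32a89a274c3114a2a7e9a5851f37f6c269d16f250d2171d9e71c7ed3ece14a74c21170f97e98771a687f6171a79e7f250d44a20a19717ed666fbc674c95cb1a57f6d49bad6f240d1823f197ed6ba989574c7652c557f616590bc7f240d484a54a5548bbd3a7ed8c3d79d74c1390c8748f630d6975931ebe8697ed4cc57a074ce18fe36e9b3792357f6854bc647e550d47f24997ed9df28c674c1298f5a77bb25c3647f6d118af6f550d546973 = true := by decide +kernel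

theorem cB17_12_3_46 : chunkOkM (LB17_12.ctx true true 275 59 32 35 32 805 1265 75 377) muQ true true 64 RtB17_12.Cx.left.right RtB17_12.CX RtB17_12.Ctp.right.right.right.left.left RtB17_12.Ce.right.right.right.left.left.right RtB17_12.CTp.right.right RtB17_12.CEr.right.right.right 0x2286accb77ed4fb20ba74ca966136e945508847f6e4dd3977e512223ae7f260d53eb5ed7ed6a8f89274ca0a36c6e73a22efb28e61ab156ff8e5a920356f260d322865a5 = true := by decide +kernel

theorem cB17_12_3_47 : chunkOkM (LB17_12.ctx true true 97 1 1 1 1 1 1 1 1) muQ true true 64 RtB17_12.Cx.left RtB17_12.CX RtB17_12.Ctp.right.right.right.left.right RtB17_12.Ce.right.right.right.left.left RtB17_12.CTp.right.right RtB17_12.CEr.right 0x01 = true := by decide +kernel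

theorem cB17_12_3_48 : chunkOkM (LB17_12.ctx true true 246 31 16 17 16 399 627 35 65) muQ true true 64 RtB17_12.Cx.right RtB17_12.CX RtB17_12.Ctp.right.right.right.left.left RtB17_12.Ce.right.right.right.left.left RtB17_12.CTp.right.right RtB17_12.CEr.right.left 0x3beed6a0998b1cc398c13fae84154bfe78e6208a91168e540d = true := by decide +kernel

theorem cB17_12_3_49 : chunkOkM (LB17_12.ctx true true 280 123 64 17 16 1589 2541 75 169) muQ true true 64 RtB17_12.Cx.right.left RtB17_12.CX RtB17_12.Ctp.right.right.right.left.left RtB17_12.Ce.right.right.right.left.left RtB17_12.CTp.right.right RtB17_12.CEr.right.right.left 0x1f1f2347ed481772574ce938bc6e9a58453198e640d4243ff17ed78ca35c74c1ad20c777bb18541c98e640d551356b37ed8aa4e1074c4ebb2417f632d661a7f540d13290f57ed5027b7674ca96a2b6e944ff54f7f61e1856e7f550d43b8dae7ed924749b74c8034ed67b77919bc7f61d9bf1e7f550d544625d27ed889f18f74c3aef0b97f62efcd927f540d374385ed47ed92bff1b74c2647df67b4ed19667f621aa0b278e550d435bb5cc57ed78a4d5674c20d4 = true := by decide +kernel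

end Vale.Agent.helper4.Q4
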