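import Vale.Agent.helper4.Q4TreeM
import Vale.Agent.helper4.Q4G.PB17_12

/-!
Checks for pairs of intervals of second moments.
-/

set_option maxRecDepth 100000
set_option linter.unusedVariables false

namespace Vale.Agent.helper4.Q4

theorem cB17_12_3_50 : chunkOkM (LB17_12.ctx true true 260 61 32 17 16 399 627 75 195) muQ true true 64 RtB17_12.Cx.right.left RtB17_12.CX RtB17_12.Ctp.right.right.right.left.left RtB17_12.Ce.right.right.right.left.left RtB17_12.CTp.right.right RtB17_12.CEr.right.right.right 0x3cf5e1d7ed989321474c140aed87e7340c7ae58e61d3008348e550d5a5 = true := by decide +kernel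

theorem cB17_12_3_51 : chunkOkM (LB17_12.ctx true true 97 1 1 1 1 1 1 1 1) muQ true true 64 RtB17_12.Cx.right.right RtB17_12.CX RtB17_12.Ctp.right.right.right.left.left RtB17_12.Ce.right.right.right.left.left RtB17_12.CTp.right.right RtB17_12.CEr.right.right 0x69 = true := by decide +kernel

theorem cB17_12_3_52 : chunkOkM (LB17_12.ctx true true 97 1 1 1 1 1 1 1 1) muQ true true 64 RtB17_12.Cx.right RtB17_12.CX RtB17_12.Ctp.right.right.right.left.right RtB17_12.Ce.right.right.right.left.left RtB17_12.CTp.right.right RtB17_12.CEr.right 0x11 = true := by decide +kernel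

theorem cB17_12_3_53 : chunkOkM (LB17_12.ctx true true 291 479 256 17 16 1617 5115 35 195) muQ true true 64 RtB17_12.Cx.left RtB17_12.CX RtB17_12.Ctp.right.right.right.left RtB17_12.Ce.right.right.right.left.right RtB17_12.CTp.right.right RtB17_12.CEr.right 0x212121017a775b17eda3ed78074c9dfddde7f6273aeb57f240d4a164c37ed929ab2474c143635548f610f1e9f7f240d6b8a8a34a87b534f29fe19d812eaf07f8f630d66935933217421742172174 = true := by decide +kernel

theorem cB17_12_3_54 : chunkOkM (LB17_12.ctx true true 255 61 32 17 16 399 1287 35 65) muQ true true 64 RtB17_12.Cx.right.left RtB17_12.CX RtB17_12.Ctp.right.right.right.left.left RtB17_12.Ce.right.right.right.left.right.left RtB17_12.CTp.right.right RtB17_12.CEr.right.left 0x250060caefa7b11c4502a0fae81b160a17f62c2def67f540d = true := by decide +kernel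

theorem cB17_12_3_55 : chunkOkM (LB17_12.ctx true true 276 123 64 17 16 1589 2585 35 195) muQ true true 64 RtB17_12.Cx.right.left RtB17_12.CX RtB17_12.Ctp.right.right.right.left.left.left RtB17_12.Ce.right.right.right.left.right.left RtB17_12.CTp.right.right RtB17_12.CEr.right.right 0x26ab0827ed9e702f274c2053236e725468a47f63f081cd7f550d36619d67ed1040f18884c27dbdf17e838873d97f62e8ef9e7f550d48c23b57ed1058c4c684c1e16ebc7e82acbaaa7f62a0ac637f550d435e5cc7ed878823174c63ec3697f62a389d27f540d659374 = true := by decide +kernel

end Vale.Agent.helper4.Q4
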