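import Vale.Agent.helper4.Q4TreeM
import Vale.Agent.helper4.Q4G.PB17_13

/-!
Checks for pairs of intervals of second moments.
-/

set_option maxRecDepth 100000
set_option linter.unusedVariables false

namespace Vale.Agent.helper4.Q4

theorem cB17_13_3_69 : chunkOkM (LB17_13.ctx true true 301 127 64 19 16 1673 5445 341 105) muQ true true 64 RtB17_13.Cx.right.right RtB17_13.CX RtB17_13.Ctp.right.right.right.left.right.right RtB17_13.Ce.right.right.right.right.left.right RtB17_13.CTp.right.right.right RtB17_13.CEr.right.right.right 0x83808637fd3fa393675c192e1c07f81a19ad97f710e1d34009f6427ca5998f260d309b0cb75c4a9f1c97f71a16fc2df9f630d3da85297fdcb27a865c3658f127f7211eba2669f640d432175831d8976c746891a7f92043c47f8f8da5945578f640db02e9fe98f06b5554a5d87fd2889f7d7f8e7cb079a8f655dd87878f240d74 = true := by decide +kernel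

theorem cB17_13_3_70 : chunkOkM (LB17_13.ctx true true 325 1023 512 19 16 3339 21835 165 105) muQ true true 64 RtB17_13.Cx.right RtB17_13.CX RtB17_13.Ctp.right.right.right.left RtB17_13.Ce.right.right.right.right.right RtB17_13.CTp.right.right RtB17_13.CEr.right.right 0x212121210165f39757fd2eab3ef7f89803dc7949f630d0521dd3df047f06c054632174217401769342175932174593 = true := by decide +kernel

theorem cB17_13_3_71 : chunkOkM (LB17_13.ctx true true 103 1 1 1 1 1 1 1 1) muQ true true 64 RtB17_13.Cx RtB17_13.CX RtB17_13.Ctp.right.right.right.right RtB17_13.Ce.right.right RtB17_13.CTp.right.right RtB17_13.CEr.right 0x01 = true := by decide +kernel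

theorem cB17_13_2_0 : chunkOkM (LB17_13.ctx false true 103 1 1 1 1 1 1 1 1) muQ false true 64 RtB17_13.Cx RtB17_13.CX RtB17_13.Ctn RtB17_13.Ce RtB17_13.CTp RtB17_13.CEr 0x49 = true := by decide +kernel

theorem cB17_13_1_0 : chunkOkM (LB17_13.ctx true false 103 1 1 1 1 1 1 1 1) muQ true false 64 RtB17_13.Cx RtB17_13.CX RtB17_13.Ctp RtB17_13.Ce RtB17_13.CTn RtB17_13.CEr 0x4a = true := by decide +kernel

theorem cB17_13_0_0 : chunkOkM (LB17_13.ctx false false 103 1 1 1 1 1 1 1 1) muQ false false 64 RtB17_13.Cx RtB17_13.CX RtB17_13.Ctn RtB17_13.Ce RtB17_13.CTn RtB17_13.CEr 0x49 = true := by decide +kernel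

end Vale.Agent.helper4.Q4
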