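import Vale.Agent.helper4.Q4TreeM
import Vale.Agent.helper4.Q4G.PB17_6

/-!
Checks for pairs of intervals of second moments.
-/

set_option maxRecDepth 100000
set_option linter.unusedVariables false

namespace Vale.Agent.helper4.Q4

theorem cB17_6_1_30 : chunkOkM (LB17_6.ctx true false 258 127 64 5 16 833 2717 4 128) muQ true false 64 RtB17_6.Cx.right RtB17_6.CX RtB17_6.Ctp.right.right.right.left.right RtB17_6.Ce.right.right.right.right.left.right RtB17_6.CTn RtB17_6.CEr.left 0x18caa367fd12ecc7875ce8e6076f8a96e5067f6c35c7897f560349c67f260d27570ac7fd1232af775cce6a796f871867c57f6b38fa337f5684bd227f260d4a7ee296fdde024e65cca5ff36f8bd985e77f61065203e8f550d6973217 = true := by decide +kernel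

theorem cB17_6_1_31 : chunkOkM (LB17_6.ctx true false 232 31 16 5 16 203 693 4 128) muQ true false 64 RtB17_6.Cx.right RtB17_6.CX RtB17_6.Ctp.right.right.right.left RtB17_6.Ce.right.right.right.right.right RtB17_6.CTn RtB17_6.CEr.left 0x1b548a17fd10f50a975cbacd506f8110c8efd8f6e3458b97f588b268d7f260d = true := by decide +kernel

theorem cB17_6_1_32 : chunkOkM (LB17_6.ctx true false 99 1 1 1 1 1 1 1 1) muQ true false 64 RtB17_6.Cx RtB17_6.CX RtB17_6.Ctp.right.right.right.right RtB17_6.Ce.right.right.right RtB17_6.CTn RtB17_6.CEr.left 0x01 = true := by decide +kernel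

theorem cB17_6_1_33 : chunkOkM (LB17_6.ctx true false 99 1 1 1 1 1 1 1 1) muQ true false 64 RtB17_6.Cx RtB17_6.CX RtB17_6.Ctp.right RtB17_6.Ce.right RtB17_6.CTn RtB17_6.CEr.right 0x5a = true := by decide +kernel

theorem cB17_6_0_0 : chunkOkM (LB17_6.ctx false false 99 1 1 1 1 1 1 1 1) muQ false false 64 RtB17_6.Cx RtB17_6.CX RtB17_6.Ctn RtB17_6.Ce RtB17_6.CTn RtB17_6.CEr 0x49 = true := by decide +kernel

end Vale.Agent.helper4.Q4
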