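import Vale.Agent.helper4.Q4TreeM
import Vale.Agent.helper4.Q4G.PB17_7

/-!
Checks for pairs of intervals of second moments.
-/

set_option maxRecDepth 100000
set_option linter.unusedVariables false

namespace Vale.Agent.helper4.Q4

theorem cB17_7_3_214 : chunkOkM (LB17_7.ctx true true 278 243 128 7 16 3241 10373 32 32) muQ true true 64 RtB17_7.Cx.right.left.left RtB17_7.CX RtB17_7.Ctp.right.right.right.left.left.right.right RtB17_7.Ce.right.right.right.left.right.left.right.right RtB17_7.CTp RtB17_7.CEr 0x92f88a6f06bec86f8d7cd172c1b973c214cffcc8e630df7164647cd162f36b73c13d52b8b8e630d4f2bb566dd13896ad73c219320288e630d35217 = true := by decide +kernel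

theorem cB17_7_3_215 : chunkOkM (LB17_7.ctx true true 287 491 256 7 16 3199 10329 32 64) muQ true true 64 RtB17_7.Cx.right.left.right.left RtB17_7.CX RtB17_7.Ctp.right.right.right.left.left.right.left.left RtB17_7.Ce.right.right.right.left.right.left.right.left RtB17_7.CTp RtB17_7.CEr 0x6bd79487cd85888057c82f07c287e6138d55158d540d36e458808cd232b92da82c14c637528d530d29281b398cd131736a73c819e1647e6a8405617d540d6ffc73387cdeff538d72c1dc9cdfc8e630d7382c67498cd2053e3e73c62a65237e6c7489257d540d39c46ff7dd19b51ed73cd6e5f477e6e2a55257d540d645 = true := by decide +kernel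

theorem cB17_7_3_216 : chunkOkM (LB17_7.ctx true true 277 245 128 7 16 3213 5159 32 64) muQ true true 64 RtB17_7.Cx.right.left.right.left RtB17_7.CX RtB17_7.Ctp.right.right.right.left.left.right.left.right RtB17_7.Ce.right.right.right.left.right.left.right.left RtB17_7.CTp RtB17_7.CEr 0x10bd21d7cdf82109c7c8bf501a47e630d4d23c887dd2b2762673cc09d5bc7e630d3d895807dd173130173caf6ab307e630d65 = true := by decide +kernel

theorem cB17_7_3_217 : chunkOkM (LB17_7.ctx true true 270 247 128 7 16 1603 5159 32 32) muQ true true 64 RtB17_7.Cx.right.left.right.right RtB17_7.CX RtB17_7.Ctp.right.right.right.left.left.right.left RtB17_7.Ce.right.right.right.left.right.left.right.left RtB17_7.CTp RtB17_7.CEr 0x13e87e6f05be745b46ddb5684e63c41b25a77e61142a41a8d540d5 = true := by decide +kernel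

theorem cB17_7_3_218 : chunkOkM (LB17_7.ctx true true 293 983 512 7 16 3213 10373 32 64) muQ true true 64 RtB17_7.Cx.right.left.right.left RtB17_7.CX RtB17_7.Ctp.right.right.right.left.left.right.left RtB17_7.Ce.right.right.right.left.right.left.right.right RtB17_7.CTp RtB17_7.CEr 0x5c5ecb27cd36e2f2a7c8a216d557e630de49900e7cdf651e163c1e914e828e630dec920747cddd50cf572c152c6f578e630df41f1677cdff1add372c1546f70c8e630d745591a19c067f06b51405e47cd1c20458d82c10637f298e630d131acba08cd79d116472c11e190b18e630d6569745973 = true := by decide +kernel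

end Vale.Agent.helper4.Q4
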