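import Vale.Agent.helper4.Q4TreeM
import Vale.Agent.helper4.Q4G.PB17_7

/-!
Checks for pairs of intervals of second moments.
-/

set_option maxRecDepth 100000
set_option linter.unusedVariables false

namespace Vale.Agent.helper4.Q4

theorem cB17_7_3_219 : chunkOkM (LB17_7.ctx true true 286 495 256 7 16 3213 10373 32 64) muQ true true 64 RtB17_7.Cx.right.left.right.right RtB17_7.CX RtB17_7.Ctp.right.right.right.left.left.right.left RtB17_7.Ce.right.right.right.left.right.left.right.right RtB17_7.CTp RtB17_7.CEr 0xdea09c6d8ed2856d7e620dd5ee696dd1a64d4b73cad8e8957e6d927e4d7d540d1dfa6cc7dde0174063c98ded057e671f44007d540d6518cb586f05bddac1457cdb1525663c35a142c7e6134ebdf7e540de9b20207cdc304a8972c7b6880d7e610e832fb8d540d7489488f68cd298b16e73c26e21607e61898bfb78d540d28372e87dd13446b873c49fd73c7e615ebb8c78d540d6453 = true := by decide +kernel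

theorem cB17_7_3_220 : chunkOkM (LB17_7.ctx true true 278 247 128 7 16 3241 10373 32 32) muQ true true 64 RtB17_7.Cx.right.left.right RtB17_7.CX RtB17_7.Ctp.right.right.right.left.left.right.right RtB17_7.Ce.right.right.right.left.right.left.right RtB17_7.CTp RtB17_7.CEr 0x7b45ce6cdce95ef6d87ece2b07e630d1b0f8c47dd212bb1a73c19a50d9d8e630defbaf36dd139adaa73cc94d7607e630dee955e67cd11030d173c12a14a678e630d11fbf49e8cd13d61c373c17aec6ef8e630d4375274cd5f06bf2f1476dd118689b73cc6e88b77e630d54 = true := by decide +kernel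

theorem cB17_7_3_221 : chunkOkM (LB17_7.ctx true true 250 63 32 7 16 1589 2563 16 32) muQ true true 64 RtB17_7.Cx.right.right RtB17_7.CX RtB17_7.Ctp.right.right.right.left.left.left RtB17_7.Ce.right.right.right.left.right.left.left RtB17_7.CTp RtB17_7.CEr 0x2f9f4f06c9606a66dd17c3156d81239056f8d61c7abc3e8d540d3 = true := by decide +kernel

theorem cB17_7_3_222 : chunkOkM (LB17_7.ctx true true 274 251 128 7 16 3185 5181 32 32) muQ true true 64 RtB17_7.Cx.right.right RtB17_7.CX RtB17_7.Ctp.right.right.right.left.left.left RtB17_7.Ce.right.right.right.left.right.left.right RtB17_7.CTp RtB17_7.CEr 0xb270c66dd9e70f76d82d3d02608d624512b1e8d540d7e48c167cdd88d7f6e61ba813d48d530d17f9d86f05b1432d517dd13e921b73c39246e07e61c7674928d540d59ccfb387cd1230dc972c7c52e76e61b49a3cc8d540d37a4875e17cd1b76f463c1bab1a77e618bdf68d8d540d46b9099e7cd2534c26d8f1b0026e61e50e01e8d540d37 = true := by decide +kernel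

theorem cB17_7_3_223 : chunkOkM (LB17_7.ctx true true 248 63 32 7 16 805 1287 32 32) muQ true true 64 RtB17_7.Cx.right.right RtB17_7.CX RtB17_7.Ctp.right.right.right.left.left.right RtB17_7.Ce.right.right.right.left.right.left RtB17_7.CTp RtB17_7.CEr 0x9f8fe5f05bde7d3b6dd77716c63c13b7d3398d6142ea1188d540d5 = true := by decide +kernel

end Vale.Agent.helper4.Q4
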