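import Vale.Agent.helper4.Q4TreeM
import Vale.Agent.helper4.Q4G.PB17_7

/-!
Checks for pairs of intervals of second moments.
-/

set_option maxRecDepth 100000
set_option linter.unusedVariables false

namespace Vale.Agent.helper4.Q4

theorem cB17_7_3_224 : chunkOkM (LB17_7.ctx true true 92 1 1 1 1 1 1 1 1) muQ true true 64 RtB17_7.Cx.right.left RtB17_7.CX RtB17_7.Ctp.right.right.right.left.left.left RtB17_7.Ce.right.right.right.left.right.right RtB17_7.CTp RtB17_7.CEr 0x59 = true := by decide +kernel

theorem cB17_7_3_225 : chunkOkM (LB17_7.ctx true true 92 1 1 1 1 1 1 1 1) muQ true true 64 RtB17_7.Cx.right.left.left RtB17_7.CX RtB17_7.Ctp.right.right.right.left.left.right RtB17_7.Ce.right.right.right.left.right.right RtB17_7.CTp RtB17_7.CEr 0x69 = true := by decide +kernel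

theorem cB17_7_3_226 : chunkOkM (LB17_7.ctx true true 92 1 1 1 1 1 1 1 1) muQ true true 64 RtB17_7.Cx.right.left.right.left RtB17_7.CX RtB17_7.Ctp.right.right.right.left.left.right.left RtB17_7.Ce.right.right.right.left.right.right.left RtB17_7.CTp RtB17_7.CEr 0x69 = true := by decide +kernel

theorem cB17_7_3_227 : chunkOkM (LB17_7.ctx true true 279 495 256 7 16 3199 5203 32 32) muQ true true 64 RtB17_7.Cx.right.left.right.right RtB17_7.CX RtB17_7.Ctp.right.right.right.left.left.right.left.left RtB17_7.Ce.right.right.right.left.right.right.left.left RtB17_7.CTp RtB17_7.CEr 0x1adbf86f05bd963c887cdaf048563c17b4d007e6183004938d540d5597 = true := by decide +kernel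

end Vale.Agent.helper4.Q4
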