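import Vale.Agent.helper4.Q4TreeM
import Vale.Agent.helper4.Q4G.PB17_7

/-!
Checks for pairs of intervals of second moments.
-/

set_option maxRecDepth 100000
set_option linter.unusedVariables false

namespace Vale.Agent.helper4.Q4

theorem cB17_7_3_19 : chunkOkM (LB17_7.ctx true true 271 227 128 7 16 1491 4653 32 64) muQ true true 64 RtB17_7.Cx.left.left.left RtB17_7.CX RtB17_7.Ctp.right.right.left.right.left.right.left RtB17_7.Ce.right.right.left.right.left.left.right RtB17_7.CTp RtB17_7.CEr 0x9ffb5817cdb91e5d6d838b82c6e618c01cda8d540d17043a47dd1239bd873c1523112e8d530d1475a74b8cd1ead09f73c1ef33927e61685f8c78d540d4a72f987dd227baf173cb4b86b6e61aa430b18d540d67561d5e437cd114f9ea7d8173a65e616c24c428d540d1936a987dd1cf8c9e73c19e6f557e615adfef58d540d2432c707dd10f48aa73c2a5a0ee7e6163c2a578d540d654 = true := by decide +kernel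

theorem cB17_7_3_20 : chunkOkM (LB17_7.ctx true true 262 113 64 7 16 1505 2321 32 64) muQ true true 64 RtB17_7.Cx.left.left.left RtB17_7.CX RtB17_7.Ctp.right.right.left.right.left.right.right RtB17_7.Ce.right.right.left.right.left.left.right RtB17_7.CTp RtB17_7.CEr 0x94ca2497cdc3d8376d82e8b27e7e61260d7ea8d540d1fa122d7dd20dca8a73c11780797e61458706e8d540d223b6db7dde3531963c3b6040b7e6f5b483b7d540d65 = true := by decide +kernel

theorem cB17_7_3_21 : chunkOkM (LB17_7.ctx true true 255 115 64 7 16 749 2321 32 32) muQ true true 64 RtB17_7.Cx.left.left.right RtB17_7.CX RtB17_7.Ctp.right.right.left.right.left.right RtB17_7.Ce.right.right.left.right.left.left.right RtB17_7.CTp RtB17_7.CEr 0x97f64f01c157af5f06c5 = true := by decide +kernel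

theorem cB17_7_3_22 : chunkOkM (LB17_7.ctx true true 238 59 32 7 16 371 1155 16 32) muQ true true 64 RtB17_7.Cx.left.right RtB17_7.CX RtB17_7.Ctp.right.right.left.right.left RtB17_7.Ce.right.right.left.right.left.left RtB17_7.CTp RtB17_7.CEr 0xaca0936dd619d9d6d81a2a3d3f8d62152bb478d540d = true := by decide +kernel

end Vale.Agent.helper4.Q4
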