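import Vale.Agent.helper4.Q4TreeM
import Vale.Agent.helper4.Q4G.PB17_7

/-!
Checks for pairs of intervals of second moments.
-/

set_option maxRecDepth 100000
set_option linter.unusedVariables false

namespace Vale.Agent.helper4.Q4

theorem cB17_7_3_23 : chunkOkM (LB17_7.ctx true true 255 115 64 7 16 1477 2343 16 32) muQ true true 64 RtB17_7.Cx.left.left RtB17_7.CX RtB17_7.Ctp.right.right.left.right.left.left RtB17_7.Ce.right.right.left.right.left.right RtB17_7.CTp RtB17_7.CEr 0x59cc268a67cd136ce863c4f2f986e61c293c048d540dc02d4ac7cda074cd6d820406a498d530d35974 = true := by decide +kernel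

theorem cB17_7_3_24 : chunkOkM (LB17_7.ctx true true 281 455 256 7 16 2989 9383 32 32) muQ true true 64 RtB17_7.Cx.left.left.left RtB17_7.CX RtB17_7.Ctp.right.right.left.right.left.right.left RtB17_7.Ce.right.right.left.right.left.right.left RtB17_7.CTp RtB17_7.CEr 0x5971797167cd16a992d98c819f96db18d530d16b196528cddc2411472c16e6d35e8d530d54597593597c3a96287cdebe14327c81ab8b4ef8d530d166b0fb18cde3426763cc4ae086e617a0b5bb8d540d16bd71a48cd10306fe73c19e6a6f48d530d597593754 = true := by decide +kernel

theorem cB17_7_3_25 : chunkOkM (LB17_7.ctx true true 276 227 128 7 16 3017 4675 32 64) muQ true true 64 RtB17_7.Cx.left.left.left RtB17_7.CX RtB17_7.Ctp.right.right.left.right.left.right.right RtB17_7.Ce.right.right.left.right.left.right.left.left RtB17_7.CTp RtB17_7.CEr 0xba7d2fc7cdb333a06d8caaf1a6e6142f65a98d540d27b13827dd25d5f6773c26e3a757e61203fa2d8d540d307d92a7dd111e2b373c1427ca47e61723e8698d540d25d236e7dd11799bd73c4bad36a7e6caa13577d540d3377e117dd1557eaf73c290e5507e6132b707c8d540d3765 = true := by decide +kernel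

theorem cB17_7_3_26 : chunkOkM (LB17_7.ctx true true 289 451 256 7 16 6013 9405 32 64) muQ true true 64 RtB17_7.Cx.left.left.left RtB17_7.CX RtB17_7.Ctp.right.right.left.right.left.right.right RtB17_7.Ce.right.right.left.right.left.right.left.right RtB17_7.CTp RtB17_7.CEr 0xca149657cdd0241f27c8144b99d7e6161065e68d540d4bd91967dd2c9d35d73c131c4507e617f825458d540d5bc8b2e7dd21e60d773c1ad7c0c7e615b13a7b8d540d6419d23088cd2664e0f73c18242c57e6153040238d540d436f9a4f8cd1ad122773c5d195fc7e6eca36d67d540d25b089cc8cd115842d73c6198c497e6cf718197d540d46594a5693768cd25c9333482c1905e26c8d530d31d3b8a18cd15451e8282c1aa746568d530d65934597375 = true := by decide +kernel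

end Vale.Agent.helper4.Q4
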