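import Vale.Agent.helper4.Q4TreeM
import Vale.Agent.helper4.Q4G.PB17_7

/-!
Checks for pairs of intervals of second moments.
-/

set_option maxRecDepth 100000
set_option linter.unusedVariables false

namespace Vale.Agent.helper4.Q4

theorem cB17_7_3_27 : chunkOkM (LB17_7.ctx true true 262 115 64 7 16 1505 4697 32 32) muQ true true 64 RtB17_7.Cx.left.left.right RtB17_7.CX RtB17_7.Ctp.right.right.left.right.left.right RtB17_7.Ce.right.right.left.right.left.right.left RtB17_7.CTp RtB17_7.CEr 0x7066a277cd10421e97d813bbce048d530d15cad8e7ddd9e3d263c141ac9a08d530d56bfd4837cd152bb6d7d866454b6e61b83f4cc8d540d182da6b7dd143703373ce3d1eb6e61c920a558d540d59179a167cd163e1b57d8176ab4678d530d14487a37dd8de45b63c15e44b6e61747fa268d540d543 = true := by decide +kernel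

theorem cB17_7_3_28 : chunkOkM (LB17_7.ctx true true 92 1 1 1 1 1 1 1 1) muQ true true 64 RtB17_7.Cx.left.left.left RtB17_7.CX RtB17_7.Ctp.right.right.left.right.left.right.left RtB17_7.Ce.right.right.left.right.left.right.right RtB17_7.CTp RtB17_7.CEr 0x59 = true := by decide +kernel

theorem cB17_7_3_29 : chunkOkM (LB17_7.ctx true true 302 903 512 7 16 12089 18843 32 64) muQ true true 64 RtB17_7.Cx.left.left.left RtB17_7.CX RtB17_7.Ctp.right.right.left.right.left.right.right RtB17_7.Ce.right.right.left.right.left.right.right.left RtB17_7.CTp RtB17_7.CEr 0x986fad47cdbd00e437c8b8788c6e6179d930c8d540d20d7a5d28cd1773d7673c1e0014d7e615a40afb8d540d34c30f47dd15c827273c287beeb7e613f330488d540d617685647dde6f7eb63c1e47a3688d530d3595948e2927c8cd284d0c4182c4c50b437e6108132f7e540d3421923e8cd17f1ff2682c68d18cd7e6d1caf967d540d65934597593459759375 = true := by decide +kernel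

theorem cB17_7_3_30 : chunkOkM (LB17_7.ctx true true 301 911 512 7 16 12089 18931 32 64) muQ true true 64 RtB17_7.Cx.left.left.left RtB17_7.CX RtB17_7.Ctp.right.right.left.right.left.right.right RtB17_7.Ce.right.right.left.right.left.right.right.right RtB17_7.CTp RtB17_7.CEr 0x59598d8a1487cde5645b07c817a820b7e530d4bb9a2ec82c1d89b807e520d2f5945ab8cd12b450e982c1b2297808d530d6559345975934597593597 = true := by decide +kernel

end Vale.Agent.helper4.Q4
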