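import Vale.Agent.helper4.Q4TreeM
import Vale.Agent.helper4.Q4G.PB17_7

/-!
Checks for pairs of intervals of second moments.
-/

set_option maxRecDepth 100000
set_option linter.unusedVariables false

namespace Vale.Agent.helper4.Q4

theorem cB17_7_3_31 : chunkOkM (LB17_7.ctx true true 268 231 128 7 16 1505 4741 32 32) muQ true true 64 RtB17_7.Cx.left.left.right RtB17_7.CX RtB17_7.Ctp.right.right.left.right.left.right RtB17_7.Ce.right.right.left.right.left.right.right RtB17_7.CTp RtB17_7.CEr 0x597468b7cd123ec1a68c810348397e61aef03958d540d15655367dde8a57663c19c1499b8d530d59bc30e27cdd6e6a26d81212d537e617689d7e8d540d156b4827dde703cb63c68a1f96e6169971328d540d54d3b15857cd1f842463c1bcaea578d530d5973ba49237cd13fdef338c8f692a76e61b5f249c8d540d107fa407dd9f234263c12ee6d37e61b569d818d540d543 = true := by decide +kernel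

end Vale.Agent.helper4.Q4
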