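import Vale.Agent.helper4.Q4TreeM
import Vale.Agent.helper4.Q4G.PB17_8

/-!
Checks for pairs of intervals of second moments.
-/

set_option maxRecDepth 100000
set_option linter.unusedVariables false

namespace Vale.Agent.helper4.Q4

theorem cB17_8_3_80 : chunkOkM (LB17_8.ctx true true 280 117 64 9 16 1533 2409 8 64) muQ true true 64 RtB17_8.Cx.left.right.left RtB17_8.CX RtB17_8.Ctp.right.right.left.right.right.left.right RtB17_8.Ce.right.right.left.right.right.left.right RtB17_8.CTp.left RtB17_8.CEr.left 0x5eb68f9397afd3b8476c78c2c6eb637b13bf615c3ef1c014bf540d7e88d2ad25afd944232378c323a9f86845bf6172b56a5495bf540d5250768476afd167b8897bb2fa8f6d252fbf614b434fde5ebf540d65 = true := by decide +kernel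

theorem cB17_8_3_81 : chunkOkM (LB17_8.ctx true true 269 119 64 9 16 763 2409 4 32) muQ true true 64 RtB17_8.Cx.left.right.right RtB17_8.CX RtB17_8.Ctp.right.right.left.right.right.left RtB17_8.Ce.right.right.left.right.right.left.right RtB17_8.CTp.left RtB17_8.CEr.left 0x97a47a5c10afd684afa578c3690cd70726bf6204587084ebbf540d = true := by decide +kernel

theorem cB17_8_3_82 : chunkOkM (LB17_8.ctx true true 264 59 32 9 16 777 1199 8 32) muQ true true 64 RtB17_8.Cx.left.right RtB17_8.CX RtB17_8.Ctp.right.right.left.right.right.right RtB17_8.Ce.right.right.left.right.right.left RtB17_8.CTp.left RtB17_8.CEr.left 0x17531c598baf06cad6e177100afd868ed2b78c583bf86bb30d5 = true := by decide +kernel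

theorem cB17_8_3_83 : chunkOkM (LB17_8.ctx true true 256 59 32 9 16 385 1199 4 32) muQ true true 64 RtB17_8.Cx.left.right RtB17_8.CX RtB17_8.Ctp.right.right.left.right.right RtB17_8.Ce.right.right.left.right.right.left RtB17_8.CTp.left RtB17_8.CEr.right 0x7c5831d522afda1b3e2478c25cc470147ebf616b1a764ad6bf540d = true := by decide +kernel

end Vale.Agent.helper4.Q4
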