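import Vale.Agent.helper4.Q4TreeM
import Vale.Agent.helper4.Q4G.PB17_8

/-!
Checks for pairs of intervals of second moments.
-/

set_option maxRecDepth 100000
set_option linter.unusedVariables false

namespace Vale.Agent.helper4.Q4

theorem cB17_8_3_84 : chunkOkM (LB17_8.ctx true true 256 59 32 9 16 385 1199 4 32) muQ true true 64 RtB17_8.Cx.left.right RtB17_8.CX RtB17_8.Ctp.right.right.left.right.right RtB17_8.Ce.right.right.left.right.right.left RtB17_8.CTp.right RtB17_8.CEr 0x11938b21e5afd1de3afcd66fbf614ec75a1d93bf530d6a6 = true := by decide +kernel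

theorem cB17_8_3_85 : chunkOkM (LB17_8.ctx true true 299 463 256 9 16 3073 4851 8 64) muQ true true 64 RtB17_8.Cx.left.left RtB17_8.CX RtB17_8.Ctp.right.right.left.right.right.left RtB17_8.Ce.right.right.left.right.right.right RtB17_8.CTp.left RtB17_8.CEr.left 0x59595f32e4257cafd3bb7d6a78c43f5b4516eebf61404dea5effbf540d9a9a3fe436afd9b32af178c9abea53e236bf630d4ffceba132afd8b900b68c159305f98ab3637710536ebf61191ac7b975bf550d6569759345975935974 = true := by decide +kernel

theorem cB17_8_3_86 : chunkOkM (LB17_8.ctx true true 316 911 512 9 16 6265 19371 8 64) muQ true true 64 RtB17_8.Cx.left.left.left RtB17_8.CX RtB17_8.Ctp.right.right.left.right.right.right RtB17_8.Ce.right.right.left.right.right.right.left RtB17_8.CTp.left RtB17_8.CEr.left 0x6969693714037163afd2586d87987cd6b46507ab58c8b634a850cf640db601ccd50fafdbd3972c78c7fb55a6bb218f8e918f5dcf640d5b6a8be626afd1c30c29d87c1fc1504e8ab2b03408ef5e3cf640d65469369746936974217693 = true := by decide +kernel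

theorem cB17_8_3_87 : chunkOkM (LB17_8.ctx true true 302 459 256 9 16 3101 9691 8 64) muQ true true 64 RtB17_8.Cx.left.left.right RtB17_8.CX RtB17_8.Ctp.right.right.left.right.right.right.left RtB17_8.Ce.right.right.left.right.right.right.left.left RtB17_8.CTp.left RtB17_8.CEr.left 0x316099b47eafd2f6df9078ca24068f7218bf630d6a6ad7125ece0afda69b90a78cc0579b30306bf630d3f30fa599bafd3859158c16fb08a38abcd83e47431ebf640d669a4a3a43683afdb37c5fd78c13b23e7c4efdcf630d579522297dafd114198e78c1aef76af8ab1602f0f1d66ccf640d6469769375 = true := by decide +kernel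

end Vale.Agent.helper4.Q4
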