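import Vale.Agent.helper4.Q4TreeM
import Vale.Agent.helper4.Q4G.PB17_8

/-!
Checks for pairs of intervals of second moments.
-/

set_option maxRecDepth 100000
set_option linter.unusedVariables false

namespace Vale.Agent.helper4.Q4

theorem cB17_8_3_88 : chunkOkM (LB17_8.ctx true true 289 231 128 9 16 1547 4873 8 64) muQ true true 64 RtB17_8.Cx.left.left.right RtB17_8.CX RtB17_8.Ctp.right.right.left.right.right.right.left RtB17_8.Ce.right.right.left.right.right.right.left.right RtB17_8.CTp.left RtB17_8.CEr.left 0x6234cf69c2afd3c2dbae78cea092939516bf630dbbf313c423afdbb4103378cbe0178b138dbf630d5106cb842eafdeb46e768c15401167bbe058fceb69abf640d65697 = true := by decide +kernel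

theorem cB17_8_3_89 : chunkOkM (LB17_8.ctx true true 289 231 128 9 16 1561 4873 8 64) muQ true true 64 RtB17_8.Cx.left.left.right RtB17_8.CX RtB17_8.Ctp.right.right.left.right.right.right.right RtB17_8.Ce.right.right.left.right.right.right.left RtB17_8.CTp.left RtB17_8.CEr.left 0x546538fc8dafd50e98db78c70d3d9deab2bf630d6a665fd70eb68afd9c83cc478c77d75bb798fbf630d5c05beb579afd1a92d9c78c18d965ed8abe254c3d87bdbf640d5a86f1c101afd16fd36e78c1d26c8548ab109ed3d6ccddcf640d739bd25f5f7afd1c711cd7bbecbdcf0823ebf630d5bc67c4165afd17236d778c1d5ec94d8abc25a6d7054cbf640d7465 = true := by decide +kernel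

theorem cB17_8_3_90 : chunkOkM (LB17_8.ctx true true 289 231 128 9 16 1561 4895 8 64) muQ true true 64 RtB17_8.Cx.left.left RtB17_8.CX RtB17_8.Ctp.right.right.left.right.right.right RtB17_8.Ce.right.right.left.right.right.right.right RtB17_8.CTp.left RtB17_8.CEr.left 0x69524d9979fdafd3203d0d78c5c4e516bb130cd545037ecf640d9d4dca5302afdb16e08078ce30fda66638bf630d3ef05eb3feafdb46ac58c1c65e18f8abffe41c6447fbf640d654697693217 = true := by decide +kernel

theorem cB17_8_3_91 : chunkOkM (LB17_8.ctx true true 287 115 64 9 16 777 2453 32 128) muQ true true 64 RtB17_8.Cx.left.left RtB17_8.CX RtB17_8.Ctp.right.right.left.right.right RtB17_8.Ce.right.right.left.right.right.right RtB17_8.CTp.left RtB17_8.CEr.right 0x5a5a6a69f980a5bbf06b54312017cf9bf06b3bf653e5b35bf06b742018f956d60bf05b365a55a565a5 = true := by decide +kernel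

end Vale.Agent.helper4.Q4
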