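import Vale.Agent.helper4.Q4TreeM
import Vale.Agent.helper4.Q4G.PB17_8

/-!
Checks for pairs of intervals of second moments.
-/

set_option maxRecDepth 100000
set_option linter.unusedVariables false

namespace Vale.Agent.helper4.Q4

theorem cB17_8_3_92 : chunkOkM (LB17_8.ctx true true 276 115 64 9 16 1561 4873 4 32) muQ true true 64 RtB17_8.Cx.left.left RtB17_8.CX RtB17_8.Ctp.right.right.left.right.right RtB17_8.Ce.right.right.left.right.right.right RtB17_8.CTp.right RtB17_8.CEr 0x16321a76b2afda10d89a08f8acc71739123bf630d69321715449becbeafd1ec8c58c675e5b3c3cdbf630d192130f4a9afddb7c401d8f8e47e060a3bfbf630d1327d45b96afd2d5a74e089f87c7df600167bf616de4e061aaf540d431c49eeb62cafdc0c70068cbdd8e90cf30bf630d741375f186ccafd25e525c519f8fb18a785f2af615d780d90bebf540d36a6 = true := by decide +kernel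

end Vale.Agent.helper4.Q4
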