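import Vale.Agent.helper4.Q4TreeM
import Vale.Agent.helper4.Q4G.PB17_9

/-!
Checks for pairs of intervals of second moments.
-/

set_option maxRecDepth 100000
set_option linter.unusedVariables false

namespace Vale.Agent.helper4.Q4

theorem cB17_9_3_278 : chunkOkM (LB17_9.ctx true true 315 127 64 21 32 819 2717 1024 1024) muQ true true 64 RtB17_9.Cx.right.right RtB17_9.CX.left RtB17_9.Ctp.right.right.right.left.right.left RtB17_9.Ce.right.right.right.right.left.right RtB17_9.CTp.left.right.right.right.right RtB17_9.CEr.right.left.left.left.left 0x15fa850e79f05b131c0ad7fd3edf1066c68886269b26cc9da0c9f6af052cb98f550d4697 = true := by decide +kernel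

theorem cB17_9_3_279 : chunkOkM (LB17_9.ctx true true 322 127 64 21 32 1673 5445 1024 1024) muQ true true 64 RtB17_9.Cx.right.right RtB17_9.CX.left RtB17_9.Ctp.right.right.right.left.right.right RtB17_9.Ce.right.right.right.right.left.right RtB17_9.CTp.left.right.right.right.right RtB17_9.CEr.right.left.left.left.left 0x15e49a6029f02b6931624819f06b48ffb6f78fd657a91476c50384b69b811b128f69f67a2a5797f250d432174b83b6d38f00b54a21666c54414169b4ff1ce76d9f68d055027f240d321103bb159f02b74 = true := by decide +kernel

theorem cB17_9_3_280 : chunkOkM (LB17_9.ctx true true 104 1 1 1 1 1 1 1 1) muQ true true 64 RtB17_9.Cx.right.right RtB17_9.CX.left RtB17_9.Ctp.right.right.right.left.right RtB17_9.Ce.right.right.right.right.left.right RtB17_9.CTp.left.right.right.right.right RtB17_9.CEr.right.left.left.left.right 0x5a = true := by decide +kernel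

theorem cB17_9_3_281 : chunkOkM (LB17_9.ctx true true 104 1 1 1 1 1 1 1 1) muQ true true 64 RtB17_9.Cx.right.right RtB17_9.CX.left RtB17_9.Ctp.right.right.right.left.right RtB17_9.Ce.right.right.right.right.left.right RtB17_9.CTp.left.right.right.right.right RtB17_9.CEr.right.left.left.right 0x5a = true := by decide +kernel

theorem cB17_9_3_282 : chunkOkM (LB17_9.ctx true true 104 1 1 1 1 1 1 1 1) muQ true true 64 RtB17_9.Cx.right.right RtB17_9.CX.left RtB17_9.Ctp.right.right.right.left.right RtB17_9.Ce.right.right.right.right.left.right RtB17_9.CTp.left.right.right RtB17_9.CEr.right.left.right 0x5a = true := by decide +kernel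

theorem cB17_9_3_283 : chunkOkM (LB17_9.ctx true true 104 1 1 1 1 1 1 1 1) muQ true true 64 RtB17_9.Cx.right.right RtB17_9.CX.left RtB17_9.Ctp.right.right.right.left.right RtB17_9.Ce.right.right.right.right.left.right RtB17_9.CTp.left.right.right RtB17_9.CEr.right.right 0x52 = true := by decide +kernel

theorem cB17_9_3_284 : chunkOkM (LB17_9.ctx true true 104 1 1 1 1 1 1 1 1) muQ true true 64 RtB17_9.Cx.right RtB17_9.CX.right RtB17_9.Ctp.right.right.right.left.right RtB17_9.Ce.right.right.right.right.left RtB17_9.CTp.left.right.right RtB17_9.CEr 0x4a = true := by decide +kernel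

theorem cB17_9_3_285 : chunkOkM (LB17_9.ctx true true 104 1 1 1 1 1 1 1 1) muQ true true 64 RtB17_9.Cx.right RtB17_9.CX RtB17_9.Ctp.right.right.right.left.right RtB17_9.Ce.right.right.right.right.left RtB17_9.CTp.right.left RtB17_9.CEr.left.left 0x12 = true := by decide +kernel

end Vale.Agent.helper4.Q4
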