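import Vale.Agent.helper4.Q4TreeM
import Vale.Agent.helper4.Q4G.PB17_9

/-!
Checks for pairs of intervals of second moments.
-/

set_option maxRecDepth 100000
set_option linter.unusedVariables false

namespace Vale.Agent.helper4.Q4

theorem cB17_9_3_286 : chunkOkM (LB17_9.ctx true true 104 1 1 1 1 1 1 1 1) muQ true true 64 RtB17_9.Cx.right RtB17_9.CX RtB17_9.Ctp.right.right.right.left.right RtB17_9.Ce.right.right.right.right.left RtB17_9.CTp.right.left RtB17_9.CEr.left.right.left 0x12 = true := by decide +kernel

theorem cB17_9_3_287 : chunkOkM (LB17_9.ctx true true 104 1 1 1 1 1 1 1 1) muQ true true 64 RtB17_9.Cx.right RtB17_9.CX RtB17_9.Ctp.right.right.right.left.right RtB17_9.Ce.right.right.right.right.left RtB17_9.CTp.right.left.left RtB17_9.CEr.left.right.right.left 0x12 = true := by decide +kernel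

theorem cB17_9_3_288 : chunkOkM (LB17_9.ctx true true 104 1 1 1 1 1 1 1 1) muQ true true 64 RtB17_9.Cx.right RtB17_9.CX RtB17_9.Ctp.right.right.right.left.right RtB17_9.Ce.right.right.right.right.left RtB17_9.CTp.right.left.left.left RtB17_9.CEr.left.right.right.right.left 0x6a = true := by decide +kernel

theorem cB17_9_3_289 : chunkOkM (LB17_9.ctx true true 104 1 1 1 1 1 1 1 1) muQ true true 64 RtB17_9.Cx.right RtB17_9.CX RtB17_9.Ctp.right.right.right.left.right RtB17_9.Ce.right.right.right.right.left RtB17_9.CTp.right.left.left.left.left RtB17_9.CEr.left.right.right.right.right.left 0x6a = true := by decide +kernel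

theorem cB17_9_3_290 : chunkOkM (LB17_9.ctx true true 104 1 1 1 1 1 1 1 1) muQ true true 64 RtB17_9.Cx.right RtB17_9.CX RtB17_9.Ctp.right.right.right.left.right RtB17_9.Ce.right.right.right.right.left RtB17_9.CTp.right.left.left.left.left RtB17_9.CEr.left.right.right.right.right.right.left 0x6a = true := by decide +kernel

theorem cB17_9_3_291 : chunkOkM (LB17_9.ctx true true 340 247 128 41 64 413 5291 4096 4096) muQ true true 64 RtB17_9.Cx.right.left RtB17_9.CX.left.left RtB17_9.Ctp.right.right.right.left.right RtB17_9.Ce.right.right.right.right.left.left RtB17_9.CTp.right.left.left.left.left.left.left RtB17_9.CEr.left.right.right.right.right.right.right 0x212131b3a0468fd208bf8d409f67e50303c8f57db805ce8f240d42174217 = true := by decide +kernel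

theorem cB17_9_3_292 : chunkOkM (LB17_9.ctx true true 339 127 64 41 64 1645 2673 4096 4096) muQ true true 64 RtB17_9.Cx.right.right RtB17_9.CX.left.left RtB17_9.Ctp.right.right.right.left.right RtB17_9.Ce.right.right.right.right.left.left RtB17_9.CTp.right.left.left.left.left.left.left RtB17_9.CEr.left.right.right.right.right.right.right 0x13b2980e89f02b696bb7e28fd1002981a79f6ee2533c58f530d2c060f448fd2a6fde3db9f6850bf46d8f5461ce7d38f240d147fd054a9f05b378283b0128f05b402a5af939f06b2ac4742469f6aafa81a98f520d3743 = true := by decide +kernel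

theorem cB17_9_3_293 : chunkOkM (LB17_9.ctx true true 335 127 64 41 64 833 2717 4096 4096) muQ true true 64 RtB17_9.Cx.right RtB17_9.CX.left.left RtB17_9.Ctp.right.right.right.left.right RtB17_9.Ce.right.right.right.right.left.right RtB17_9.CTp.right.left.left.left.left.left.left RtB17_9.CEr.left.right.right.right.right.right.right 0x33794b368fd261aa29459f69880fb188f55d6b21088f240d21748f511328fd4b01372079f620d2267ea9ed9f02b7423598d4c8fdb76f2bcc8f61045feeed9f5c83a5ba7f240d6973217 = true := by decide +kernel

end Vale.Agent.helper4.Q4
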