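import Vale.Agent.helper4.Q4TreeM
import Vale.Agent.helper4.Q4G.PB17_9

/-!
Checks for pairs of intervals of second moments.
-/

set_option maxRecDepth 100000
set_option linter.unusedVariables false

namespace Vale.Agent.helper4.Q4

theorem cB17_9_3_294 : chunkOkM (LB17_9.ctx true true 104 1 1 1 1 1 1 1 1) muQ true true 64 RtB17_9.Cx.right RtB17_9.CX.left.right RtB17_9.Ctp.right.right.right.left.right RtB17_9.Ce.right.right.right.right.left RtB17_9.CTp.right.left.left.left.left.left.left RtB17_9.CEr.left.right.right.right.right.right.right 0x6a = true := by decide +kernel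

theorem cB17_9_3_295 : chunkOkM (LB17_9.ctx true true 104 1 1 1 1 1 1 1 1) muQ true true 64 RtB17_9.Cx.right RtB17_9.CX.right RtB17_9.Ctp.right.right.right.left.right RtB17_9.Ce.right.right.right.right.left RtB17_9.CTp.right.left.left.left.left.left.left RtB17_9.CEr.left.right.right.right.right.right.right 0x4a = true := by decide +kernel

theorem cB17_9_3_296 : chunkOkM (LB17_9.ctx true true 104 1 1 1 1 1 1 1 1) muQ true true 64 RtB17_9.Cx.right RtB17_9.CX RtB17_9.Ctp.right.right.right.left.right RtB17_9.Ce.right.right.right.right.left RtB17_9.CTp.right.left.left.left.left.left.right RtB17_9.CEr.left.right.right.right.right.right.right 0x6a = true := by decide +kernel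

theorem cB17_9_3_297 : chunkOkM (LB17_9.ctx true true 104 1 1 1 1 1 1 1 1) muQ true true 64 RtB17_9.Cx.right RtB17_9.CX RtB17_9.Ctp.right.right.right.left.right RtB17_9.Ce.right.right.right.right.left RtB17_9.CTp.right.left.left.left.left.right RtB17_9.CEr.left.right.right.right.right.right.right 0x6a = true := by decide +kernel

theorem cB17_9_3_298 : chunkOkM (LB17_9.ctx true true 104 1 1 1 1 1 1 1 1) muQ true true 64 RtB17_9.Cx.right RtB17_9.CX RtB17_9.Ctp.right.right.right.left.right RtB17_9.Ce.right.right.right.right.left RtB17_9.CTp.right.left.left.left.right RtB17_9.CEr.left.right.right.right.right 0x6a = true := by decide +kernel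

theorem cB17_9_3_299 : chunkOkM (LB17_9.ctx true true 104 1 1 1 1 1 1 1 1) muQ true true 64 RtB17_9.Cx.right RtB17_9.CX RtB17_9.Ctp.right.right.right.left.right RtB17_9.Ce.right.right.right.right.left RtB17_9.CTp.right.left.left.right RtB17_9.CEr.left.right.right.right 0x12 = true := by decide +kernel

theorem cB17_9_3_300 : chunkOkM (LB17_9.ctx true true 104 1 1 1 1 1 1 1 1) muQ true true 64 RtB17_9.Cx.right RtB17_9.CX RtB17_9.Ctp.right.right.right.left.right RtB17_9.Ce.right.right.right.right.left RtB17_9.CTp.right.left.right RtB17_9.CEr.left.right.right 0x12 = true := by decide +kernel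

theorem cB17_9_3_301 : chunkOkM (LB17_9.ctx true true 104 1 1 1 1 1 1 1 1) muQ true true 64 RtB17_9.Cx.right RtB17_9.CX RtB17_9.Ctp.right.right.right.left.right RtB17_9.Ce.right.right.right.right.left RtB17_9.CTp.right.right RtB17_9.CEr.left 0x12 = true := by decide +kernel

end Vale.Agent.helper4.Q4
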