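import Vale.Agent.helper4.Q4TreeM
import Vale.Agent.helper4.Q4G.PB17_9

/-!
Checks for pairs of intervals of second moments.
-/

set_option maxRecDepth 100000
set_option linter.unusedVariables false

namespace Vale.Agent.helper4.Q4

theorem cB17_9_3_302 : chunkOkM (LB17_9.ctx true true 306 495 256 11 16 1645 10571 64 128) muQ true true 64 RtB17_9.Cx.right.left RtB17_9.CX RtB17_9.Ctp.right.right.right.left.right RtB17_9.Ce.right.right.right.right.left.left RtB17_9.CTp.right RtB17_9.CEr.right 0x21212101193c0c1c8fd47de0efd85c16b582078f88e92ef9429f6296abd728f250d22dd76b88fd2466e2976c82fb904c19f631415e3d8f240d66933421742174217 = true := by decide +kernel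

theorem cB17_9_3_303 : chunkOkM (LB17_9.ctx true true 301 251 128 11 16 1645 5313 128 128) muQ true true 64 RtB17_9.Cx.right.right.left RtB17_9.CX RtB17_9.Ctp.right.right.right.left.right.left RtB17_9.Ce.right.right.right.right.left.left.left RtB17_9.CTp.right.left RtB17_9.CEr.right.left 0x1e7a41358fd26b23bc76c1b282569b90fb3ce0b9f640d1ca57e958fd26eb35f76c828ad50509f6372687848f240d71bec44508fd2225a2576c4f5d630199f630d41969d3568fd1dd206a76c89c700a4d9f628fc327b8f540d1c23dcb68fd2062fc176cec31c50d59f630d71f0866178fd27e06b176c872031c1d9f630d1820d6cd8fd1ce3d8d76c6b35a1a559f630d743 = true := by decide +kernel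

theorem cB17_9_3_304 : chunkOkM (LB17_9.ctx true true 288 125 64 11 16 819 2651 128 128) muQ true true 64 RtB17_9.Cx.right.right.left RtB17_9.CX RtB17_9.Ctp.right.right.right.left.right.left RtB17_9.Ce.right.right.right.right.left.left.left RtB17_9.CTp.right.right RtB17_9.CEr.right.left 0x13e770cb8fd37b3b8f7f82500c1fc19f684ad4c298f540d = true := by decide +kernel

theorem cB17_9_3_305 : chunkOkM (LB17_9.ctx true true 301 251 128 11 16 1645 5313 128 128) muQ true true 64 RtB17_9.Cx.right.right.left RtB17_9.CX RtB17_9.Ctp.right.right.right.left.right.left RtB17_9.Ce.right.right.right.right.left.left.left RtB17_9.CTp.right RtB17_9.CEr.right.right 0x124a29e18fd9d8bef6f83fe3a43109f630d22e269248fd2564bef76c41c183fb09f630d5168b527d8fd35e74fe385c111b4c578f8670ed4bbc9f63aeeeb8a8f550d1e3e17d88fd175c39c76c1313eab0f4af630d7148e76ae8fd3790e766c17b593ac19f698ff6b548f540d2399b8648fd2196ac5f85c47a1b8dff9f64dad85188f540d543 = true := by decide +kernel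

end Vale.Agent.helper4.Q4
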