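import Vale.Agent.helper4.Q4TreeM
import Vale.Agent.helper4.Q4G.PB18_5

/-!
Checks for pairs of intervals of second moments.
-/

set_option maxRecDepth 100000
set_option linter.unusedVariables false

namespace Vale.Agent.helper4.Q4

theorem cB18_5_1_13 : chunkOkM (LB18_5.ctx true false 245 71 32 7 32 441 1495 4 64) muQ true false 64 RtB18_5.Cx.right RtB18_5.CX RtB18_5.Ctp.right.right.right.right RtB18_5.Ce.right.right.right.left.left RtB18_5.CTn RtB18_5.CEr 0x7b1bca6fda9484865c774e3f6f83a5f8ec7f6584d6da7f550d6c7bd26fd976fe265c6b40036f83bb5fcc7f6585bc727f52d419b37f260d740df866fda9bd1065c97b91c6f87864b16f641bca077f538832997f260d43ce24c6fd16ea6765c5a748d6f82af708a7f67e0de217f550d8122cfa7f05b76cf9f46fd403c336f82ac247f7f674abf027f540d6a6a75fd92f94965c4e8fd06f81e6e9357f66c8b00f7f550d743 = true := by decide +kernel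

theorem cB18_5_1_14 : chunkOkM (LB18_5.ctx true false 246 71 32 7 32 441 1547 4 64) muQ true false 64 RtB18_5.Cx.right RtB18_5.CX RtB18_5.Ctp.right.right.right.right RtB18_5.Ce.right.right.right.left.right RtB18_5.CTn RtB18_5.CEr 0xdd164965c3e679e6f841a15517f6691e3827f5ce1b296f250d39d7676fd9e1ff865c7532946f837696397f6626dab67f5101bad87f260d496170e77f05b3217 = true := by decide +kernel

theorem cB18_5_1_15 : chunkOkM (LB18_5.ctx true false 97 1 1 1 1 1 1 1 1) muQ true false 64 RtB18_5.Cx RtB18_5.CX RtB18_5.Ctp.right.right.right RtB18_5.Ce.right.right.right.right RtB18_5.CTn RtB18_5.CEr 0x21 = true := by decide +kernel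

theorem cB18_5_0_0 : chunkOkM (LB18_5.ctx false false 97 1 1 1 1 1 1 1 1) muQ false false 64 RtB18_5.Cx RtB18_5.CX RtB18_5.Ctn RtB18_5.Ce RtB18_5.CTn RtB18_5.CEr 0x49 = true := by decide +kernel

end Vale.Agent.helper4.Q4
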