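import Vale.Agent.helper4.Q4TreeM
import Vale.Agent.helper4.Q4G.PB18_7

/-!
Checks for pairs of intervals of second moments.
-/

set_option maxRecDepth 100000
set_option linter.unusedVariables false

namespace Vale.Agent.helper4.Q4

theorem cB18_7_3_81 : chunkOkM (LB18_7.ctx true true 275 143 64 7 16 861 2951 16 32) muQ true true 64 RtB18_7.Cx.right.right RtB18_7.CX RtB18_7.Ctp.right.right.right.right.left RtB18_7.Ce.right.right.right.left.left.left RtB18_7.CTp RtB18_7.CEr 0x423e04788fd17adf3a77c158d80baf9f821fe6a8018af6227bf98db7af550d105df5978fd7b6ad6b98f818fb74ea8f72604e37228af62d95c24ab3af5f1e0b6eb79f460d25c101f7fdd730b81b8f82f1f0c710eaf62f7ee3cdc8af540d7236d9c118fd2ff3295c8f87f44d647f71cdf899b12af62cfa7ef981af53c5b3be399f460d43 = true := by decide +kernel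

theorem cB18_7_3_82 : chunkOkM (LB18_7.ctx true true 275 143 64 7 16 861 3003 16 32) muQ true true 64 RtB18_7.Cx.right RtB18_7.CX RtB18_7.Ctp.right.right.right.right.left RtB18_7.Ce.right.right.right.left.left.right RtB18_7.CTp RtB18_7.CEr 0x6a7f7fbc8fd66604467c21e9bc66f1af62b2d5be3bdaf540dea63454b8f84422c61c97af6268cbc984caf530d9ebecaf78fd1826b0177c1b4fd59d8f8334a19e90daf628fe913276af550d74912d19a7fdd9bf78cf8f811f8cbaf8f71c711ae473af62ff784d7e4af5c246b024a9f460d3ee3ab1e08fd1dca27a77c5312f4e78f817c214d8faaf62665b71dbbaf550d7 = true := by decide +kernel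

theorem cB18_7_3_83 : chunkOkM (LB18_7.ctx true true 288 279 128 7 16 1743 5915 16 32) muQ true true 64 RtB18_7.Cx.right RtB18_7.CX RtB18_7.Ctp.right.right.right.right.right RtB18_7.Ce.right.right.right.left.left.left RtB18_7.CTp RtB18_7.CEr 0x110101d9a9cfc38fd2fe659177c1c8c531c09f81453f0620fcbf640ddfb3e9458fd2d7494e77c1a9e9d7b19f89083260de6af6651b0a5559f51197a2ec93af260d7100a034139fd3fcde9f77c2a0b097a79f8366710db4aaf62fa5bded63af250d448b73b992caf02b7249055fa9aaf00b4337 = true := by decide +kernel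

theorem cB18_7_3_84 : chunkOkM (LB18_7.ctx true true 298 559 256 7 16 3493 5967 16 32) muQ true true 64 RtB18_7.Cx.right.left RtB18_7.CX RtB18_7.Ctp.right.right.right.right.right RtB18_7.Ce.right.right.right.left.left.right RtB18_7.CTp RtB18_7.CEr 0x210101d9ca6b188fd2d2bd7377c17ac57bc69f8828effc241af614fbbf1067af54fc222ff79f260d217217f88732028fd29298f877cbeec89548f86a251930a5af62a318fbde8af250dd96e7f398fd2c93d4b77c17c57a6909f8ae6a630e85af612781e6f6daf533fda08729f260d3f9effb4f8fd1d6182277c159ea8bd2bdbf61301368bc8af240d74332174 = true := by decide +kernel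

theorem cB18_7_3_85 : chunkOkM (LB18_7.ctx true true 282 141 64 7 16 1757 5967 16 32) muQ true true 64 RtB18_7.Cx.right.right RtB18_7.CX RtB18_7.Ctp.right.right.right.right.right.left RtB18_7.Ce.right.right.right.left.left.right.left RtB18_7.CTp RtB18_7.CEr 0x069c3c9402f8fd2892dac77c142aef6609f86ec1f12286af619ba170a9faf550d19c01b1942bbf06b473 = true := by decide +kernel

end Vale.Agent.helper4.Q4
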