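import Vale.Agent.helper4.Q4TreeM
import Vale.Agent.helper4.Q4G.PB18_7

/-!
Checks for pairs of intervals of second moments.
-/

set_option maxRecDepth 100000
set_option linter.unusedVariables false

namespace Vale.Agent.helper4.Q4

theorem cB18_7_3_91 : chunkOkM (LB18_7.ctx true true 279 143 64 7 16 1771 3055 16 32) muQ true true 64 RtB18_7.Cx.right.right RtB18_7.CX RtB18_7.Ctp.right.right.right.right.right.right RtB18_7.Ce.right.right.right.left.right.left RtB18_7.CTp RtB18_7.CEr 0x01de8ab5bd8fd1d9815a77c2a1bf1dd9eaf61929957ca6af5104e05256eaf250d32ad5014f72af02b4017 = true := by decide +kernel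

theorem cB18_7_3_92 : chunkOkM (LB18_7.ctx true true 266 71 32 7 16 889 1547 16 32) muQ true true 64 RtB18_7.Cx.right.right RtB18_7.CX RtB18_7.Ctp.right.right.right.right.right RtB18_7.Ce.right.right.right.left.right.right RtB18_7.CTp RtB18_7.CEr 0xc1bf4af98fd1e7df8d77c4efb5f448f82d7efc6fadaf61a40db1455af51ee08387d1af260d593 = true := by decide +kernel

theorem cB18_7_3_93 : chunkOkM (LB18_7.ctx true true 109 1 1 1 1 1 1 1 1) muQ true true 64 RtB18_7.Cx RtB18_7.CX RtB18_7.Ctp.right.right.right RtB18_7.Ce.right.right.right.right RtB18_7.CTp RtB18_7.CEr 0x21 = true := by decide +kernel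

theorem cB18_7_2_0 : chunkOkM (LB18_7.ctx false true 109 1 1 1 1 1 1 1 1) muQ false true 64 RtB18_7.Cx RtB18_7.CX RtB18_7.Ctn RtB18_7.Ce RtB18_7.CTp RtB18_7.CEr 0x49 = true := by decide +kernel

theorem cB18_7_1_0 : chunkOkM (LB18_7.ctx true false 109 1 1 1 1 1 1 1 1) muQ true false 64 RtB18_7.Cx RtB18_7.CX RtB18_7.Ctp.left RtB18_7.Ce RtB18_7.CTn RtB18_7.CEr 0x41 = true := by decide +kernel

end Vale.Agent.helper4.Q4
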