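import Vale.Agent.helper4.Q4TreeM
import Vale.Agent.helper4.Q4G.PB18_7

/-!
Checks for pairs of intervals of second moments.
-/

set_option maxRecDepth 100000
set_option linter.unusedVariables false

namespace Vale.Agent.helper4.Q4

theorem cB18_7_1_1 : chunkOkM (LB18_7.ctx true false 109 1 1 1 1 1 1 1 1) muQ true false 64 RtB18_7.Cx RtB18_7.CX RtB18_7.Ctp.right.left RtB18_7.Ce RtB18_7.CTn RtB18_7.CEr 0x41 = true := by decide +kernel

theorem cB18_7_1_2 : chunkOkM (LB18_7.ctx true false 109 1 1 1 1 1 1 1 1) muQ true false 64 RtB18_7.Cx RtB18_7.CX RtB18_7.Ctp.right.right RtB18_7.Ce.left RtB18_7.CTn RtB18_7.CEr 0x11 = true := by decide +kernel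

theorem cB18_7_1_3 : chunkOkM (LB18_7.ctx true false 240 17 8 7 16 49 65 32 512) muQ true false 64 RtB18_7.Cx RtB18_7.CX RtB18_7.Ctp.right.right RtB18_7.Ce.right.left RtB18_7.CTn.left.left.left RtB18_7.CEr.left.left.left.left 0x6bf36269c13904efcc2dbf81eb39482f247cf427831950b0dbf140d = true := by decide +kernel

theorem cB18_7_1_4 : chunkOkM (LB18_7.ctx true false 273 65 32 7 16 385 663 32 512) muQ true false 64 RtB18_7.Cx RtB18_7.CX RtB18_7.Ctp.right.right.left RtB18_7.Ce.right.right.left RtB18_7.CTn.left.left.left RtB18_7.CEr.left.left.left.left 0x495949d35bb9ed59f634318356abaf5176f1d228baf430d116eb4d2efaf62c5458bf12af5130943e0fdaf430d4747493493 = true := by decide +kernel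

end Vale.Agent.helper4.Q4
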