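import Vale.Agent.helper4.Q4TreeM
import Vale.Agent.helper4.Q4G.PB18_8

/-!
Checks for pairs of intervals of second moments.
-/

set_option maxRecDepth 100000
set_option linter.unusedVariables false

namespace Vale.Agent.helper4.Q4

theorem cB18_8_1_8 : chunkOkM (LB18_8.ctx true false 393 259 128 513 1024 1673 5499 16384 65536) muQ true false 64 RtB18_8.Cx.left.left RtB18_8.CX.left.left.left.left.left.left RtB18_8.Ctp.right.right.right.left.right.right RtB18_8.Ce.right.right.left.right.left.left RtB18_8.CTn.left.left.left.left.left.left.left.left.left.left.left.left RtB18_8.CEr.left.left.left.left.left.left.left.left.left.left.left.left 0x2efa31c179f05bf2ba672cc9f06b10705244f2af06b7ee23020d79f06b43f238c8ca9f05be628010719f623b4247cf9f520d43775239c955eafd77539c5303ac8829f6240b895e39f540d4 = true := by decide +kernel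

theorem cB18_8_1_9 : chunkOkM (LB18_8.ctx true false 367 67 32 513 1024 413 1365 16384 65536) muQ true false 64 RtB18_8.Cx.left.right RtB18_8.CX.left.left.left.left.left.left RtB18_8.Ctp.right.right.right.left.right RtB18_8.Ce.right.right.left.right.left.left RtB18_8.CTn.left.left.left.left.left.left.left.left.left.left.left.left RtB18_8.CEr.left.left.left.left.left.left.left.left.left.left.left.left 0x3fea49c358e97aa49f64644edb9b9f530d = true := by decide +kernel

theorem cB18_8_1_10 : chunkOkM (LB18_8.ctx true false 387 131 64 513 1024 1673 5525 16384 65536) muQ true false 64 RtB18_8.Cx.left RtB18_8.CX.left.left.left.left.left.left RtB18_8.Ctp.right.right.right.left.right RtB18_8.Ce.right.right.left.right.left.right RtB18_8.CTn.left.left.left.left.left.left.left.left.left.left.left.left RtB18_8.CEr.left.left.left.left.left.left.left.left.left.left.left.left 0x1f00456e1eafd1dd649c2f8f080689f641e7628259f540d439ad57679f05be8374bb427feb2d09f629779a6cf9f517ef42298f240d691a513cb3aaaf06b469374527274d7c9f05b37 = true := by decide +kernel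

theorem cB18_8_1_11 : chunkOkM (LB18_8.ctx true false 358 35 16 513 1024 413 689 16384 65536) muQ true false 64 RtB18_8.Cx.right RtB18_8.CX.left.left.left.left.left.left RtB18_8.Ctp.right.right.right.left RtB18_8.Ce.right.right.left.right.left RtB18_8.CTn.left.left.left.left.left.left.left.left.left.left.left.left RtB18_8.CEr.left.left.left.left.left.left.left.left.left.left.left.left 0x21f70d86b9f652b4e5a589f520d493 = true := by decide +kernel

theorem cB18_8_1_12 : chunkOkM (LB18_8.ctx true false 368 71 32 513 1024 413 1443 16384 65536) muQ true false 64 RtB18_8.Cx RtB18_8.CX.left.left.left.left.left.left RtB18_8.Ctp.right.right.right.left RtB18_8.Ce.right.right.left.right.right RtB18_8.CTn.left.left.left.left.left.left.left.left.left.left.left.left RtB18_8.CEr.left.left.left.left.left.left.left.left.left.left.left.left 0x281b49c8e1a236bb37aaf48b89f6633e6227e9f52ed217d699f450d38685ba8b9f6631e70b4e9f5524a819e8f430d7e6800c9699f04bf96c059c27505c0ab9f6563c5f3329f56cad70778f440d7442800feab6afd73c39c1279a8d159f64fefdc1f29f540d73203ac481134934faf5e5cc16ca76af430d3 = true := by decide +kernel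

theorem cB18_8_1_13 : chunkOkM (LB18_8.ctx true false 385 131 64 513 1024 1701 2795 16384 65536) muQ true false 64 RtB18_8.Cx RtB18_8.CX.left.left.left.left.left.left RtB18_8.Ctp.right.right.right.right RtB18_8.Ce.right.right.left.right.left RtB18_8.CTn.left.left.left.left.left.left.left.left.left.left.left.left RtB18_8.CEr.left.left.left.left.left.left.left.left.left.left.left.left 0x1101f342172939f06b0146c21ddc39f00bbe42126034afd2ae149c1bda4bb25bf5e1559f62c54e752d9f515397d49f9f260d3217de048851c9f06b59754be929f02b7437328a5669ec9f00b47 = true := by decide +kernel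

end Vale.Agent.helper4.Q4
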