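import Vale.Agent.helper4.Q4TreeM
import Vale.Agent.helper4.Q4G.PB18_8

/-!
Checks for pairs of intervals of second moments.
-/

set_option maxRecDepth 100000
set_option linter.unusedVariables false

namespace Vale.Agent.helper4.Q4

theorem cB18_8_1_44 : chunkOkM (LB18_8.ctx true false 106 1 1 1 1 1 1 1 1) muQ true false 64 RtB18_8.Cx RtB18_8.CX RtB18_8.Ctp.right.right RtB18_8.Ce.right RtB18_8.CTn.left.left.left.left.left.right RtB18_8.CEr.left.left.left.left.left 0x42 = true := by decide +kernel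

theorem cB18_8_1_45 : chunkOkM (LB18_8.ctx true false 106 1 1 1 1 1 1 1 1) muQ true false 64 RtB18_8.Cx RtB18_8.CX RtB18_8.Ctp.right.right RtB18_8.Ce.right RtB18_8.CTn.left.left.left.left.right RtB18_8.CEr.left.left.left.left.left 0x42 = true := by decide +kernel

theorem cB18_8_1_46 : chunkOkM (LB18_8.ctx true false 106 1 1 1 1 1 1 1 1) muQ true false 64 RtB18_8.Cx RtB18_8.CX RtB18_8.Ctp.right.right RtB18_8.Ce.right RtB18_8.CTn.left.left.left.right RtB18_8.CEr.left.left.left.left.left 0x42 = true := by decide +kernel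

theorem cB18_8_1_47 : chunkOkM (LB18_8.ctx true false 106 1 1 1 1 1 1 1 1) muQ true false 64 RtB18_8.Cx RtB18_8.CX RtB18_8.Ctp.right.right RtB18_8.Ce.right RtB18_8.CTn.left.left.right RtB18_8.CEr.left.left.left.left.left 0x12 = true := by decide +kernel

theorem cB18_8_1_48 : chunkOkM (LB18_8.ctx true false 106 1 1 1 1 1 1 1 1) muQ true false 64 RtB18_8.Cx RtB18_8.CX RtB18_8.Ctp.right.right RtB18_8.Ce.right RtB18_8.CTn.left.right RtB18_8.CEr.left.left.left.left.left 0x12 = true := by decide +kernel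

theorem cB18_8_1_49 : chunkOkM (LB18_8.ctx true false 106 1 1 1 1 1 1 1 1) muQ true false 64 RtB18_8.Cx RtB18_8.CX RtB18_8.Ctp.right.right RtB18_8.Ce.right RtB18_8.CTn.right RtB18_8.CEr.left.left.left.left.left 0x12 = true := by decide +kernel

theorem cB18_8_1_50 : chunkOkM (LB18_8.ctx true false 106 1 1 1 1 1 1 1 1) muQ true false 64 RtB18_8.Cx RtB18_8.CX RtB18_8.Ctp.right RtB18_8.Ce RtB18_8.CTn RtB18_8.CEr.left.left.left.left.right 0x5a = true := by decide +kernel

theorem cB18_8_1_51 : chunkOkM (LB18_8.ctx true false 106 1 1 1 1 1 1 1 1) muQ true false 64 RtB18_8.Cx RtB18_8.CX RtB18_8.Ctp.right RtB18_8.Ce RtB18_8.CTn RtB18_8.CEr.left.left.left.right 0x5a = true := by decide +kernel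

theorem cB18_8_1_52 : chunkOkM (LB18_8.ctx true false 106 1 1 1 1 1 1 1 1) muQ true false 64 RtB18_8.Cx RtB18_8.CX RtB18_8.Ctp.right RtB18_8.Ce RtB18_8.CTn RtB18_8.CEr.left.left.right 0x5a = true := by decide +kernel

theorem cB18_8_1_53 : chunkOkM (LB18_8.ctx true false 106 1 1 1 1 1 1 1 1) muQ true false 64 RtB18_8.Cx RtB18_8.CX RtB18_8.Ctp.right RtB18_8.Ce RtB18_8.CTn RtB18_8.CEr.left.right 0x5a = true := by decide +kernel

theorem cB18_8_1_54 : chunkOkM (LB18_8.ctx true false 106 1 1 1 1 1 1 1 1) muQ true false 64 RtB18_8.Cx RtB18_8.CX RtB18_8.Ctp.right RtB18_8.Ce RtB18_8.CTn RtB18_8.CEr.right 0x52 = true := by decide +kernel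

theorem cB18_8_0_0 : chunkOkM (LB18_8.ctx false false 106 1 1 1 1 1 1 1 1) muQ false false 64 RtB18_8.Cx RtB18_8.CX RtB18_8.Ctn RtB18_8.Ce RtB18_8.CTn RtB18_8.CEr 0x49 = true := by decide +kernel

end Vale.Agent.helper4.Q4
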