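import Vale.Agent.helper4.Q4TreeM
import Vale.Agent.helper4.Q4G.PB18_9

/-!
Checks for pairs of intervals of second moments.
-/

set_option maxRecDepth 100000
set_option linter.unusedVariables false

namespace Vale.Agent.helper4.Q4

theorem cB18_9_3_402 : chunkOkM (LB18_9.ctx true true 312 571 256 11 16 7063 12207 128 64) muQ true true 64 RtB18_9.Cx.right.right.right RtB18_9.CX RtB18_9.Ctp.right.right.right.right.right.right.left RtB18_9.Ce.right.right.right.left.right.left.right.left RtB18_9.CTp.right RtB18_9.CEr 0x11189f9b87fd39e7e465c5dcdbd87f992ea60b629f640d24776087fdde423f475c124831c78bb223011a79f640d5d1b05c4301011e0c1cc7fdb711dc975c17322c8abdaf630d12e11307fdc3b319c75c8571df3d19f6b56d61368f240d43321771f7369de8fd4019ada78f6b72b11128f53ae886508f240d6 = true := by decide +kernel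

theorem cB18_9_3_403 : chunkOkM (LB18_9.ctx true true 308 575 256 11 16 3549 12259 128 64) muQ true true 64 RtB18_9.Cx.right.right.right RtB18_9.CX RtB18_9.Ctp.right.right.right.right.right.right.left RtB18_9.Ce.right.right.right.left.right.left.right.right RtB18_9.CTp.right RtB18_9.CEr 0x128c4a17fdf13205875c12b636dfa9f6eb71e3398f240d10012f27fd33e50e65c757f6647f9530940b4d9f66d2ccc1b8f550d30c6e307fd9a3a3e075c31cf12578b1b4a65b469f6afac6a598f550d5217111eca17fd1d320a65c6cb31b97f9b377f1b799f6135c4a4e8f550d2872dd47fdcb1f95475c94d39d07b9f630d5118c3227fd441687e7f9f40a4f7cfc50f8ce9f640dd26fbb6fdad13c5a75c357caf678b9b3168a2a9f640d5743322496f88fde7c3062b8f6c1752f9f8f530d6217 = true := by decide +kernel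

theorem cB18_9_3_404 : chunkOkM (LB18_9.ctx true true 103 1 1 1 1 1 1 1 1) muQ true true 64 RtB18_9.Cx.right.right.right RtB18_9.CX RtB18_9.Ctp.right.right.right.right.right.right.right RtB18_9.Ce.right.right.right.left.right.left.right RtB18_9.CTp.right RtB18_9.CEr 0x01 = true := by decide +kernel

theorem cB18_9_3_405 : chunkOkM (LB18_9.ctx true true 324 1151 512 21 32 3549 12285 256 64) muQ true true 64 RtB18_9.Cx.right.right RtB18_9.CX RtB18_9.Ctp.right.right.right.right.right RtB18_9.Ce.right.right.right.left.right.right RtB18_9.CTp RtB18_9.CEr 0x21212101332b7fd7fd681303d75c1595bb07f9defedbb289f65c4df1f18f250d30045397fd67b1d3075c17c07917f9268954805aaf640d32e7ff52c8fd179e572ca9f6b3ec71e08f530d64a2ba06e37fd929844275c55b14969b1695b70f39f6c29061568f51bad94db8f260d84a542553217421742170174593 = true := by decide +kernel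

theorem cB18_9_3_406 : chunkOkM (LB18_9.ctx true true 103 1 1 1 1 1 1 1 1) muQ true true 64 RtB18_9.Cx RtB18_9.CX RtB18_9.Ctp.right.right.right RtB18_9.Ce.right.right.right.right RtB18_9.CTp RtB18_9.CEr 0x21 = true := by decide +kernel

theorem cB18_9_2_0 : chunkOkM (LB18_9.ctx false true 103 1 1 1 1 1 1 1 1) muQ false true 64 RtB18_9.Cx RtB18_9.CX RtB18_9.Ctn RtB18_9.Ce RtB18_9.CTp RtB18_9.CEr 0x49 = true := by decide +kernel

theorem cB18_9_1_0 : chunkOkM (LB18_9.ctx true false 103 1 1 1 1 1 1 1 1) muQ true false 64 RtB18_9.Cx RtB18_9.CX RtB18_9.Ctp RtB18_9.Ce RtB18_9.CTn RtB18_9.CEr 0x4a = true := by decide +kernel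

theorem cB18_9_0_0 : chunkOkM (LB18_9.ctx false false 103 1 1 1 1 1 1 1 1) muQ false false 64 RtB18_9.Cx RtB18_9.CX RtB18_9.Ctn RtB18_9.Ce RtB18_9.CTn RtB18_9.CEr 0x49 = true := by decide +kernel

end Vale.Agent.helper4.Q4
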