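import Vale.Agent.helper4.Q4TreeM
import Vale.Agent.helper4.Q4G.PB19_6

/-!
Checks for pairs of intervals of second moments.
-/

set_option maxRecDepth 100000
set_option linter.unusedVariables false

namespace Vale.Agent.helper4.Q4

theorem cB19_6_1_11 : chunkOkM (LB19_6.ctx true false 245 39 16 5 16 230 805 4 128) muQ true false 64 RtB19_6.Cx RtB19_6.CX RtB19_6.Ctp.right.right.right.left RtB19_6.Ce.right.right.right.left.left RtB19_6.CTn RtB19_6.CEr.left 0x11998c470e19f00b385f4f5d8fd72124e67c3e24f59c39f6c394c478e9f540d369430101bdc2a0b68fdf904d867c34fff2b009f6b7ab4f1669f516eba86119f250d1729456fe9fd139ece777c4efdbe5c89f69fbb7385f9f52a64986359f250d4337 = true := by decide +kernel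

theorem cB19_6_1_12 : chunkOkM (LB19_6.ctx true false 251 79 32 5 16 230 833 4 128) muQ true false 64 RtB19_6.Cx RtB19_6.CX RtB19_6.Ctp.right.right.right.left RtB19_6.Ce.right.right.right.left.right RtB19_6.CTn RtB19_6.CEr.left 0x1241fa4dbeaf00b7f7406b18fd12a75e677c562941f459f6d382ed35f9f540dda951867c1be6549db9f6ea3e4b2799f5ac3a878bd9f440d34bec72d38fde1eac767c219375f08f8a89290d089f6cca88fa539f56d7d5e81b9f460d1511d13e69fd2487c6777c49e74b8ef9f6a62011b799f540d40b27b528fdaa62e267c52613ba769f6e7e1357399f540d3743217 = true := by decide +kernel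

theorem cB19_6_1_13 : chunkOkM (LB19_6.ctx true false 247 79 32 5 16 118 847 4 128) muQ true false 64 RtB19_6.Cx RtB19_6.CX RtB19_6.Ctp.right.right.right.left RtB19_6.Ce.right.right.right.right RtB19_6.CTn RtB19_6.CEr.left 0x21212100b4ed59fd1a4993a77cfca94da28f86ddce8c4b9f6b0e2c64a29f53252d2ed19f260d4d1937ce8fdc7f35a67cad7eeba7b9f6102eb996dcaf540d321742174 = true := by decide +kernel

theorem cB19_6_1_14 : chunkOkM (LB19_6.ctx true false 107 1 1 1 1 1 1 1 1) muQ true false 64 RtB19_6.Cx RtB19_6.CX RtB19_6.Ctp.right.right.right.right RtB19_6.Ce.right.right.right RtB19_6.CTn RtB19_6.CEr.left 0x01 = true := by decide +kernel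

theorem cB19_6_1_15 : chunkOkM (LB19_6.ctx true false 107 1 1 1 1 1 1 1 1) muQ true false 64 RtB19_6.Cx RtB19_6.CX RtB19_6.Ctp.right.right RtB19_6.Ce.right.right RtB19_6.CTn RtB19_6.CEr.right 0x5a = true := by decide +kernel

theorem cB19_6_0_0 : chunkOkM (LB19_6.ctx false false 107 1 1 1 1 1 1 1 1) muQ false false 64 RtB19_6.Cx RtB19_6.CX RtB19_6.Ctn RtB19_6.Ce RtB19_6.CTn RtB19_6.CEr 0x49 = true := by decide +kernel

end Vale.Agent.helper4.Q4
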