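import Vale.Agent.helper4.Q4TreeM
import Vale.Agent.helper4.Q4G.PB19_8

/-!
Checks for pairs of intervals of second moments.
-/

set_option maxRecDepth 100000
set_option linter.unusedVariables false

namespace Vale.Agent.helper4.Q4

theorem cB19_8_3_150 : chunkOkM (LB19_8.ctx true true 285 611 256 9 16 1806 6475 4 32) muQ true true 64 RtB19_8.Cx.right.left.left RtB19_8.CX RtB19_8.Ctp.right.right.right.left.left.left.left RtB19_8.Ce.right.right.right.left.left.right.right.right RtB19_8.CTp RtB19_8.CEr 0x1e347b228fd1dce2491fbaf6b79234bb69f530d6a6374ee397fda9e6e6176c55afe0708f81626032547af6ed57ba4169f550d559cb091df519f05b6a6a84da85e99f05b5593597474b137a458fd388879d76cd2131d1cd9f6c1923a57a9f540d6a6a7ddff6fd579065076c129377979b330b566e8f81cbb6a225baf6ef548b83a9f560d55973 = true := by decide +kernel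

theorem cB19_8_3_151 : chunkOkM (LB19_8.ctx true true 262 153 64 9 16 454 3241 4 32) muQ true true 64 RtB19_8.Cx.right.left.left RtB19_8.CX RtB19_8.Ctp.right.right.right.left.left.left.right RtB19_8.Ce.right.right.right.left.left.right.right RtB19_8.CTp RtB19_8.CEr 0x29e2423b8fd19a8457c1b99433d89af68a0b3f4849f540d6a66b6bd6176c227943fb8f8185185d40eaf69f9795f159f540d54b2bcd5f8fd457d4767c28b72f6c08af6765912cce9f540d6a68f6a1d376c3b8e054d8f81c0cfc0630af6a76fd8b3a9f540d54 = true := by decide +kernel

theorem cB19_8_3_152 : chunkOkM (LB19_8.ctx true true 272 309 128 9 16 902 3241 4 32) muQ true true 64 RtB19_8.Cx.right.left.right RtB19_8.CX RtB19_8.Ctp.right.right.right.left.left.left RtB19_8.Ce.right.right.right.left.left.right.right RtB19_8.CTp RtB19_8.CEr 0x692c5ec0018fd425bc5d590af6c72e0a73a9f530d6a69232257889f05b549138730858fd118a43a328af6df17179c09f582bed2c459f440d6a686e043e76c3931d2308f817a893700baf6e707dacc69f574edd62629f450d57318dd239d8fd4b6c63658f8238023ea29af63d9172db80af440d172626598caf04b543 = true := by decide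 +kernel

theorem cB19_8_3_153 : chunkOkM (LB19_8.ctx true true 107 1 1 1 1 1 1 1 1) muQ true true 64 RtB19_8.Cx.right.right RtB19_8.CX RtB19_8.Ctp.right.right.right.left.left.left RtB19_8.Ce.right.right.right.left.left.right RtB19_8.CTp RtB19_8.CEr 0x69 = true := by decide +kernel

end Vale.Agent.helper4.Q4
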