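import Vale.Agent.helper4.Q4TreeM
import Vale.Agent.helper4.Q4G.PB19_8

/-!
Checks for pairs of intervals of second moments.
-/

set_option maxRecDepth 100000
set_option linter.unusedVariables false

namespace Vale.Agent.helper4.Q4

theorem cB19_8_3_154 : chunkOkM (LB19_8.ctx true true 235 39 16 9 16 230 805 2 16) muQ true true 64 RtB19_8.Cx.right RtB19_8.CX RtB19_8.Ctp.right.right.right.left.left.right RtB19_8.Ce.right.right.right.left.left.right RtB19_8.CTp RtB19_8.CEr 0xd81a80d18fd5effc1177c2a209c9e49f84a28949621ebf1ec59b15f97ebf050d = true := by decide +kernel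

theorem cB19_8_3_155 : chunkOkM (LB19_8.ctx true true 107 1 1 1 1 1 1 1 1) muQ true true 64 RtB19_8.Cx.right RtB19_8.CX RtB19_8.Ctp.right.right.right.left.right RtB19_8.Ce.right.right.right.left.left RtB19_8.CTp RtB19_8.CEr 0x11 = true := by decide +kernel

theorem cB19_8_3_156 : chunkOkM (LB19_8.ctx true true 107 1 1 1 1 1 1 1 1) muQ true true 64 RtB19_8.Cx.left RtB19_8.CX RtB19_8.Ctp.right.right.right.left RtB19_8.Ce.right.right.right.left.right RtB19_8.CTp RtB19_8.CEr 0x21 = true := by decide +kernel

theorem cB19_8_3_157 : chunkOkM (LB19_8.ctx true true 285 615 256 9 16 1806 6503 4 32) muQ true true 64 RtB19_8.Cx.right.left.left RtB19_8.CX RtB19_8.Ctp.right.right.right.left.left.left.left RtB19_8.Ce.right.right.right.left.right.left.left RtB19_8.CTp RtB19_8.CEr 0x5959d5924b7e79f05b6a6ae314b6a59f05b559359745935974 = true := by decide +kernel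

end Vale.Agent.helper4.Q4
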