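import Vale.Agent.helper4.Q4TreeM
import Vale.Agent.helper4.Q4G.PB19_8

/-!
Checks for pairs of intervals of second moments.
-/

set_option maxRecDepth 100000
set_option linter.unusedVariables false

namespace Vale.Agent.helper4.Q4

theorem cB19_8_3_158 : chunkOkM (LB19_8.ctx true true 302 1223 512 9 16 3630 25991 4 32) muQ true true 64 RtB19_8.Cx.right.left.left RtB19_8.CX RtB19_8.Ctp.right.right.right.left.left.left.right RtB19_8.Ce.right.right.right.left.right.left.left.left RtB19_8.CTp RtB19_8.CEr 0x33ba1c5b8fd278b0ee76c1712759ca0af6c6d08a7599f540d6a62edd4f576c1c44f7179b161bc55394af6ab5e895659f540d5593c9a278fd71c306176c5dad932629f6b47a235909f540d6a690759b076ca8725669b3133fe9c8f817ed601959af6b1a9518f39f550d55959592a4a5e738fd3a548faa8f897de2c2d31af6a91aee82f9f540d95d5705a39f05b545935974593597437 = true := by decide +kernel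

theorem cB19_8_3_159 : chunkOkM (LB19_8.ctx true true 312 2463 1024 9 16 7262 26103 4 32) muQ true true 64 RtB19_8.Cx.right.left.left RtB19_8.CX RtB19_8.Ctp.right.right.right.left.left.left.right RtB19_8.Ce.right.right.right.left.right.left.left.right RtB19_8.CTp RtB19_8.CEr 0x5bc4a87f8fd8dccc3d76ca8ddff46e9f6b3f52dcb29f540d6a6b9899c6fda09fe9a76c33303b69b53ff179b8f8fb8f292229f6b1f2bbdfe9f560d5595959275e078c8fd3c954f8a8f878eeaddbc8af6daeb46d319f540d94f9526909f05b55935974593597459359743597 = true := by decide +kernel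

theorem cB19_8_3_160 : chunkOkM (LB19_8.ctx true true 276 311 128 9 16 902 6503 4 32) muQ true true 64 RtB19_8.Cx.right.left.right RtB19_8.CX RtB19_8.Ctp.right.right.right.left.left.left.left RtB19_8.Ce.right.right.right.left.right.left.left.left RtB19_8.CTp RtB19_8.CEr 0x2b4d31598fd9053a966c756236adbfaf6f1d27ccad9f5b5e3f21399f450d6a6a38585a519f05b5283942c68fd61737557f816880122c7af6def1267419f540d6a66fe4aa07fd9cd127f76c54b92af58f8168d927d14af6f298eb7a19f550d5749594c9fbf2c8fd4ea39ee76c41fcf6c666af612693f788caf540d6a67f079d176c139874679b416a56568f820ffb8c81aaf6106336ddcaaf55c2c1cf309f460d5473 = true := by decide +kernel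

theorem cB19_8_3_161 : chunkOkM (LB19_8.ctx true true 288 619 256 9 16 1806 13055 4 32) muQ true true 64 RtB19_8.Cx.right.left.right RtB19_8.CX RtB19_8.Ctp.right.right.right.left.left.left.left RtB19_8.Ce.right.right.right.left.right.left.left.right RtB19_8.CTp RtB19_8.CEr 0x5378da428fd5d883f376c111b2a58b9af6e2c16d6329f540d6a6934f66d76c3f9947b78f814d7eeadbdaf6e0c9ac8289f55fe484e599f450d55959dee45b6e19f05b6a6abe7f84829f05b545935974738f7a31c8f833164439eeaf515902738b7bbf430d3 = true := by decide +kernel

end Vale.Agent.helper4.Q4
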