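import Vale.Agent.helper4.Q4TreeM
import Vale.Agent.helper4.Q4G.PB19_8

/-!
Checks for pairs of intervals of second moments.
-/

set_option maxRecDepth 100000
set_option linter.unusedVariables false

namespace Vale.Agent.helper4.Q4

theorem cB19_8_3_162 : chunkOkM (LB19_8.ctx true true 262 155 64 9 16 454 3255 4 32) muQ true true 64 RtB19_8.Cx.right.left.right RtB19_8.CX RtB19_8.Ctp.right.right.right.left.left.left.right RtB19_8.Ce.right.right.right.left.right.left.left.left RtB19_8.CTp RtB19_8.CEr 0x4c4788b28fd73808067c1fde0ff80caf6cca5ef5269f540d6a6512f46776c15354a019eaf6c4e94c35b9f530d5 = true := by decide +kernel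

end Vale.Agent.helper4.Q4
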