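import Vale.Agent.helper4.Q4TreeM
import Vale.Agent.helper4.Q4G.PB19_8

/-!
Checks for pairs of intervals of second moments.
-/

set_option maxRecDepth 100000
set_option linter.unusedVariables false

namespace Vale.Agent.helper4.Q4

theorem cB19_8_3_101 : chunkOkM (LB19_8.ctx true true 291 1199 512 9 16 1766 12579 4 16) muQ true true 64 RtB19_8.Cx.left.right.left.right RtB19_8.CX RtB19_8.Ctp.right.right.left.right.right.right.left RtB19_8.Ce.right.right.right.left.left.left.left.left RtB19_8.CTp RtB19_8.CEr 0x21e7921e8fd349e436f8f81c40cb1cabaf6cdf8ccb849f540d32e3ca376c22468a428f8168f7f7b5daf6bc2e8d97f9f540d559172f45d68fd40854ea68f84f9bd4b409af610e7b3f2f3af540d9cfe005759f05b559745935971bf54fe28fd2f5203ae8f81b8ead75d0af6f3038caf79f540dc933bc6949f05b543 = true := by decide +kernel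

theorem cB19_8_3_102 : chunkOkM (LB19_8.ctx true true 272 299 128 9 16 886 6307 4 16) muQ true true 64 RtB19_8.Cx.left.right.left RtB19_8.CX RtB19_8.Ctp.right.right.left.right.right.right.left RtB19_8.Ce.right.right.right.left.left.left.left.right RtB19_8.CTp RtB19_8.CEr 0x592a8589a78fd13c6c0db8f82859f956b7af6eaa421a159f540dca7908d009f05b54593597 = true := by decide +kernel

theorem cB19_8_3_103 : chunkOkM (LB19_8.ctx true true 272 299 128 9 16 894 3143 4 32) muQ true true 64 RtB19_8.Cx.left.right.left RtB19_8.CX RtB19_8.Ctp.right.right.left.right.right.right.right RtB19_8.Ce.right.right.right.left.left.left.left.left RtB19_8.CTp RtB19_8.CEr 0x262728b48fd380ad7128f891947d6039f69ddac9f409f540d5d8d442889f05b52f6bb7b28fdaa54d4c7f82ab0063759af6774873e569f540d6a63520e4e76c1c648e2aecaf6995cd3bdb9f530d523eaca028fda5af7df7f811b23538c4af6a871151049f540d6a6524648776c217c6add8f8daba1c4109f6ba428eff39f540d537 = true := by decide +kernel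

end Vale.Agent.helper4.Q4
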