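import Vale.Agent.helper4.Q4TreeM
import Vale.Agent.helper4.Q4G.PB19_8

/-!
Checks for pairs of intervals of second moments.
-/

set_option maxRecDepth 100000
set_option linter.unusedVariables false

namespace Vale.Agent.helper4.Q4

theorem cB19_8_3_104 : chunkOkM (LB19_8.ctx true true 285 595 256 9 16 1782 6307 4 32) muQ true true 64 RtB19_8.Cx.left.right.left.left RtB19_8.CX RtB19_8.Ctp.right.right.left.right.right.right.right RtB19_8.Ce.right.right.right.left.left.left.left.right RtB19_8.CTp RtB19_8.CEr 0x2af136658fd289543c7abaf6cbef05e149f530d6a6698199876c1f9697338f8141fc8a1f7af6ab343eeaf9f540d559276b0ecb8fd37254b988f826ef71d837af6af24a50349f540da501a8c5e9f05b559359743 = true := by decide +kernel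

theorem cB19_8_3_105 : chunkOkM (LB19_8.ctx true true 269 299 128 9 16 894 3157 4 16) muQ true true 64 RtB19_8.Cx.left.right.left.right RtB19_8.CX RtB19_8.Ctp.right.right.left.right.right.right.right RtB19_8.Ce.right.right.right.left.left.left.left.right RtB19_8.CTp RtB19_8.CEr 0x2e6b91a58fd3c0db0918f88b090bf5c9f6943b890e59f540d8838371e29f05b5278978688fd3972e8fe8f8198c361279af6b5183239a9f540d2baa90f7fd905b1ba76c443543e38f81cc6064fcaaf6f53ec06c09f550d53 = true := by decide +kernel

theorem cB19_8_3_106 : chunkOkM (LB19_8.ctx true true 272 301 128 9 16 886 6293 4 16) muQ true true 64 RtB19_8.Cx.left.right.right RtB19_8.CX RtB19_8.Ctp.right.right.left.right.right.right.left RtB19_8.Ce.right.right.right.left.left.left.left.left RtB19_8.CTp RtB19_8.CEr 0x1c07ef6c8fd3c3fb80a8f822fc441129f6a85932c3f9f540d34dfb2fc39f05b5491b1551648fd32644e798f829b7e04ffcaf6108f4bfe89af5126492fa29f450d23e1a7928fdfcadefc76c94228ad48f8302504f48daf610d8a4f4c6af5e9b9168b8f460d52059c3048fd3c80602d8f8108c08c8cfaf6b8701a2179f51f1d9beae9f450d893f4fa8e9f05b5473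 = true := by decide +kernel

end Vale.Agent.helper4.Q4
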