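import Vale.Agent.helper4.Q4TreeM
import Vale.Agent.helper4.Q4G.PB19_8

/-!
Checks for pairs of intervals of second moments.
-/

set_option maxRecDepth 100000
set_option linter.unusedVariables false

namespace Vale.Agent.helper4.Q4

theorem cB19_8_3_107 : chunkOkM (LB19_8.ctx true true 274 301 128 9 16 882 6321 4 16) muQ true true 64 RtB19_8.Cx.left.right.right RtB19_8.CX RtB19_8.Ctp.right.right.left.right.right.right.left.left RtB19_8.Ce.right.right.right.left.left.left.left.right RtB19_8.CTp RtB19_8.CEr 0x49241264118fd2f353d258f86432a939e6af63cfd2a6007fbf510f724675391cf450d19a9eac98fd3a4161138f830593f0f85af610b68e5dd8af520acf23549f450dab980a6fde6ea3669bea70e727f820b7f011afaf6cdf06c4129f5467ec4ed99f460d547 = true := by decide +kernel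

theorem cB19_8_3_108 : chunkOkM (LB19_8.ctx true true 272 303 128 9 16 886 6321 4 16) muQ true true 64 RtB19_8.Cx.left.right.right RtB19_8.CX RtB19_8.Ctp.right.right.left.right.right.right.left.right RtB19_8.Ce.right.right.right.left.left.left.left.right RtB19_8.CTp RtB19_8.CEr 0x1cb3fe858fd400e5fa28f838ab471cd9f6b181627a99f59ea275d98f450d6aad659849f05b520f8dfb08fd37c737f58f83188c755cfaf6e2d83005d9f540d1c39f2cd8fdaf8f53176c6aca75d68f81ccf971413af6dea8dcd569f550d51cdc83898fd3f2741a78f8226749a9bbaf6d954f35cc9f540d9e43135289f05b547 = true := by decide +kernel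

theorem cB19_8_3_109 : chunkOkM (LB19_8.ctx true true 259 151 64 9 16 446 3157 4 16) muQ true true 64 RtB19_8.Cx.left.right.right RtB19_8.CX RtB19_8.Ctp.right.right.left.right.right.right.right RtB19_8.Ce.right.right.right.left.left.left.left RtB19_8.CTp RtB19_8.CEr 0x245f54898fd3c91b3498f8a0112c5ea9f6a5c96a2139f540d6bcc0432d9f05b5694 = true := by decide +kernel

end Vale.Agent.helper4.Q4
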