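import Vale.Agent.helper4.Q4TreeM
import Vale.Agent.helper4.Q4G.PB19_8

/-!
Checks for pairs of intervals of second moments.
-/

set_option maxRecDepth 100000
set_option linter.unusedVariables false

namespace Vale.Agent.helper4.Q4

theorem cB19_8_3_110 : chunkOkM (LB19_8.ctx true true 107 1 1 1 1 1 1 1 1) muQ true true 64 RtB19_8.Cx.left.right.left RtB19_8.CX RtB19_8.Ctp.right.right.left.right.right.right.left RtB19_8.Ce.right.right.right.left.left.left.right RtB19_8.CTp RtB19_8.CEr 0x59 = true := by decide +kernel

end Vale.Agent.helper4.Q4
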