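import Vale.Agent.helper4.Q4TreeM
import Vale.Agent.helper4.Q4G.PB20_10

/-!
Checks for pairs of intervals of second moments.
-/

set_option maxRecDepth 100000
set_option linter.unusedVariables false

namespace Vale.Agent.helper4.Q4

theorem cB20_10_3_0 : chunkOkM (LB20_10.ctx true true 101 1 1 1 1 1 1 1 1) muQ true true 64 RtB20_10.Cx RtB20_10.CX RtB20_10.Ctp.left RtB20_10.Ce RtB20_10.CTp RtB20_10.CEr 0x41 = true := by decide +kernel

theorem cB20_10_3_1 : chunkOkM (LB20_10.ctx true true 101 1 1 1 1 1 1 1 1) muQ true true 64 RtB20_10.Cx RtB20_10.CX RtB20_10.Ctp.right RtB20_10.Ce RtB20_10.CTp.left RtB20_10.CEr 0x42 = true := by decide +kernel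

theorem cB20_10_3_2 : chunkOkM (LB20_10.ctx true true 101 1 1 1 1 1 1 1 1) muQ true true 64 RtB20_10.Cx RtB20_10.CX RtB20_10.Ctp.right.left RtB20_10.Ce RtB20_10.CTp.right RtB20_10.CEr 0x41 = true := by decide +kernel

theorem cB20_10_3_3 : chunkOkM (LB20_10.ctx true true 101 1 1 1 1 1 1 1 1) muQ true true 64 RtB20_10.Cx RtB20_10.CX RtB20_10.Ctp.right.right RtB20_10.Ce.left RtB20_10.CTp.right RtB20_10.CEr 0x11 = true := by decide +kernel

theorem cB20_10_3_4 : chunkOkM (LB20_10.ctx true true 101 1 1 1 1 1 1 1 1) muQ true true 64 RtB20_10.Cx RtB20_10.CX RtB20_10.Ctp.right.right.left RtB20_10.Ce.right RtB20_10.CTp.right RtB20_10.CEr 0x49 = true := by decide +kernel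

theorem cB20_10_3_5 : chunkOkM (LB20_10.ctx true true 101 1 1 1 1 1 1 1 1) muQ true true 64 RtB20_10.Cx RtB20_10.CX RtB20_10.Ctp.right.right.right RtB20_10.Ce.right.left RtB20_10.CTp.right RtB20_10.CEr 0x11 = true := by decide +kernel

theorem cB20_10_3_6 : chunkOkM (LB20_10.ctx true true 211 21 8 13 16 30 100 32 8) muQ true true 64 RtB20_10.Cx RtB20_10.CX RtB20_10.Ctp.right.right.right RtB20_10.Ce.right.right.left.left RtB20_10.CTp.right RtB20_10.CEr 0xe24849b323a3e6f82707a72223af429f811aec9f140d = true := by decide +kernel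

theorem cB20_10_3_7 : chunkOkM (LB20_10.ctx true true 101 1 1 1 1 1 1 1 1) muQ true true 64 RtB20_10.Cx RtB20_10.CX RtB20_10.Ctp.right.right.right.left.left.left RtB20_10.Ce.right.right.left.right.left RtB20_10.CTp.right RtB20_10.CEr 0x49 = true := by decide +kernel

end Vale.Agent.helper4.Q4
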