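import Vale.Agent.helper4.Q4TreeM
import Vale.Agent.helper4.Q4G.PB20_10

/-!
Checks for pairs of intervals of second moments.
-/

set_option maxRecDepth 100000
set_option linter.unusedVariables false

namespace Vale.Agent.helper4.Q4

theorem cB20_10_3_24 : chunkOkM (LB20_10.ctx true true 222 21 8 13 16 114 220 32 8) muQ true true 64 RtB20_10.Cx RtB20_10.CX RtB20_10.Ctp.right.right.right.left.left RtB20_10.Ce.right.right.left.right.right RtB20_10.CTp.right RtB20_10.CEr 0x2ad1e169b116d734869f6434e3f5cb9f5110e5168afaf440d = true := by decide +kernel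

theorem cB20_10_3_25 : chunkOkM (LB20_10.ctx true true 231 41 16 13 16 118 220 32 16) muQ true true 64 RtB20_10.Cx.left RtB20_10.CX RtB20_10.Ctp.right.right.right.left.right RtB20_10.Ce.right.right.left.right.right RtB20_10.CTp.right RtB20_10.CEr.left 0x4675dae989b34846ca8f9f86173ec3b8f63da84c248f040d = true := by decide +kernel

end Vale.Agent.helper4.Q4
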