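import Vale.Agent.helper4.Q4TreeM
import Vale.Agent.helper4.Q4G.PB20_11

/-!
Checks for pairs of intervals of second moments.
-/

set_option maxRecDepth 100000
set_option linter.unusedVariables false

namespace Vale.Agent.helper4.Q4

theorem cB20_11_3_25 : chunkOkM (LB20_11.ctx true true 304 165 64 57 64 470 1740 256 165) muQ true true 64 RtB20_11.Cx.left.right RtB20_11.CX RtB20_11.Ctp.right.right.right.left.right.left.right RtB20_11.Ce.right.right.left.right.right.left.left RtB20_11.CTp.right RtB20_11.CEr.right 0x69c00669676c1a3b92b38f91dcfe6dcb9f6379ce0cac9f5d0a6defe8f450db1e935b76c55c59377f9380f1026b9f638cb707359f570a719118f450d679b4a5f67c369fabbf8f97bd2beb6bc98cf6990fa713628bf440d46a64a4a127c834786c12c6c84209f63f41cd0689f5fed4a4d98f440d3482e1da59f05b6884a54a54255 = true := by decide +kernel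

theorem cB20_11_3_26 : chunkOkM (LB20_11.ctx true true 316 167 64 57 64 15102 1756 256 165) muQ true true 64 RtB20_11.Cx.left.right RtB20_11.CX RtB20_11.Ctp.right.right.right.left.right.left.right RtB20_11.Ce.right.right.left.right.right.left.right RtB20_11.CTp.right RtB20_11.CEr.right 0xbcecadb76c151f9ad08f96e0a0b6e8f639c0e1e569f5e794aac28f450d81c05c6114493493493493493bef883076c12119d248f947cfa01e59f640498c9659f510b477cef9f450ddebcf9676c1636152c8f92c9642b169f63b27a561b9f5cd391c438f450d4aefb82276c2a192c4679f63be6a1ea19f513db07dc79f440d676a64a4a103f4d1f86c1cf9b36abfb2a2d9c8f63d5ff91789f540d830493c76c351b626ab1cba396d39f637547518e9f5d313c9fb8f450d6884a54a54255 = true := by decide +kernel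

theorem cB20_11_3_27 : chunkOkM (LB20_11.ctx true true 296 165 64 57 64 478 1756 256 165) muQ true true 64 RtB20_11.Cx.left.right RtB20_11.CX RtB20_11.Ctp.right.right.right.left.right.right RtB20_11.Ce.right.right.left.right.right.left RtB20_11.CTp.right RtB20_11.CEr.right 0x6938af1960f9f00beb6a87276c1c8792c88f933100f1f19f6373a0a8f29f540db96481476c590dfd9099f63b2776a239f530d6b1d203476c616f15a7f919882e0cb9f635cefe8379f540d4376a64a4ae99792676c256a8f5249f639bd1e7b79f530daef51067cc2c885ab29f3d41029f63d490305e9f540d6884a54a54255114 = true := by decide +kernel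

theorem cB20_11_3_28 : chunkOkM (LB20_11.ctx true true 105 1 1 1 1 1 1 1 1) muQ true true 64 RtB20_11.Cx.left.left RtB20_11.CX RtB20_11.Ctp.right.right.right.left.right RtB20_11.Ce.right.right.left.right.right.right RtB20_11.CTp.right RtB20_11.CEr.right 0x21 = true := by decide +kernel

theorem cB20_11_3_29 : chunkOkM (LB20_11.ctx true true 290 167 64 57 64 470 892 256 77) muQ true true 64 RtB20_11.Cx.left.right RtB20_11.CX RtB20_11.Ctp.right.right.right.left.right RtB20_11.Ce.right.right.left.right.right.right RtB20_11.CTp.right.left RtB20_11.CEr.right 0x4a4afc3948276c2c559c6ab2fe6674229f63f7ee65be9f540dbb2081276c1c92266ab4d754f9c49f646e83e61c9f540d621710304e7c86c367ac59139f6402e3dd2b9f530d808932ba8fde043d9476c1987146ab2cea4bda69f63fb0fd0329f550d64593dea6cd28fd102eee9686c405495ab44e2122d39f532a5da8b09f450dd1cc00e76c74fb85ab7d826917f647e9e7fae9f54546c57e39f450d649343884a54a5425 = true := by decide +kernel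

theorem cB20_11_3_30 : chunkOkM (LB20_11.ctx true true 105 1 1 1 1 1 1 1 1) muQ true true 64 RtB20_11.Cx.left.right RtB20_11.CX RtB20_11.Ctp.right.right.right.left.right RtB20_11.Ce.right.right.left.right.right.right RtB20_11.CTp.right.right RtB20_11.CEr.right.left 0x6a = true := by decide +kernel

end Vale.Agent.helper4.Q4
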