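import Vale.Agent.helper4.Q4TreeM
import Vale.Agent.helper4.Q4G.PB20_14

/-!
Checks for pairs of intervals of second moments.
-/

set_option maxRecDepth 100000
set_option linter.unusedVariables false

namespace Vale.Agent.helper4.Q4

theorem cB20_14_3_22 : chunkOkM (LB20_14.ctx true true 286 87 32 41 32 122 468 171 58) muQ true true 64 RtB20_14.Cx.right RtB20_14.CX RtB20_14.Ctp.right.right.right.right.left RtB20_14.Ce.right.right.right.left.right RtB20_14.CTp.right.right RtB20_14.CEr.right.right 0x21220202db4cd4f7ac6015d5eb16e6592f9a784df61cd8f5a293c81df53abf74d7d4ffcf450d5548228a97b9ac490f2cc469db122a2773ef488df61dee12542fe76df540d561ba7be6bc7c15f0d36e90cf918083c13fec8fdf61c500b2f0b871df53691a1bd413fcf450d4abd88ac6bc5726e5eb135a38e5331e6df61d3536943a75cdf540d1264a54a58562174 = true := by decide +kernel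

theorem cB20_14_3_23 : chunkOkM (LB20_14.ctx true true 120 1 1 1 1 1 1 1 1) muQ true true 64 RtB20_14.Cx.right RtB20_14.CX RtB20_14.Ctp.right.right.right.right.right RtB20_14.Ce.right.right.right.left RtB20_14.CTp.right.right RtB20_14.CEr.right.right 0x01 = true := by decide +kernel

theorem cB20_14_3_24 : chunkOkM (LB20_14.ctx true true 120 1 1 1 1 1 1 1 1) muQ true true 64 RtB20_14.Cx RtB20_14.CX RtB20_14.Ctp.right.right.right RtB20_14.Ce.right.right.right.right RtB20_14.CTp.right.right RtB20_14.CEr.right 0x21 = true := by decide +kernel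

theorem cB20_14_2_0 : chunkOkM (LB20_14.ctx false true 120 1 1 1 1 1 1 1 1) muQ false true 64 RtB20_14.Cx RtB20_14.CX RtB20_14.Ctn RtB20_14.Ce RtB20_14.CTp RtB20_14.CEr 0x49 = true := by decide +kernel

theorem cB20_14_1_0 : chunkOkM (LB20_14.ctx true false 120 1 1 1 1 1 1 1 1) muQ true false 64 RtB20_14.Cx RtB20_14.CX RtB20_14.Ctp RtB20_14.Ce RtB20_14.CTn RtB20_14.CEr 0x4a = true := by decide +kernel

theorem cB20_14_0_0 : chunkOkM (LB20_14.ctx false false 120 1 1 1 1 1 1 1 1) muQ false false 64 RtB20_14.Cx RtB20_14.CX RtB20_14.Ctn RtB20_14.Ce RtB20_14.CTn RtB20_14.CEr 0x49 = true := by decide +kernel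

end Vale.Agent.helper4.Q4
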