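import Vale.Agent.helper4.Q4TreeM
import Vale.Agent.helper4.Q4G.PB20_9

/-!
Checks for pairs of intervals of second moments.
-/

set_option maxRecDepth 100000
set_option linter.unusedVariables false

namespace Vale.Agent.helper4.Q4

theorem cB20_9_3_107 : chunkOkM (LB20_9.ctx true true 291 351 128 21 32 490 1876 256 128) muQ true true 64 RtB20_9.Cx.right.right.right RtB20_9.CX RtB20_9.Ctp.right.right.right.right.left.right.left RtB20_9.Ce.right.right.right.left.right.left.right RtB20_9.CTp RtB20_9.CEr 0x2146bb60575c14766ab7f917723b478f6205eb2a28f56dbad887f450d6530ef475c26a916928f621db9fd18f530d6213740d58f05b64a5500d4b75cec630f68b489b014b8f62e4689aa8f540d4ed962475cdb6ed468b18ad37018f62495c2298f540d684a542552174 = true := by decide +kernel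

theorem cB20_9_3_108 : chunkOkM (LB20_9.ctx true true 99 1 1 1 1 1 1 1 1) muQ true true 64 RtB20_9.Cx.right.right.right RtB20_9.CX RtB20_9.Ctp.right.right.right.right.left.right.right RtB20_9.Ce.right.right.right.left.right.left RtB20_9.CTp RtB20_9.CEr 0x01 = true := by decide +kernel

theorem cB20_9_3_109 : chunkOkM (LB20_9.ctx true true 99 1 1 1 1 1 1 1 1) muQ true true 64 RtB20_9.Cx.right RtB20_9.CX RtB20_9.Ctp.right.right.right.right.left RtB20_9.Ce.right.right.right.left.right.right RtB20_9.CTp RtB20_9.CEr 0x21 = true := by decide +kernel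

theorem cB20_9_3_110 : chunkOkM (LB20_9.ctx true true 99 1 1 1 1 1 1 1 1) muQ true true 64 RtB20_9.Cx.right RtB20_9.CX RtB20_9.Ctp.right.right.right.right.right RtB20_9.Ce.right.right.right.left RtB20_9.CTp RtB20_9.CEr 0x01 = true := by decide +kernel

theorem cB20_9_3_111 : chunkOkM (LB20_9.ctx true true 99 1 1 1 1 1 1 1 1) muQ true true 64 RtB20_9.Cx RtB20_9.CX RtB20_9.Ctp.right.right.right RtB20_9.Ce.right.right.right.right RtB20_9.CTp RtB20_9.CEr 0x21 = true := by decide +kernel

theorem cB20_9_2_0 : chunkOkM (LB20_9.ctx false true 99 1 1 1 1 1 1 1 1) muQ false true 64 RtB20_9.Cx RtB20_9.CX RtB20_9.Ctn RtB20_9.Ce RtB20_9.CTp RtB20_9.CEr 0x49 = true := by decide +kernel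

theorem cB20_9_1_0 : chunkOkM (LB20_9.ctx true false 99 1 1 1 1 1 1 1 1) muQ true false 64 RtB20_9.Cx RtB20_9.CX RtB20_9.Ctp RtB20_9.Ce RtB20_9.CTn RtB20_9.CEr 0x4a = true := by decide +kernel

theorem cB20_9_0_0 : chunkOkM (LB20_9.ctx false false 99 1 1 1 1 1 1 1 1) muQ false false 64 RtB20_9.Cx RtB20_9.CX RtB20_9.Ctn RtB20_9.Ce RtB20_9.CTn RtB20_9.CEr 0x49 = true := by decide +kernel

end Vale.Agent.helper4.Q4
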