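import Vale.Agent.helper4.Q4TreeM
import Vale.Agent.helper4.Q4G.PB21_15

/-!
Checks for pairs of intervals of second moments.
-/

set_option maxRecDepth 100000
set_option linter.unusedVariables false

namespace Vale.Agent.helper4.Q4

theorem cB21_15_3_0 : chunkOkM (LB21_15.ctx true true 91 1 1 1 1 1 1 1 1) muQ true true 64 RtB21_15.Cx RtB21_15.CX RtB21_15.Ctp.left RtB21_15.Ce RtB21_15.CTp RtB21_15.CEr 0x41 = true := by decide +kernel

theorem cB21_15_3_1 : chunkOkM (LB21_15.ctx true true 91 1 1 1 1 1 1 1 1) muQ true true 64 RtB21_15.Cx RtB21_15.CX RtB21_15.Ctp.right RtB21_15.Ce.left RtB21_15.CTp RtB21_15.CEr 0x69 = true := by decide +kernel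

theorem cB21_15_3_2 : chunkOkM (LB21_15.ctx true true 91 1 1 1 1 1 1 1 1) muQ true true 64 RtB21_15.Cx RtB21_15.CX RtB21_15.Ctp.right.left RtB21_15.Ce.right RtB21_15.CTp RtB21_15.CEr 0x41 = true := by decide +kernel

theorem cB21_15_3_3 : chunkOkM (LB21_15.ctx true true 91 1 1 1 1 1 1 1 1) muQ true true 64 RtB21_15.Cx RtB21_15.CX RtB21_15.Ctp.right.right RtB21_15.Ce.right RtB21_15.CTp.left RtB21_15.CEr 0x42 = true := by decide +kernel

theorem cB21_15_3_4 : chunkOkM (LB21_15.ctx true true 91 1 1 1 1 1 1 1 1) muQ true true 64 RtB21_15.Cx RtB21_15.CX RtB21_15.Ctp.right.right RtB21_15.Ce.right RtB21_15.CTp.right.left RtB21_15.CEr 0x42 = true := by decide +kernel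

theorem cB21_15_3_5 : chunkOkM (LB21_15.ctx true true 91 1 1 1 1 1 1 1 1) muQ true true 64 RtB21_15.Cx RtB21_15.CX RtB21_15.Ctp.right.right.left RtB21_15.Ce.right RtB21_15.CTp.right.right RtB21_15.CEr 0x49 = true := by decide +kernel

theorem cB21_15_3_6 : chunkOkM (LB21_15.ctx true true 91 1 1 1 1 1 1 1 1) muQ true true 64 RtB21_15.Cx RtB21_15.CX RtB21_15.Ctp.right.right.right RtB21_15.Ce.right.left RtB21_15.CTp.right.right RtB21_15.CEr 0x11 = true := by decide +kernel

theorem cB21_15_3_7 : chunkOkM (LB21_15.ctx true true 91 1 1 1 1 1 1 1 1) muQ true true 64 RtB21_15.Cx RtB21_15.CX RtB21_15.Ctp.right.right.right RtB21_15.Ce.right.right RtB21_15.CTp.right.right.left RtB21_15.CEr 0x4a = true := by decide +kernel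

theorem cB21_15_3_8 : chunkOkM (LB21_15.ctx true true 91 1 1 1 1 1 1 1 1) muQ true true 64 RtB21_15.Cx RtB21_15.CX RtB21_15.Ctp.right.right.right RtB21_15.Ce.right.right RtB21_15.CTp.right.right.right RtB21_15.CEr.left 0x12 = true := by decide +kernel

theorem cB21_15_3_9 : chunkOkM (LB21_15.ctx true true 91 1 1 1 1 1 1 1 1) muQ true true 64 RtB21_15.Cx RtB21_15.CX RtB21_15.Ctp.right.right.right RtB21_15.Ce.right.right RtB21_15.CTp.right.right.right RtB21_15.CEr.right.left 0x12 = true := by decide +kernel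

end Vale.Agent.helper4.Q4
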