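import Vale.Agent.helper4.Q4TreeM
import Vale.Agent.helper4.Q4G.PB21_6

/-!
Checks for pairs of intervals of second moments.
-/

set_option maxRecDepth 100000
set_option linter.unusedVariables false

namespace Vale.Agent.helper4.Q4

theorem cB21_6_1_6 : chunkOkM (LB21_6.ctx true false 329 23299 8192 5 16 2023 1955 4 128) muQ true false 64 RtB21_6.Cx RtB21_6.CX RtB21_6.Ctp.right.right.right.left RtB21_6.Ce.right.right.right.left.left RtB21_6.CTn RtB21_6.CEr.left 0x5de03e69c649085ae2baf81198e4cf486bf63d9eb3d8ce2bf54d58c8bee9f150d77677169c1c9da4dda4fbf642583dd6046bf55dd8f2056c8bf440d369401aa526d3179fd889db569c27b3a98d39f81193dbc7473bf646a4b56dbe8bf52ed0b376da7bf460d471fff3889fd9378f369c54db6e6f19f81654fed84cbbf64271c0bd5f3bf528932dddeb6bf460d6ede7569c13cf185e01abf6406171fc920bf530d743724294dfb318bf8138f564733ee0df6182932d6fdc28aef5a42bee4658e2a7ef440d3 = true := by decide +kernel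

theorem cB21_6_1_7 : chunkOkM (LB21_6.ctx true false 324 24327 8192 5 16 2023 2023 4 128) muQ true false 64 RtB21_6.Cx RtB21_6.CX RtB21_6.Ctp.right.right.right.left RtB21_6.Ce.right.right.right.left.right RtB21_6.CTn RtB21_6.CEr.left 0x97a0a4a339fd9dae2769c15618ae8505bf6169eb854fc66cf58169ae0212bacf46abfaafe409bf116ce32cbc8eccf070d14fc1c9759fdad57d569cc64d7ebd8baf644a10ac1f2ebf53ef889aede0bf450dfd16463489fdbed1aa69c19811193bbebf64892bb1793ebf5262f0b2c9c8bf450d7629fed69c37049c8481cbf643d66beebef8cf51d473ee499fdfdf440d34493217 = true := by decide +kernel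

theorem cB21_6_1_8 : chunkOkM (LB21_6.ctx true false 296 5889 2048 5 16 527 493 4 128) muQ true false 64 RtB21_6.Cx RtB21_6.CX RtB21_6.Ctp.right.right.right.right RtB21_6.Ce.right.right.right.left RtB21_6.CTn RtB21_6.CEr.left 0x79d0a069c2aeb616369af8b7218ceff1af67513602264cbf52a17b4ffd839cf41392e8fbf32bf19dced0978fcbf070d = true := by decide +kernel

theorem cB21_6_1_9 : chunkOkM (LB21_6.ctx true false 330 98079 32768 5 16 527 4097 4 128) muQ true false 64 RtB21_6.Cx RtB21_6.CX RtB21_6.Ctp.right.right.right RtB21_6.Ce.right.right.right.right RtB21_6.CTn RtB21_6.CEr.left 0x2121212d100b4f41afd5c52f069c1b03aee5b73bf69b13edebe4a1cf4d288bb834fabf2224338ad8a9ecf060d493217217421742174 = true := by decide +kernel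

theorem cB21_6_1_10 : chunkOkM (LB21_6.ctx true false 113 1 1 1 1 1 1 1 1) muQ true false 64 RtB21_6.Cx RtB21_6.CX RtB21_6.Ctp.right.right.right RtB21_6.Ce.right.right RtB21_6.CTn RtB21_6.CEr.right 0x5a = true := by decide +kernel

theorem cB21_6_0_0 : chunkOkM (LB21_6.ctx false false 113 1 1 1 1 1 1 1 1) muQ false false 64 RtB21_6.Cx RtB21_6.CX RtB21_6.Ctn RtB21_6.Ce RtB21_6.CTn RtB21_6.CEr 0x49 = true := by decide +kernel

end Vale.Agent.helper4.Q4
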