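import Vale.Agent.helper4.Q4TreeM
import Vale.Agent.helper4.Q4G.PB21_8

/-!
Checks for pairs of intervals of second moments.
-/

set_option maxRecDepth 100000
set_option linter.unusedVariables false

namespace Vale.Agent.helper4.Q4

theorem cB21_8_3_37 : chunkOkM (LB21_8.ctx true true 320 46341 16384 9 16 7939 7701 4 32) muQ true true 64 RtB21_8.Cx.left.right.left RtB21_8.CX RtB21_8.Ctp.right.right.right.left.right.left.left RtB21_8.Ce.right.right.right.left.left.left.right.left RtB21_8.CTp RtB21_8.CEr.left 0x6a25f6d7d75cc11c4f68b1c1000c98f621f0c9758f5120c1ae08f450d626de7a75c2a05a068b1b1dca42b9f5b39afbe3e9f440d35 = true := by decide +kernel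

theorem cB21_8_3_38 : chunkOkM (LB21_8.ctx true true 333 92939 32768 9 16 15895 15419 4 32) muQ true true 64 RtB21_8.Cx.left.right.left RtB21_8.CX RtB21_8.Ctp.right.right.right.left.right.left.left RtB21_8.Ce.right.right.right.left.left.left.right.left RtB21_8.CTp RtB21_8.CEr.right 0xb7226365c145de3b4d9f61672d8498f5473cbbf38f440d41b05c5493b6e35c65c287045208f6213a95638f511eb9bc58f440d32c1f2e75c31f9af868f61cdc92da8f57117d3c7f440d5a2a03465c66eee5f93e93dd6c8f620b04d308f5e853bac7f450d67a48b37ed470f83675c1cd94da88f5f039ecf7f440d547aed73a475c1f00596e29f5e16889ebb9f430d3 = true := by decide +kernel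

theorem cB21_8_3_39 : chunkOkM (LB21_8.ctx true true 348 370471 131072 9 16 15895 30889 4 32) muQ true true 64 RtB21_8.Cx.left.right.left RtB21_8.CX RtB21_8.Ctp.right.right.right.left.right.left.left RtB21_8.Ce.right.right.right.left.left.left.right.right RtB21_8.CTp RtB21_8.CEr 0xebfaf765c3e11236f9dd830367f6216cef068f51fd666f88f450d3d119ad584c88b4f617f61f91b7d78f5106ddcc08f440d5b1ea4165c159915f9140a30b58f621ad8b7c8f5180f64908f450d4bf221575c1e9be76c8f5f24fd8e7f430d54493212120a831af8f05b3d52b7a184c24ec2f3c8f520d521742175934726d9f5fec9f4d15950888f220d36a246b1ef75cbca14668bcacf4017f62290ee6b8f51be6f47e8f450d56 = true := by decide +kernel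

theorem cB21_8_3_40 : chunkOkM (LB21_8.ctx true true 99 1 1 1 1 1 1 1 1) muQ true true 64 RtB21_8.Cx.left.right.right RtB21_8.CX RtB21_8.Ctp.right.right.right.left.right.left.left RtB21_8.Ce.right.right.right.left.left.left.right RtB21_8.CTp RtB21_8.CEr 0x49 = true := by decide +kernel

end Vale.Agent.helper4.Q4
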