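import Vale.Agent.helper4.Q4TreeM
import Vale.Agent.helper4.Q4G.PB21_8

/-!
Checks for pairs of intervals of second moments.
-/

set_option maxRecDepth 100000
set_option linter.unusedVariables false

namespace Vale.Agent.helper4.Q4

theorem cB21_8_3_41 : chunkOkM (LB21_8.ctx true true 331 92939 32768 9 16 7973 15487 4 32) muQ true true 64 RtB21_8.Cx.left.right RtB21_8.CX RtB21_8.Ctp.right.right.right.left.right.left.right RtB21_8.Ce.right.right.right.left.left.left.right RtB21_8.CTp RtB21_8.CEr 0x690190d22f65c1d87f96f921fae0b18f6207dbf338f586dbf9f7f450d3dc5d7a75c188a7b108f61ee540158f572db3047f440d51bc80df08f05b3db93aa75c3964a4d7f61eb456ba8f530d546a35cb4a975cacb1ac68b12ad58618f621ed07728f543cb8a77f450d563017713fb0037fd8bbff5bd19f61175a05319f1471734bb59f040d4 = true := by decide +kernel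

theorem cB21_8_3_42 : chunkOkM (LB21_8.ctx true true 99 1 1 1 1 1 1 1 1) muQ true true 64 RtB21_8.Cx.left.left RtB21_8.CX RtB21_8.Ctp.right.right.right.left.right.left RtB21_8.Ce.right.right.right.left.left.right RtB21_8.CTp RtB21_8.CEr 0x21 = true := by decide +kernel

theorem cB21_8_3_43 : chunkOkM (LB21_8.ctx true true 301 23299 8192 9 16 3961 3893 2 16) muQ true true 64 RtB21_8.Cx.left.right RtB21_8.CX RtB21_8.Ctp.right.right.right.left.right.left.left RtB21_8.Ce.right.right.right.left.left.right.left RtB21_8.CTp RtB21_8.CEr 0xb243e8d75c2ac353a88f626e0051129f5105f580818af440d = true := by decide +kernel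

theorem cB21_8_3_44 : chunkOkM (LB21_8.ctx true true 335 186135 65536 9 16 7973 15521 4 32) muQ true true 64 RtB21_8.Cx.left.right.left RtB21_8.CX RtB21_8.Ctp.right.right.right.left.right.left.right RtB21_8.Ce.right.right.right.left.left.right.left RtB21_8.CTp RtB21_8.CEr 0x212101b28e8d65c2008f86f94a7a49b08f6246aba788f593c14177f450d38922a8f84c1c6619c98f61feee06f8f53e57aaa7f440d56a2e4956175ccd12de68b21b17ba38f62199c22f8f540d56321740174 = true := by decide +kernel

end Vale.Agent.helper4.Q4
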