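import Vale.Agent.helper4.Q4TreeM
import Vale.Agent.helper4.Q4G.PB21_8

/-!
Checks for pairs of intervals of second moments.
-/

set_option maxRecDepth 100000
set_option linter.unusedVariables false

namespace Vale.Agent.helper4.Q4

theorem cB21_8_3_45 : chunkOkM (LB21_8.ctx true true 337 93453 32768 9 16 31875 15555 4 32) muQ true true 64 RtB21_8.Cx.left.right.right RtB21_8.CX RtB21_8.Ctp.right.right.right.left.right.left.right RtB21_8.Ce.right.right.right.left.left.right.left.left RtB21_8.CTp RtB21_8.CEr 0x85d0c6775c1ebc5caa19f17866bb9449f030d49b64d0565c26b9754e8f6213ca1768f515f9b2ee8f440d4008dc875cbe6d4b17f61fb4fbff8f5cfc5fee7f440d59c534c65c147d8c6f9416df3a98f62076147d8f540d31b05c5b1db3d65c735095f92c33c2e78f62151cd0f8f510da00408f450d406c7d275cd1cc9b97f61fa318d88f5ee683f97f440d5493346a2dcc36275c8d929068b15c54f1f8f6223ec9118f5fe136817f450d5673 = true := by decide +kernel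

theorem cB21_8_3_46 : chunkOkM (LB21_8.ctx true true 320 46855 16384 9 16 8007 7803 4 32) muQ true true 64 RtB21_8.Cx.left.right.right RtB21_8.CX RtB21_8.Ctp.right.right.right.left.right.left.right RtB21_8.Ce.right.right.right.left.left.right.left.right RtB21_8.CTp RtB21_8.CEr.left 0x6a2355bc775c8f75d968be6b3b817f6206411d18f533dc4a57f450d3ed57b6fd23a699a75cbd58dd68b10dbb83b8f623cbb6668f518f5e8f68f460d35 = true := by decide +kernel

theorem cB21_8_3_47 : chunkOkM (LB21_8.ctx true true 332 93453 32768 9 16 7973 15623 4 32) muQ true true 64 RtB21_8.Cx.left.right.right RtB21_8.CX RtB21_8.Ctp.right.right.right.left.right.left.right.left RtB21_8.Ce.right.right.right.left.left.right.left.right RtB21_8.CTp RtB21_8.CEr.right 0x4925d3e9375ce0f964b9e9f5636497782baf430dab9ab465c19305f698f621f96f318f5178e398a8f440d4b0046e7ed474f0df75c1784cc268f61eec79b48f540d547 = true := by decide +kernel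

end Vale.Agent.helper4.Q4
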