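import Vale.Agent.helper4.Q4TreeM
import Vale.Agent.helper4.Q4G.PA22_18_0
import Vale.Agent.helper4.Q4G.PA22_18_1
import Vale.Agent.helper4.Q4G.PA22_18_2

/-!
Checks for pairs of intervals of second moments.
-/

set_option maxRecDepth 100000
set_option linter.unusedVariables false

namespace Vale.Agent.helper4.Q4

theorem covA22_18 : LA22_18.Full muQ.val RtA22_18 := ⟨(LitT.Cov.split_T (LitT.cov_of_chunkM cA22_18_3_0) (LitT.Cov.split_E (LitT.cov_of_chunkM cA22_18_3_1) (LitT.Cov.split_T (LitT.cov_of_chunkM cA22_18_3_2) (LitT.Cov.split_T (LitT.cov_of_chunkM cA22_18_3_3) (LitT.Cov.split_E (LitT.cov_of_chunkM cA22_18_3_4) (LitT.Cov.split_t (LitT.cov_of_chunkM cA22_18_3_5) (LitT.Cov.split_t (LitT.cov_of_chunkM cA22_18_3_6) (LitT.Cov.split_e (LitT.cov_of_chunkM cA22_18_3_7) (LitT.Cov.split_t (LitT.cov_of_chunkM cA22_18_3_8) (LitT.Cov.split_e (LitT.cov_of_chunkM cA22_18_3_9) (LitT.Cov.split_e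 (LitT.Cov.split_e (LitT.cov_of_chunkM cA22_18_3_10) (LitT.Cov.split_t (LitT.Cov.split_e (LitT.Cov.split_t (LitT.cov_of_chunkM cA22_18_3_11) (LitT.Cov.split_x (LitT.Cov.split_e (LitT.cov_of_chunkM cA22_18_3_12) (LitT.Cov.split_E (LitT.cov_of_chunkM cA22_18_3_13) (LitT.cov_of_chunkM cA22_18_3_14))) (LitT.cov_of_chunkM cA22_18_3_15))) (LitT.Cov.split_t (LitT.cov_of_chunkM cA22_18_3_16) (LitT.Cov.split_E (LitT.cov_of_chunkM cA22_18_3_17) (LitT.Cov.split_x (LitT.Cov.split_e (LitT.Cov.split_t (LitT.cov_of_chunkM cA22_18_3_18) (LitT.cov_of_chunkM cA22_18_3_19)) (LitT.cov_of_chunkM cA22_18_3_20)) (LitT.cov_of_chunkM cA22_18_3_21))))) (LitT.cov_of_chunkM cA22_18_3_22))) (LitT.Cov.split_e (LitT.Cov.split_t (LitT.Cov.split_e (LitT.Cov.split_E (LitT.cov_of_chunkM cA22_18_3_23) (LitT.Cov.split_t (LitT.cov_of_chunkM cA22_18_3_24) (LitT.cov_of_chunkM cA22_18_3_25))) (LitT.cov_of_chunkM cA22_18_3_26))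 (LitT.Cov.split_t (LitT.Cov.split_x (LitT.cov_of_chunkM cA22_18_3_27) (LitT.Cov.split_e (LitT.Cov.split_E (LitT.cov_of_chunkM cA22_18_3_28) (LitT.Cov.split_e (LitT.cov_of_chunkM cA22_18_3_29) (LitT.Cov.split_t (LitT.Cov.split_E (LitT.Cov.split_x (LitT.cov_of_chunkM cA22_18_3_30) (LitT.Cov.split_e (LitT.cov_of_chunkM cA22_18_3_31) (LitT.cov_of_chunkM cA22_18_3_32))) (LitT.cov_of_chunkM cA22_18_3_33)) (LitT.cov_of_chunkM cA22_18_3_34)))) (LitT.Cov.split_e (LitT.Cov.split_x (LitT.cov_of_chunkM cA22_18_3_35) (LitT.Cov.split_E (LitT.cov_of_chunkM cA22_18_3_36) (LitT.Cov.split_t (LitT.cov_of_chunkM cA22_18_3_37) (LitT.cov_of_chunkM cA22_18_3_38)))) (LitT.cov_of_chunkM cA22_18_3_39)))) (LitT.cov_of_chunkM cA22_18_3_40))) (LitT.cov_of_chunkM cA22_18_3_41))))))))))))), (LitT.cov_of_chunkM cA22_18_1_0), (LitT.cov_of_chunkM cA22_18_2_0), (LitT.cov_of_chunkM cA22_18_0_0)⟩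

end Vale.Agent.helper4.Q4
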