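import Vale.Agent.helper4.Q4TreeM
import Vale.Agent.helper4.Q4G.PA23_15_0
import Vale.Agent.helper4.Q4G.PA23_15_1

/-!
Checks for pairs of intervals of second moments.
-/

set_option maxRecDepth 100000
set_option linter.unusedVariables false

namespace Vale.Agent.helper4.Q4

theorem covA23_15 : LA23_15.Full muQ.val RtA23_15 := ⟨(LitT.Cov.split_t (LitT.cov_of_chunkM cA23_15_3_0) (LitT.Cov.split_e (LitT.cov_of_chunkM cA23_15_3_1) (LitT.Cov.split_t (LitT.cov_of_chunkM cA23_15_3_2) (LitT.Cov.split_t (LitT.cov_of_chunkM cA23_15_3_3) (LitT.Cov.split_e (LitT.cov_of_chunkM cA23_15_3_4) (LitT.Cov.split_T (LitT.cov_of_chunkM cA23_15_3_5) (LitT.Cov.split_e (LitT.Cov.split_e (LitT.cov_of_chunkM cA23_15_3_6) (LitT.Cov.split_t (LitT.Cov.split_e (LitT.cov_of_chunkM cA23_15_3_7) (LitT.Cov.split_E (LitT.cov_of_chunkM cA23_15_3_8) (LitT.Cov.split_T (LitT.cov_of_chunkM cA23_15_3_9) (LitT.Cov.split_t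 (LitT.Cov.split_x (LitT.Cov.split_x (LitT.Cov.split_t (LitT.cov_of_chunkM cA23_15_3_10) (LitT.Cov.split_e (LitT.cov_of_chunkM cA23_15_3_11) (LitT.Cov.split_E (LitT.cov_of_chunkM cA23_15_3_12) (LitT.Cov.split_t (LitT.cov_of_chunkM cA23_15_3_13) (LitT.Cov.split_T (LitT.cov_of_chunkM cA23_15_3_14) (LitT.cov_of_chunkM cA23_15_3_15)))))) (LitT.cov_of_chunkM cA23_15_3_16)) (LitT.cov_of_chunkM cA23_15_3_17)) (LitT.cov_of_chunkM cA23_15_3_18))))) (LitT.cov_of_chunkM cA23_15_3_19))) (LitT.Cov.split_e (LitT.Cov.split_t (LitT.Cov.split_E (LitT.cov_of_chunkM cA23_15_3_20) (LitT.Cov.split_T (LitT.Cov.split_E (LitT.Cov.split_t (LitT.cov_of_chunkM cA23_15_3_21) (LitT.Cov.split_e (LitT.cov_of_chunkM cA23_15_3_22) (LitT.cov_of_chunkM cA23_15_3_23))) (LitT.cov_of_chunkM cA23_15_3_24)) (LitT.Cov.split_e (LitT.Cov.split_t (LitT.cov_of_chunkM cA23_15_3_25) (LitT.Cov.split_E (LitT.cov_of_chunkM cA23_15_3_26)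 (LitT.Cov.split_t (LitT.Cov.split_e (LitT.Cov.split_x (LitT.Cov.split_t (LitT.cov_of_chunkM cA23_15_3_27) (LitT.cov_of_chunkM cA23_15_3_28)) (LitT.cov_of_chunkM cA23_15_3_29)) (LitT.Cov.split_T (LitT.cov_of_chunkM cA23_15_3_30) (LitT.cov_of_chunkM cA23_15_3_31))) (LitT.cov_of_chunkM cA23_15_3_32)))) (LitT.Cov.split_x (LitT.cov_of_chunkM cA23_15_3_33) (LitT.Cov.split_t (LitT.cov_of_chunkM cA23_15_3_34) (LitT.Cov.split_e (LitT.cov_of_chunkM cA23_15_3_35) (LitT.cov_of_chunkM cA23_15_3_36))))))) (LitT.cov_of_chunkM cA23_15_3_37)) (LitT.cov_of_chunkM cA23_15_3_38))))))))), (LitT.cov_of_chunkM cA23_15_1_0), (LitT.cov_of_chunkM cA23_15_2_0), (LitT.cov_of_chunkM cA23_15_0_0)⟩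

end Vale.Agent.helper4.Q4
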