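import Vale.Agent.helper4.Q4TreeM
import Vale.Agent.helper4.Q4G.PA23_17_0
import Vale.Agent.helper4.Q4G.PA23_17_1

/-!
Checks for pairs of intervals of second moments.
-/

set_option maxRecDepth 100000
set_option linter.unusedVariables false

namespace Vale.Agent.helper4.Q4

theorem covA23_17 : LA23_17.Full muQ.val RtA23_17 := ⟨(LitT.Cov.split_t (LitT.cov_of_chunkM cA23_17_3_0) (LitT.Cov.split_t (LitT.cov_of_chunkM cA23_17_3_1) (LitT.Cov.split_e (LitT.cov_of_chunkM cA23_17_3_2) (LitT.Cov.split_t (LitT.cov_of_chunkM cA23_17_3_3) (LitT.Cov.split_e (LitT.cov_of_chunkM cA23_17_3_4) (LitT.Cov.split_T (LitT.cov_of_chunkM cA23_17_3_5) (LitT.Cov.split_E (LitT.cov_of_chunkM cA23_17_3_6) (LitT.Cov.split_T (LitT.cov_of_chunkM cA23_17_3_7) (LitT.Cov.split_e (LitT.Cov.split_e (LitT.cov_of_chunkM cA23_17_3_8) (LitT.Cov.split_t (LitT.Cov.split_e (LitT.cov_of_chunkM cA23_17_3_9) (LitT.Cov.split_E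 (LitT.cov_of_chunkM cA23_17_3_10) (LitT.Cov.split_E (LitT.Cov.split_T (LitT.cov_of_chunkM cA23_17_3_11) (LitT.cov_of_chunkM cA23_17_3_12)) (LitT.cov_of_chunkM cA23_17_3_13)))) (LitT.cov_of_chunkM cA23_17_3_14))) (LitT.Cov.split_E (LitT.cov_of_chunkM cA23_17_3_15) (LitT.Cov.split_e (LitT.Cov.split_t (LitT.Cov.split_E (LitT.Cov.split_T (LitT.Cov.split_X (LitT.Cov.split_T (LitT.cov_of_chunkM cA23_17_3_16) (LitT.Cov.split_T (LitT.cov_of_chunkM cA23_17_3_17) (LitT.Cov.split_E (LitT.cov_of_chunkM cA23_17_3_18) (LitT.Cov.split_t (LitT.cov_of_chunkM cA23_17_3_19) (LitT.Cov.split_e (LitT.Cov.split_t (LitT.cov_of_chunkM cA23_17_3_20) (LitT.cov_of_chunkM cA23_17_3_21)) (LitT.cov_of_chunkM cA23_17_3_22)))))) (LitT.cov_of_chunkM cA23_17_3_23)) (LitT.Cov.split_E (LitT.cov_of_chunkM cA23_17_3_24) (LitT.Cov.split_T (LitT.Cov.split_E (LitT.cov_of_chunkM cA23_17_3_25) (LitT.Cov.split_T (LitT.Cov.split_t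 (LitT.cov_of_chunkM cA23_17_3_26) (LitT.cov_of_chunkM cA23_17_3_27)) (LitT.cov_of_chunkM cA23_17_3_28))) (LitT.cov_of_chunkM cA23_17_3_29)))) (LitT.Cov.split_E (LitT.Cov.split_T (LitT.cov_of_chunkM cA23_17_3_30) (LitT.Cov.split_T (LitT.Cov.split_T (LitT.Cov.split_t (LitT.cov_of_chunkM cA23_17_3_31) (LitT.Cov.split_x (LitT.cov_of_chunkM cA23_17_3_32) (LitT.cov_of_chunkM cA23_17_3_33))) (LitT.cov_of_chunkM cA23_17_3_34)) (LitT.cov_of_chunkM cA23_17_3_35))) (LitT.cov_of_chunkM cA23_17_3_36))) (LitT.cov_of_chunkM cA23_17_3_37)) (LitT.cov_of_chunkM cA23_17_3_38)))))))))))), (LitT.cov_of_chunkM cA23_17_1_0), (LitT.cov_of_chunkM cA23_17_2_0), (LitT.cov_of_chunkM cA23_17_0_0)⟩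

end Vale.Agent.helper4.Q4
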