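import Vale.Agent.helper4.Q4TreeM
import Vale.Agent.helper4.Q4G.PB12_15_0

/-!
Checks for pairs of intervals of second moments.
-/

set_option maxRecDepth 100000
set_option linter.unusedVariables false

namespace Vale.Agent.helper4.Q4

theorem covB12_15 : LB12_15.Full muQ.val RtB12_15 := ⟨(LitT.Cov.split_T (LitT.cov_of_chunkM cB12_15_3_0) (LitT.Cov.split_E (LitT.cov_of_chunkM cB12_15_3_1) (LitT.Cov.split_T (LitT.cov_of_chunkM cB12_15_3_2) (LitT.Cov.split_T (LitT.cov_of_chunkM cB12_15_3_3) (LitT.Cov.split_E (LitT.cov_of_chunkM cB12_15_3_4) (LitT.Cov.split_t (LitT.Cov.split_e (LitT.Cov.split_t (LitT.Cov.split_e (LitT.Cov.split_E (LitT.cov_of_chunkM cB12_15_3_5) (LitT.Cov.split_e (LitT.cov_of_chunkM cB12_15_3_6) (LitT.cov_of_chunkM cB12_15_3_7))) (LitT.cov_of_chunkM cB12_15_3_8)) (LitT.cov_of_chunkM cB12_15_3_9)) (LitT.cov_of_chunkM cB12_15_3_10)) (LitT.Cov.split_e (LitT.cov_of_chunkM cB12_15_3_11)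 (LitT.Cov.split_E (LitT.cov_of_chunkM cB12_15_3_12) (LitT.Cov.split_E (LitT.Cov.split_e (LitT.cov_of_chunkM cB12_15_3_13) (LitT.cov_of_chunkM cB12_15_3_14)) (LitT.cov_of_chunkM cB12_15_3_15)))))))))), (LitT.cov_of_chunkM cB12_15_1_0), (LitT.cov_of_chunkM cB12_15_2_0), (LitT.cov_of_chunkM cB12_15_0_0)⟩

end Vale.Agent.helper4.Q4
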