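import Vale.Agent.helper4.Q4TreeM
import Vale.Agent.helper4.Q4G.PB13_10_0
import Vale.Agent.helper4.Q4G.PB13_10_1

/-!
Checks for pairs of intervals of second moments.
-/

set_option maxRecDepth 100000
set_option linter.unusedVariables false

namespace Vale.Agent.helper4.Q4

theorem covB13_10 : LB13_10.Full muQ.val RtB13_10 := ⟨(LitT.Cov.split_T (LitT.cov_of_chunkM cB13_10_3_0) (LitT.Cov.split_t (LitT.Cov.split_e (LitT.Cov.split_t (LitT.cov_of_chunkM cB13_10_3_1) (LitT.Cov.split_e (LitT.cov_of_chunkM cB13_10_3_2) (LitT.Cov.split_E (LitT.cov_of_chunkM cB13_10_3_3) (LitT.Cov.split_e (LitT.cov_of_chunkM cB13_10_3_4) (LitT.cov_of_chunkM cB13_10_3_5))))) (LitT.cov_of_chunkM cB13_10_3_6)) (LitT.Cov.split_e (LitT.cov_of_chunkM cB13_10_3_7) (LitT.Cov.split_t (LitT.Cov.split_e (LitT.Cov.split_E (LitT.cov_of_chunkM cB13_10_3_8) (LitT.Cov.split_e (LitT.cov_of_chunkM cB13_10_3_9) (LitT.Cov.split_t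 (LitT.cov_of_chunkM cB13_10_3_10) (LitT.cov_of_chunkM cB13_10_3_11)))) (LitT.cov_of_chunkM cB13_10_3_12)) (LitT.Cov.split_E (LitT.cov_of_chunkM cB13_10_3_13) (LitT.Cov.split_e (LitT.cov_of_chunkM cB13_10_3_14) (LitT.Cov.split_t (LitT.Cov.split_e (LitT.Cov.split_T (LitT.cov_of_chunkM cB13_10_3_15) (LitT.cov_of_chunkM cB13_10_3_16)) (LitT.cov_of_chunkM cB13_10_3_17)) (LitT.Cov.split_T (LitT.Cov.split_T (LitT.cov_of_chunkM cB13_10_3_18) (LitT.Cov.split_E (LitT.cov_of_chunkM cB13_10_3_19) (LitT.cov_of_chunkM cB13_10_3_20))) (LitT.Cov.split_E (LitT.cov_of_chunkM cB13_10_3_21) (LitT.Cov.split_e (LitT.cov_of_chunkM cB13_10_3_22) (LitT.cov_of_chunkM cB13_10_3_23))))))))))), (LitT.cov_of_chunkM cB13_10_1_0), (LitT.cov_of_chunkM cB13_10_2_0), (LitT.cov_of_chunkM cB13_10_0_0)⟩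

end Vale.Agent.helper4.Q4
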