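import Vale.Agent.helper4.Q4TreeM
import Vale.Agent.helper4.Q4G.PB13_7_0
import Vale.Agent.helper4.Q4G.PB13_7_1

/-!
Checks for pairs of intervals of second moments.
-/

set_option maxRecDepth 100000
set_option linter.unusedVariables false

namespace Vale.Agent.helper4.Q4

theorem covB13_7 : LB13_7.Full muQ.val RtB13_7 := ⟨(LitT.Cov.split_t (LitT.cov_of_chunkM cB13_7_3_0) (LitT.Cov.split_e (LitT.cov_of_chunkM cB13_7_3_1) (LitT.Cov.split_e (LitT.Cov.split_t (LitT.Cov.split_e (LitT.cov_of_chunkM cB13_7_3_2) (LitT.cov_of_chunkM cB13_7_3_3)) (LitT.cov_of_chunkM cB13_7_3_4)) (LitT.Cov.split_t (LitT.Cov.split_t (LitT.cov_of_chunkM cB13_7_3_5) (LitT.Cov.split_e (LitT.Cov.split_t (LitT.cov_of_chunkM cB13_7_3_6) (LitT.Cov.split_e (LitT.Cov.split_T (LitT.cov_of_chunkM cB13_7_3_7) (LitT.cov_of_chunkM cB13_7_3_8)) (LitT.cov_of_chunkM cB13_7_3_9))) (LitT.cov_of_chunkM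 cB13_7_3_10))) (LitT.Cov.split_e (LitT.Cov.split_t (LitT.Cov.split_e (LitT.cov_of_chunkM cB13_7_3_11) (LitT.Cov.split_T (LitT.Cov.split_E (LitT.Cov.split_t (LitT.Cov.split_e (LitT.cov_of_chunkM cB13_7_3_12) (LitT.cov_of_chunkM cB13_7_3_13)) (LitT.cov_of_chunkM cB13_7_3_14)) (LitT.cov_of_chunkM cB13_7_3_15)) (LitT.Cov.split_t (LitT.Cov.split_e (LitT.Cov.split_E (LitT.cov_of_chunkM cB13_7_3_16) (LitT.Cov.split_t (LitT.cov_of_chunkM cB13_7_3_17) (LitT.cov_of_chunkM cB13_7_3_18))) (LitT.cov_of_chunkM cB13_7_3_19)) (LitT.cov_of_chunkM cB13_7_3_20)))) (LitT.cov_of_chunkM cB13_7_3_21)) (LitT.Cov.split_t (LitT.Cov.split_e (LitT.Cov.split_t (LitT.cov_of_chunkM cB13_7_3_22) (LitT.Cov.split_T (LitT.cov_of_chunkM cB13_7_3_23) (LitT.Cov.split_e (LitT.cov_of_chunkM cB13_7_3_24) (LitT.cov_of_chunkM cB13_7_3_25)))) (LitT.cov_of_chunkM cB13_7_3_26)) (LitT.Cov.split_T (LitT.Cov.split_e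 (LitT.Cov.split_E (LitT.Cov.split_x (LitT.cov_of_chunkM cB13_7_3_27) (LitT.cov_of_chunkM cB13_7_3_28)) (LitT.cov_of_chunkM cB13_7_3_29)) (LitT.cov_of_chunkM cB13_7_3_30)) (LitT.Cov.split_e (LitT.cov_of_chunkM cB13_7_3_31) (LitT.cov_of_chunkM cB13_7_3_32))))))))), (LitT.Cov.split_T (LitT.Cov.split_E (LitT.Cov.split_T (LitT.Cov.split_E (LitT.Cov.split_T (LitT.Cov.split_E (LitT.Cov.split_E (LitT.Cov.split_t (LitT.cov_of_chunkM cB13_7_1_0) (LitT.cov_of_chunkM cB13_7_1_1)) (LitT.cov_of_chunkM cB13_7_1_2)) (LitT.cov_of_chunkM cB13_7_1_3)) (LitT.cov_of_chunkM cB13_7_1_4)) (LitT.cov_of_chunkM cB13_7_1_5)) (LitT.cov_of_chunkM cB13_7_1_6)) (LitT.cov_of_chunkM cB13_7_1_7)) (LitT.cov_of_chunkM cB13_7_1_8)), (LitT.cov_of_chunkM cB13_7_2_0), (LitT.cov_of_chunkM cB13_7_0_0)⟩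

end Vale.Agent.helper4.Q4
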