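import Vale.Agent.helper4.Q4TreeM
import Vale.Agent.helper4.Q4G.PB13_8_0
import Vale.Agent.helper4.Q4G.PB13_8_1

/-!
Checks for pairs of intervals of second moments.
-/

set_option maxRecDepth 100000
set_option linter.unusedVariables false

namespace Vale.Agent.helper4.Q4

theorem covB13_8 : LB13_8.Full muQ.val RtB13_8 := ⟨(LitT.Cov.split_t (LitT.Cov.split_e (LitT.cov_of_chunkM cB13_8_3_0) (LitT.cov_of_chunkM cB13_8_3_1)) (LitT.Cov.split_e (LitT.cov_of_chunkM cB13_8_3_2) (LitT.Cov.split_e (LitT.Cov.split_t (LitT.Cov.split_T (LitT.cov_of_chunkM cB13_8_3_3) (LitT.Cov.split_E (LitT.cov_of_chunkM cB13_8_3_4) (LitT.Cov.split_e (LitT.cov_of_chunkM cB13_8_3_5) (LitT.cov_of_chunkM cB13_8_3_6)))) (LitT.cov_of_chunkM cB13_8_3_7)) (LitT.Cov.split_t (LitT.cov_of_chunkM cB13_8_3_8) (LitT.Cov.split_T (LitT.Cov.split_E (LitT.Cov.split_e (LitT.Cov.split_t (LitT.Cov.split_T (LitT.cov_of_chunkM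 cB13_8_3_9) (LitT.cov_of_chunkM cB13_8_3_10)) (LitT.cov_of_chunkM cB13_8_3_11)) (LitT.Cov.split_t (LitT.cov_of_chunkM cB13_8_3_12) (LitT.Cov.split_T (LitT.Cov.split_E (LitT.Cov.split_e (LitT.cov_of_chunkM cB13_8_3_13) (LitT.cov_of_chunkM cB13_8_3_14)) (LitT.cov_of_chunkM cB13_8_3_15)) (LitT.Cov.split_E (LitT.cov_of_chunkM cB13_8_3_16) (LitT.Cov.split_e (LitT.Cov.split_t (LitT.Cov.split_x (LitT.cov_of_chunkM cB13_8_3_17) (LitT.cov_of_chunkM cB13_8_3_18)) (LitT.cov_of_chunkM cB13_8_3_19)) (LitT.cov_of_chunkM cB13_8_3_20)))))) (LitT.cov_of_chunkM cB13_8_3_21)) (LitT.Cov.split_E (LitT.cov_of_chunkM cB13_8_3_22) (LitT.Cov.split_e (LitT.Cov.split_t (LitT.Cov.split_e (LitT.cov_of_chunkM cB13_8_3_23) (LitT.Cov.split_T (LitT.cov_of_chunkM cB13_8_3_24) (LitT.Cov.split_t (LitT.Cov.split_e (LitT.cov_of_chunkM cB13_8_3_25) (LitT.cov_of_chunkM cB13_8_3_26)) (LitT.cov_of_chunkM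 cB13_8_3_27)))) (LitT.cov_of_chunkM cB13_8_3_28)) (LitT.Cov.split_t (LitT.Cov.split_e (LitT.Cov.split_t (LitT.cov_of_chunkM cB13_8_3_29) (LitT.Cov.split_T (LitT.cov_of_chunkM cB13_8_3_30) (LitT.cov_of_chunkM cB13_8_3_31))) (LitT.cov_of_chunkM cB13_8_3_32)) (LitT.Cov.split_e (LitT.Cov.split_T (LitT.cov_of_chunkM cB13_8_3_33) (LitT.Cov.split_E (LitT.cov_of_chunkM cB13_8_3_34) (LitT.Cov.split_t (LitT.Cov.split_e (LitT.cov_of_chunkM cB13_8_3_35) (LitT.cov_of_chunkM cB13_8_3_36)) (LitT.cov_of_chunkM cB13_8_3_37)))) (LitT.cov_of_chunkM cB13_8_3_38)))))))))), (LitT.cov_of_chunkM cB13_8_1_0), (LitT.cov_of_chunkM cB13_8_2_0), (LitT.cov_of_chunkM cB13_8_0_0)⟩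

end Vale.Agent.helper4.Q4
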