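import Vale.Agent.helper4.Q4TreeM
import Vale.Agent.helper4.Q4G.PB13_9_0
import Vale.Agent.helper4.Q4G.PB13_9_1

/-!
Checks for pairs of intervals of second moments.
-/

set_option maxRecDepth 100000
set_option linter.unusedVariables false

namespace Vale.Agent.helper4.Q4

theorem covB13_9 : LB13_9.Full muQ.val RtB13_9 := ⟨(LitT.Cov.split_t (LitT.Cov.split_e (LitT.Cov.split_t (LitT.cov_of_chunkM cB13_9_3_0) (LitT.Cov.split_e (LitT.cov_of_chunkM cB13_9_3_1) (LitT.Cov.split_T (LitT.cov_of_chunkM cB13_9_3_2) (LitT.Cov.split_E (LitT.cov_of_chunkM cB13_9_3_3) (LitT.cov_of_chunkM cB13_9_3_4))))) (LitT.cov_of_chunkM cB13_9_3_5)) (LitT.Cov.split_e (LitT.cov_of_chunkM cB13_9_3_6) (LitT.Cov.split_t (LitT.Cov.split_e (LitT.Cov.split_T (LitT.cov_of_chunkM cB13_9_3_7) (LitT.Cov.split_E (LitT.cov_of_chunkM cB13_9_3_8) (LitT.Cov.split_e (LitT.cov_of_chunkM cB13_9_3_9) (LitT.Cov.split_t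 (LitT.cov_of_chunkM cB13_9_3_10) (LitT.cov_of_chunkM cB13_9_3_11))))) (LitT.cov_of_chunkM cB13_9_3_12)) (LitT.Cov.split_e (LitT.cov_of_chunkM cB13_9_3_13) (LitT.Cov.split_T (LitT.Cov.split_T (LitT.cov_of_chunkM cB13_9_3_14) (LitT.Cov.split_T (LitT.cov_of_chunkM cB13_9_3_15) (LitT.Cov.split_X (LitT.Cov.split_E (LitT.cov_of_chunkM cB13_9_3_16) (LitT.cov_of_chunkM cB13_9_3_17)) (LitT.cov_of_chunkM cB13_9_3_18)))) (LitT.Cov.split_E (LitT.cov_of_chunkM cB13_9_3_19) (LitT.Cov.split_e (LitT.Cov.split_t (LitT.Cov.split_E (LitT.cov_of_chunkM cB13_9_3_20) (LitT.cov_of_chunkM cB13_9_3_21)) (LitT.cov_of_chunkM cB13_9_3_22)) (LitT.Cov.split_t (LitT.cov_of_chunkM cB13_9_3_23) (LitT.Cov.split_E (LitT.Cov.split_T (LitT.Cov.split_t (LitT.cov_of_chunkM cB13_9_3_24) (LitT.cov_of_chunkM cB13_9_3_25)) (LitT.cov_of_chunkM cB13_9_3_26)) (LitT.cov_of_chunkM cB13_9_3_27)))))))))), (LitT.cov_of_chunkM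 cB13_9_1_0), (LitT.cov_of_chunkM cB13_9_2_0), (LitT.cov_of_chunkM cB13_9_0_0)⟩

end Vale.Agent.helper4.Q4
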