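import Vale.Agent.helper4.Q4TreeM
import Vale.Agent.helper4.Q4G.PB14_6_0
import Vale.Agent.helper4.Q4G.PB14_6_1

/-!
Checks for pairs of intervals of second moments.
-/

set_option maxRecDepth 100000
set_option linter.unusedVariables false

namespace Vale.Agent.helper4.Q4

theorem covB14_6 : LB14_6.Full muQ.val RtB14_6 := ⟨(LitT.Cov.split_t (LitT.cov_of_chunkM cB14_6_3_0) (LitT.Cov.split_e (LitT.cov_of_chunkM cB14_6_3_1) (LitT.Cov.split_e (LitT.Cov.split_t (LitT.cov_of_chunkM cB14_6_3_2) (LitT.cov_of_chunkM cB14_6_3_3)) (LitT.Cov.split_t (LitT.cov_of_chunkM cB14_6_3_4) (LitT.Cov.split_e (LitT.Cov.split_t (LitT.Cov.split_e (LitT.Cov.split_t (LitT.Cov.split_e (LitT.cov_of_chunkM cB14_6_3_5) (LitT.Cov.split_t (LitT.Cov.split_e (LitT.cov_of_chunkM cB14_6_3_6) (LitT.cov_of_chunkM cB14_6_3_7)) (LitT.cov_of_chunkM cB14_6_3_8))) (LitT.cov_of_chunkM cB14_6_3_9)) (LitT.Cov.split_t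 (LitT.Cov.split_e (LitT.Cov.split_t (LitT.cov_of_chunkM cB14_6_3_10) (LitT.cov_of_chunkM cB14_6_3_11)) (LitT.cov_of_chunkM cB14_6_3_12)) (LitT.Cov.split_e (LitT.cov_of_chunkM cB14_6_3_13) (LitT.cov_of_chunkM cB14_6_3_14)))) (LitT.cov_of_chunkM cB14_6_3_15)) (LitT.cov_of_chunkM cB14_6_3_16)))))), (LitT.Cov.split_E (LitT.Cov.split_t (LitT.cov_of_chunkM cB14_6_1_0) (LitT.Cov.split_e (LitT.cov_of_chunkM cB14_6_1_1) (LitT.Cov.split_e (LitT.cov_of_chunkM cB14_6_1_2) (LitT.Cov.split_t (LitT.cov_of_chunkM cB14_6_1_3) (LitT.Cov.split_e (LitT.Cov.split_t (LitT.Cov.split_e (LitT.cov_of_chunkM cB14_6_1_4) (LitT.Cov.split_t (LitT.Cov.split_e (LitT.cov_of_chunkM cB14_6_1_5) (LitT.cov_of_chunkM cB14_6_1_6)) (LitT.Cov.split_e (LitT.cov_of_chunkM cB14_6_1_7) (LitT.cov_of_chunkM cB14_6_1_8)))) (LitT.cov_of_chunkM cB14_6_1_9)) (LitT.cov_of_chunkM cB14_6_1_10)))))) (LitT.cov_of_chunkM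 cB14_6_1_11)), (LitT.cov_of_chunkM cB14_6_2_0), (LitT.cov_of_chunkM cB14_6_0_0)⟩

end Vale.Agent.helper4.Q4
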