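import Vale.Agent.helper4.Q4TreeM
import Vale.Agent.helper4.Q4G.PB14_9_0
import Vale.Agent.helper4.Q4G.PB14_9_1

/-!
Checks for pairs of intervals of second moments.
-/

set_option maxRecDepth 100000
set_option linter.unusedVariables false

namespace Vale.Agent.helper4.Q4

theorem covB14_9 : LB14_9.Full muQ.val RtB14_9 := ⟨(LitT.Cov.split_t (LitT.Cov.split_t (LitT.cov_of_chunkM cB14_9_3_0) (LitT.Cov.split_t (LitT.cov_of_chunkM cB14_9_3_1) (LitT.Cov.split_e (LitT.cov_of_chunkM cB14_9_3_2) (LitT.cov_of_chunkM cB14_9_3_3)))) (LitT.Cov.split_e (LitT.cov_of_chunkM cB14_9_3_4) (LitT.Cov.split_t (LitT.Cov.split_e (LitT.Cov.split_e (LitT.Cov.split_t (LitT.Cov.split_T (LitT.cov_of_chunkM cB14_9_3_5) (LitT.cov_of_chunkM cB14_9_3_6)) (LitT.cov_of_chunkM cB14_9_3_7)) (LitT.Cov.split_t (LitT.cov_of_chunkM cB14_9_3_8) (LitT.Cov.split_T (LitT.cov_of_chunkM cB14_9_3_9) (LitT.Cov.split_E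 (LitT.cov_of_chunkM cB14_9_3_10) (LitT.Cov.split_e (LitT.cov_of_chunkM cB14_9_3_11) (LitT.cov_of_chunkM cB14_9_3_12)))))) (LitT.Cov.split_t (LitT.cov_of_chunkM cB14_9_3_13) (LitT.Cov.split_e (LitT.Cov.split_t (LitT.cov_of_chunkM cB14_9_3_14) (LitT.Cov.split_e (LitT.Cov.split_T (LitT.cov_of_chunkM cB14_9_3_15) (LitT.cov_of_chunkM cB14_9_3_16)) (LitT.cov_of_chunkM cB14_9_3_17))) (LitT.cov_of_chunkM cB14_9_3_18)))) (LitT.Cov.split_e (LitT.cov_of_chunkM cB14_9_3_19) (LitT.Cov.split_T (LitT.Cov.split_T (LitT.cov_of_chunkM cB14_9_3_20) (LitT.Cov.split_T (LitT.cov_of_chunkM cB14_9_3_21) (LitT.Cov.split_X (LitT.Cov.split_e (LitT.Cov.split_t (LitT.cov_of_chunkM cB14_9_3_22) (LitT.cov_of_chunkM cB14_9_3_23)) (LitT.cov_of_chunkM cB14_9_3_24)) (LitT.cov_of_chunkM cB14_9_3_25)))) (LitT.Cov.split_e (LitT.Cov.split_t (LitT.Cov.split_E (LitT.cov_of_chunkM cB14_9_3_26) (LitT.Cov.split_e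 (LitT.cov_of_chunkM cB14_9_3_27) (LitT.Cov.split_t (LitT.Cov.split_e (LitT.cov_of_chunkM cB14_9_3_28) (LitT.cov_of_chunkM cB14_9_3_29)) (LitT.Cov.split_T (LitT.Cov.split_E (LitT.Cov.split_e (LitT.cov_of_chunkM cB14_9_3_30) (LitT.cov_of_chunkM cB14_9_3_31)) (LitT.cov_of_chunkM cB14_9_3_32)) (LitT.cov_of_chunkM cB14_9_3_33))))) (LitT.cov_of_chunkM cB14_9_3_34)) (LitT.Cov.split_e (LitT.Cov.split_t (LitT.cov_of_chunkM cB14_9_3_35) (LitT.Cov.split_t (LitT.Cov.split_t (LitT.Cov.split_E (LitT.cov_of_chunkM cB14_9_3_36) (LitT.cov_of_chunkM cB14_9_3_37)) (LitT.cov_of_chunkM cB14_9_3_38)) (LitT.cov_of_chunkM cB14_9_3_39))) (LitT.cov_of_chunkM cB14_9_3_40)))))))), (LitT.cov_of_chunkM cB14_9_1_0), (LitT.cov_of_chunkM cB14_9_2_0), (LitT.cov_of_chunkM cB14_9_0_0)⟩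

end Vale.Agent.helper4.Q4
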