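import Vale.Agent.helper4.Q4TreeM
import Vale.Agent.helper4.Q4G.PB15_10_0
import Vale.Agent.helper4.Q4G.PB15_10_1
import Vale.Agent.helper4.Q4G.PB15_10_2

/-!
Checks for pairs of intervals of second moments.
-/

set_option maxRecDepth 100000
set_option linter.unusedVariables false

namespace Vale.Agent.helper4.Q4

theorem covB15_10 : LB15_10.Full muQ.val RtB15_10 := ⟨(LitT.Cov.split_t (LitT.cov_of_chunkM cB15_10_3_0) (LitT.Cov.split_e (LitT.cov_of_chunkM cB15_10_3_1) (LitT.Cov.split_T (LitT.cov_of_chunkM cB15_10_3_2) (LitT.Cov.split_t (LitT.Cov.split_e (LitT.Cov.split_e (LitT.cov_of_chunkM cB15_10_3_3) (LitT.Cov.split_t (LitT.cov_of_chunkM cB15_10_3_4) (LitT.Cov.split_E (LitT.cov_of_chunkM cB15_10_3_5) (LitT.Cov.split_e (LitT.cov_of_chunkM cB15_10_3_6) (LitT.Cov.split_t (LitT.cov_of_chunkM cB15_10_3_7) (LitT.cov_of_chunkM cB15_10_3_8)))))) (LitT.cov_of_chunkM cB15_10_3_9)) (LitT.Cov.split_e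 (LitT.cov_of_chunkM cB15_10_3_10) (LitT.Cov.split_E (LitT.cov_of_chunkM cB15_10_3_11) (LitT.Cov.split_e (LitT.Cov.split_t (LitT.Cov.split_e (LitT.Cov.split_T (LitT.cov_of_chunkM cB15_10_3_12) (LitT.cov_of_chunkM cB15_10_3_13)) (LitT.Cov.split_t (LitT.cov_of_chunkM cB15_10_3_14) (LitT.Cov.split_T (LitT.Cov.split_T (LitT.cov_of_chunkM cB15_10_3_15) (LitT.Cov.split_E (LitT.cov_of_chunkM cB15_10_3_16) (LitT.cov_of_chunkM cB15_10_3_17))) (LitT.Cov.split_E (LitT.cov_of_chunkM cB15_10_3_18) (LitT.Cov.split_e (LitT.cov_of_chunkM cB15_10_3_19) (LitT.cov_of_chunkM cB15_10_3_20)))))) (LitT.Cov.split_t (LitT.Cov.split_e (LitT.cov_of_chunkM cB15_10_3_21) (LitT.Cov.split_T (LitT.cov_of_chunkM cB15_10_3_22) (LitT.cov_of_chunkM cB15_10_3_23))) (LitT.cov_of_chunkM cB15_10_3_24))) (LitT.Cov.split_t (LitT.Cov.split_t (LitT.cov_of_chunkM cB15_10_3_25) (LitT.Cov.split_e (LitT.Cov.split_e (LitT.Cov.split_t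 (LitT.cov_of_chunkM cB15_10_3_26) (LitT.Cov.split_x (LitT.cov_of_chunkM cB15_10_3_27) (LitT.Cov.split_T (LitT.cov_of_chunkM cB15_10_3_28) (LitT.cov_of_chunkM cB15_10_3_29)))) (LitT.cov_of_chunkM cB15_10_3_30)) (LitT.cov_of_chunkM cB15_10_3_31))) (LitT.Cov.split_E (LitT.Cov.split_T (LitT.Cov.split_T (LitT.cov_of_chunkM cB15_10_3_32) (LitT.Cov.split_e (LitT.Cov.split_t (LitT.Cov.split_e (LitT.Cov.split_E (LitT.cov_of_chunkM cB15_10_3_33) (LitT.Cov.split_x (LitT.cov_of_chunkM cB15_10_3_34) (LitT.cov_of_chunkM cB15_10_3_35))) (LitT.cov_of_chunkM cB15_10_3_36)) (LitT.cov_of_chunkM cB15_10_3_37)) (LitT.cov_of_chunkM cB15_10_3_38))) (LitT.cov_of_chunkM cB15_10_3_39)) (LitT.Cov.split_T (LitT.cov_of_chunkM cB15_10_3_40) (LitT.Cov.split_e (LitT.Cov.split_t (LitT.Cov.split_e (LitT.cov_of_chunkM cB15_10_3_41) (LitT.cov_of_chunkM cB15_10_3_42)) (LitT.cov_of_chunkM cB15_10_3_43)) (LitT.cov_of_chunkM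 cB15_10_3_44)))))))))))), (LitT.cov_of_chunkM cB15_10_1_0), (LitT.cov_of_chunkM cB15_10_2_0), (LitT.cov_of_chunkM cB15_10_0_0)⟩

end Vale.Agent.helper4.Q4
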