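import Vale.Agent.helper4.Q4TreeM
import Vale.Agent.helper4.Q4G.PB15_11_0
import Vale.Agent.helper4.Q4G.PB15_11_1

/-!
Checks for pairs of intervals of second moments.
-/

set_option maxRecDepth 100000
set_option linter.unusedVariables false

namespace Vale.Agent.helper4.Q4

theorem covB15_11 : LB15_11.Full muQ.val RtB15_11 := ⟨(LitT.Cov.split_t (LitT.cov_of_chunkM cB15_11_3_0) (LitT.Cov.split_e (LitT.cov_of_chunkM cB15_11_3_1) (LitT.Cov.split_T (LitT.cov_of_chunkM cB15_11_3_2) (LitT.Cov.split_E (LitT.cov_of_chunkM cB15_11_3_3) (LitT.Cov.split_t (LitT.Cov.split_e (LitT.Cov.split_e (LitT.cov_of_chunkM cB15_11_3_4) (LitT.Cov.split_t (LitT.cov_of_chunkM cB15_11_3_5) (LitT.cov_of_chunkM cB15_11_3_6))) (LitT.cov_of_chunkM cB15_11_3_7)) (LitT.Cov.split_e (LitT.cov_of_chunkM cB15_11_3_8) (LitT.Cov.split_e (LitT.Cov.split_t (LitT.Cov.split_T (LitT.Cov.split_T (LitT.cov_of_chunkM cB15_11_3_9)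 (LitT.Cov.split_T (LitT.cov_of_chunkM cB15_11_3_10) (LitT.Cov.split_T (LitT.cov_of_chunkM cB15_11_3_11) (LitT.Cov.split_X (LitT.Cov.split_X (LitT.Cov.split_e (LitT.cov_of_chunkM cB15_11_3_12) (LitT.cov_of_chunkM cB15_11_3_13)) (LitT.cov_of_chunkM cB15_11_3_14)) (LitT.cov_of_chunkM cB15_11_3_15))))) (LitT.Cov.split_E (LitT.cov_of_chunkM cB15_11_3_16) (LitT.Cov.split_e (LitT.cov_of_chunkM cB15_11_3_17) (LitT.Cov.split_t (LitT.cov_of_chunkM cB15_11_3_18) (LitT.Cov.split_e (LitT.cov_of_chunkM cB15_11_3_19) (LitT.cov_of_chunkM cB15_11_3_20)))))) (LitT.cov_of_chunkM cB15_11_3_21)) (LitT.Cov.split_t (LitT.cov_of_chunkM cB15_11_3_22) (LitT.Cov.split_T (LitT.cov_of_chunkM cB15_11_3_23) (LitT.Cov.split_E (LitT.cov_of_chunkM cB15_11_3_24) (LitT.Cov.split_e (LitT.Cov.split_t (LitT.Cov.split_T (LitT.cov_of_chunkM cB15_11_3_25) (LitT.cov_of_chunkM cB15_11_3_26)) (LitT.cov_of_chunkM cB15_11_3_27))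 (LitT.cov_of_chunkM cB15_11_3_28)))))))))))), (LitT.cov_of_chunkM cB15_11_1_0), (LitT.cov_of_chunkM cB15_11_2_0), (LitT.cov_of_chunkM cB15_11_0_0)⟩

end Vale.Agent.helper4.Q4
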