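import Vale.Agent.helper4.Q4TreeM
import Vale.Agent.helper4.Q4G.PB15_5_0
import Vale.Agent.helper4.Q4G.PB15_5_1

/-!
Checks for pairs of intervals of second moments.
-/

set_option maxRecDepth 100000
set_option linter.unusedVariables false

namespace Vale.Agent.helper4.Q4

theorem covB15_5 : LB15_5.Full muQ.val RtB15_5 := ⟨(LitT.Cov.split_t (LitT.cov_of_chunkM cB15_5_3_0) (LitT.Cov.split_e (LitT.cov_of_chunkM cB15_5_3_1) (LitT.Cov.split_e (LitT.Cov.split_t (LitT.Cov.split_e (LitT.cov_of_chunkM cB15_5_3_2) (LitT.Cov.split_t (LitT.cov_of_chunkM cB15_5_3_3) (LitT.cov_of_chunkM cB15_5_3_4))) (LitT.cov_of_chunkM cB15_5_3_5)) (LitT.Cov.split_t (LitT.cov_of_chunkM cB15_5_3_6) (LitT.Cov.split_e (LitT.Cov.split_t (LitT.Cov.split_e (LitT.cov_of_chunkM cB15_5_3_7) (LitT.cov_of_chunkM cB15_5_3_8)) (LitT.cov_of_chunkM cB15_5_3_9)) (LitT.Cov.split_t (LitT.cov_of_chunkM cB15_5_3_10)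 (LitT.cov_of_chunkM cB15_5_3_11))))))), (LitT.Cov.split_t (LitT.cov_of_chunkM cB15_5_1_0) (LitT.Cov.split_e (LitT.cov_of_chunkM cB15_5_1_1) (LitT.Cov.split_e (LitT.cov_of_chunkM cB15_5_1_2) (LitT.Cov.split_t (LitT.cov_of_chunkM cB15_5_1_3) (LitT.Cov.split_e (LitT.Cov.split_t (LitT.Cov.split_e (LitT.cov_of_chunkM cB15_5_1_4) (LitT.Cov.split_t (LitT.cov_of_chunkM cB15_5_1_5) (LitT.cov_of_chunkM cB15_5_1_6))) (LitT.cov_of_chunkM cB15_5_1_7)) (LitT.Cov.split_t (LitT.cov_of_chunkM cB15_5_1_8) (LitT.Cov.split_e (LitT.Cov.split_e (LitT.cov_of_chunkM cB15_5_1_9) (LitT.cov_of_chunkM cB15_5_1_10)) (LitT.cov_of_chunkM cB15_5_1_11)))))))), (LitT.cov_of_chunkM cB15_5_2_0), (LitT.cov_of_chunkM cB15_5_0_0)⟩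

end Vale.Agent.helper4.Q4
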