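import Vale.Agent.helper4.Q4TreeM
import Vale.Agent.helper4.Q4G.PB16_13_0
import Vale.Agent.helper4.Q4G.PB16_13_1

/-!
Checks for pairs of intervals of second moments.
-/

set_option maxRecDepth 100000
set_option linter.unusedVariables false

namespace Vale.Agent.helper4.Q4

theorem covB16_13 : LB16_13.Full muQ.val RtB16_13 := ⟨(LitT.Cov.split_t (LitT.cov_of_chunkM cB16_13_3_0) (LitT.Cov.split_T (LitT.cov_of_chunkM cB16_13_3_1) (LitT.Cov.split_E (LitT.cov_of_chunkM cB16_13_3_2) (LitT.Cov.split_T (LitT.cov_of_chunkM cB16_13_3_3) (LitT.Cov.split_e (LitT.cov_of_chunkM cB16_13_3_4) (LitT.Cov.split_t (LitT.Cov.split_e (LitT.Cov.split_e (LitT.cov_of_chunkM cB16_13_3_5) (LitT.Cov.split_t (LitT.cov_of_chunkM cB16_13_3_6) (LitT.Cov.split_e (LitT.cov_of_chunkM cB16_13_3_7) (LitT.Cov.split_t (LitT.cov_of_chunkM cB16_13_3_8) (LitT.Cov.split_E (LitT.cov_of_chunkM cB16_13_3_9) (LitT.Cov.split_e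 (LitT.cov_of_chunkM cB16_13_3_10) (LitT.cov_of_chunkM cB16_13_3_11))))))) (LitT.cov_of_chunkM cB16_13_3_12)) (LitT.Cov.split_e (LitT.cov_of_chunkM cB16_13_3_13) (LitT.Cov.split_e (LitT.Cov.split_t (LitT.Cov.split_E (LitT.cov_of_chunkM cB16_13_3_14) (LitT.Cov.split_e (LitT.Cov.split_E (LitT.cov_of_chunkM cB16_13_3_15) (LitT.Cov.split_t (LitT.cov_of_chunkM cB16_13_3_16) (LitT.cov_of_chunkM cB16_13_3_17))) (LitT.Cov.split_t (LitT.cov_of_chunkM cB16_13_3_18) (LitT.Cov.split_E (LitT.cov_of_chunkM cB16_13_3_19) (LitT.cov_of_chunkM cB16_13_3_20))))) (LitT.Cov.split_E (LitT.cov_of_chunkM cB16_13_3_21) (LitT.Cov.split_E (LitT.cov_of_chunkM cB16_13_3_22) (LitT.cov_of_chunkM cB16_13_3_23)))) (LitT.Cov.split_e (LitT.Cov.split_x (LitT.cov_of_chunkM cB16_13_3_24) (LitT.Cov.split_t (LitT.cov_of_chunkM cB16_13_3_25) (LitT.Cov.split_E (LitT.cov_of_chunkM cB16_13_3_26) (LitT.Cov.split_E (LitT.Cov.split_t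 (LitT.Cov.split_e (LitT.cov_of_chunkM cB16_13_3_27) (LitT.cov_of_chunkM cB16_13_3_28)) (LitT.cov_of_chunkM cB16_13_3_29)) (LitT.Cov.split_T (LitT.cov_of_chunkM cB16_13_3_30) (LitT.Cov.split_E (LitT.Cov.split_t (LitT.Cov.split_e (LitT.cov_of_chunkM cB16_13_3_31) (LitT.cov_of_chunkM cB16_13_3_32)) (LitT.cov_of_chunkM cB16_13_3_33)) (LitT.Cov.split_X (LitT.cov_of_chunkM cB16_13_3_34) (LitT.Cov.split_E (LitT.Cov.split_E (LitT.Cov.split_X (LitT.cov_of_chunkM cB16_13_3_35) (LitT.Cov.split_t (LitT.cov_of_chunkM cB16_13_3_36) (LitT.cov_of_chunkM cB16_13_3_37))) (LitT.cov_of_chunkM cB16_13_3_38)) (LitT.cov_of_chunkM cB16_13_3_39))))))))) (LitT.cov_of_chunkM cB16_13_3_40)))))))))), (LitT.cov_of_chunkM cB16_13_1_0), (LitT.cov_of_chunkM cB16_13_2_0), (LitT.cov_of_chunkM cB16_13_0_0)⟩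

end Vale.Agent.helper4.Q4
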