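import Vale.Agent.helper4.Q4TreeM
import Vale.Agent.helper4.Q4G.PB17_3_0_0
import Vale.Agent.helper4.Q4G.PB17_3_0_1
import Vale.Agent.helper4.Q4G.PB17_3_0_2

/-!
Checks for pairs of intervals of second moments.
-/

set_option maxRecDepth 100000
set_option linter.unusedVariables false

namespace Vale.Agent.helper4.Q4

theorem covB17_3 : LB17_3.Full muQ.val RtB17_3 := ⟨(LitT.Cov.split_t (LitT.cov_of_chunkM cB17_3_3_0) (LitT.Cov.split_e (LitT.cov_of_chunkM cB17_3_3_1) (LitT.Cov.split_e (LitT.cov_of_chunkM cB17_3_3_2) (LitT.Cov.split_t (LitT.cov_of_chunkM cB17_3_3_3) (LitT.Cov.split_e (LitT.Cov.split_t (LitT.Cov.split_e (LitT.cov_of_chunkM cB17_3_3_4) (LitT.cov_of_chunkM cB17_3_3_5)) (LitT.cov_of_chunkM cB17_3_3_6)) (LitT.cov_of_chunkM cB17_3_3_7)))))), (LitT.Cov.split_t (LitT.cov_of_chunkM cB17_3_1_0) (LitT.Cov.split_e (LitT.cov_of_chunkM cB17_3_1_1) (LitT.Cov.split_e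 (LitT.cov_of_chunkM cB17_3_1_2) (LitT.Cov.split_t (LitT.cov_of_chunkM cB17_3_1_3) (LitT.Cov.split_e (LitT.Cov.split_t (LitT.Cov.split_e (LitT.cov_of_chunkM cB17_3_1_4) (LitT.Cov.split_t (LitT.cov_of_chunkM cB17_3_1_5) (LitT.Cov.split_e (LitT.cov_of_chunkM cB17_3_1_6) (LitT.Cov.split_x (LitT.Cov.split_t (LitT.cov_of_chunkM cB17_3_1_7) (LitT.Cov.split_e (LitT.Cov.split_x (LitT.Cov.split_t (LitT.cov_of_chunkM cB17_3_1_8) (LitT.cov_of_chunkM cB17_3_1_9)) (LitT.cov_of_chunkM cB17_3_1_10)) (LitT.cov_of_chunkM cB17_3_1_11))) (LitT.cov_of_chunkM cB17_3_1_12))))) (LitT.cov_of_chunkM cB17_3_1_13)) (LitT.Cov.split_t (LitT.cov_of_chunkM cB17_3_1_14) (LitT.Cov.split_t (LitT.Cov.split_e (LitT.Cov.split_e (LitT.Cov.split_x (LitT.Cov.split_t (LitT.Cov.split_e (LitT.cov_of_chunkM cB17_3_1_15) (LitT.cov_of_chunkM cB17_3_1_16)) (LitT.cov_of_chunkM cB17_3_1_17)) (LitT.cov_of_chunkM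 cB17_3_1_18)) (LitT.Cov.split_x (LitT.cov_of_chunkM cB17_3_1_19) (LitT.Cov.split_t (LitT.Cov.split_e (LitT.cov_of_chunkM cB17_3_1_20) (LitT.cov_of_chunkM cB17_3_1_21)) (LitT.cov_of_chunkM cB17_3_1_22)))) (LitT.Cov.split_x (LitT.cov_of_chunkM cB17_3_1_23) (LitT.Cov.split_e (LitT.Cov.split_t (LitT.cov_of_chunkM cB17_3_1_24) (LitT.Cov.split_e (LitT.cov_of_chunkM cB17_3_1_25) (LitT.cov_of_chunkM cB17_3_1_26))) (LitT.cov_of_chunkM cB17_3_1_27)))) (LitT.cov_of_chunkM cB17_3_1_28)))))))), (LitT.cov_of_chunkM cB17_3_2_0), (LitT.cov_of_chunkM cB17_3_0_0)⟩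

end Vale.Agent.helper4.Q4
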