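import Vale.Agent.helper4.Q4TreeM
import Vale.Agent.helper4.Q4G.PB17_5_0
import Vale.Agent.helper4.Q4G.PB17_5_1
import Vale.Agent.helper4.Q4G.PB17_5_2

/-!
Checks for pairs of intervals of second moments.
-/

set_option maxRecDepth 100000
set_option linter.unusedVariables false

namespace Vale.Agent.helper4.Q4

theorem covB17_5 : LB17_5.Full muQ.val RtB17_5 := ⟨(LitT.Cov.split_t (LitT.cov_of_chunkM cB17_5_3_0) (LitT.Cov.split_e (LitT.cov_of_chunkM cB17_5_3_1) (LitT.Cov.split_e (LitT.cov_of_chunkM cB17_5_3_2) (LitT.Cov.split_t (LitT.cov_of_chunkM cB17_5_3_3) (LitT.Cov.split_e (LitT.Cov.split_t (LitT.Cov.split_e (LitT.Cov.split_t (LitT.Cov.split_e (LitT.cov_of_chunkM cB17_5_3_4) (LitT.cov_of_chunkM cB17_5_3_5)) (LitT.cov_of_chunkM cB17_5_3_6)) (LitT.Cov.split_t (LitT.cov_of_chunkM cB17_5_3_7) (LitT.Cov.split_e (LitT.cov_of_chunkM cB17_5_3_8) (LitT.Cov.split_t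 (LitT.cov_of_chunkM cB17_5_3_9) (LitT.cov_of_chunkM cB17_5_3_10))))) (LitT.cov_of_chunkM cB17_5_3_11)) (LitT.Cov.split_t (LitT.cov_of_chunkM cB17_5_3_12) (LitT.Cov.split_t (LitT.Cov.split_e (LitT.Cov.split_e (LitT.cov_of_chunkM cB17_5_3_13) (LitT.cov_of_chunkM cB17_5_3_14)) (LitT.cov_of_chunkM cB17_5_3_15)) (LitT.cov_of_chunkM cB17_5_3_16)))))))), (LitT.Cov.split_t (LitT.cov_of_chunkM cB17_5_1_0) (LitT.Cov.split_e (LitT.cov_of_chunkM cB17_5_1_1) (LitT.Cov.split_e (LitT.cov_of_chunkM cB17_5_1_2) (LitT.Cov.split_t (LitT.cov_of_chunkM cB17_5_1_3) (LitT.Cov.split_e (LitT.Cov.split_t (LitT.Cov.split_e (LitT.cov_of_chunkM cB17_5_1_4) (LitT.Cov.split_t (LitT.cov_of_chunkM cB17_5_1_5) (LitT.Cov.split_e (LitT.cov_of_chunkM cB17_5_1_6) (LitT.Cov.split_x (LitT.Cov.split_t (LitT.cov_of_chunkM cB17_5_1_7) (LitT.Cov.split_e (LitT.cov_of_chunkM cB17_5_1_8) (LitT.cov_of_chunkM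 cB17_5_1_9))) (LitT.cov_of_chunkM cB17_5_1_10))))) (LitT.cov_of_chunkM cB17_5_1_11)) (LitT.Cov.split_t (LitT.cov_of_chunkM cB17_5_1_12) (LitT.Cov.split_t (LitT.Cov.split_e (LitT.Cov.split_e (LitT.Cov.split_x (LitT.Cov.split_t (LitT.Cov.split_e (LitT.cov_of_chunkM cB17_5_1_13) (LitT.cov_of_chunkM cB17_5_1_14)) (LitT.cov_of_chunkM cB17_5_1_15)) (LitT.cov_of_chunkM cB17_5_1_16)) (LitT.Cov.split_x (LitT.cov_of_chunkM cB17_5_1_17) (LitT.Cov.split_t (LitT.Cov.split_e (LitT.cov_of_chunkM cB17_5_1_18) (LitT.cov_of_chunkM cB17_5_1_19)) (LitT.cov_of_chunkM cB17_5_1_20)))) (LitT.cov_of_chunkM cB17_5_1_21)) (LitT.cov_of_chunkM cB17_5_1_22)))))))), (LitT.cov_of_chunkM cB17_5_2_0), (LitT.cov_of_chunkM cB17_5_0_0)⟩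

end Vale.Agent.helper4.Q4
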