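import Vale.Agent.helper4.Q4TreeM
import Vale.Agent.helper4.Q4G.PB19_14_0
import Vale.Agent.helper4.Q4G.PB19_14_1

/-!
Checks for pairs of intervals of second moments.
-/

set_option maxRecDepth 100000
set_option linter.unusedVariables false

namespace Vale.Agent.helper4.Q4

theorem covB19_14 : LB19_14.Full muQ.val RtB19_14 := ⟨(LitT.Cov.split_t (LitT.cov_of_chunkM cB19_14_3_0) (LitT.Cov.split_e (LitT.cov_of_chunkM cB19_14_3_1) (LitT.Cov.split_t (LitT.cov_of_chunkM cB19_14_3_2) (LitT.Cov.split_e (LitT.cov_of_chunkM cB19_14_3_3) (LitT.Cov.split_T (LitT.cov_of_chunkM cB19_14_3_4) (LitT.Cov.split_T (LitT.cov_of_chunkM cB19_14_3_5) (LitT.Cov.split_E (LitT.cov_of_chunkM cB19_14_3_6) (LitT.Cov.split_e (LitT.Cov.split_t (LitT.Cov.split_t (LitT.cov_of_chunkM cB19_14_3_7) (LitT.Cov.split_e (LitT.cov_of_chunkM cB19_14_3_8) (LitT.Cov.split_e (LitT.cov_of_chunkM cB19_14_3_9) (LitT.Cov.split_t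 (LitT.cov_of_chunkM cB19_14_3_10) (LitT.Cov.split_E (LitT.cov_of_chunkM cB19_14_3_11) (LitT.Cov.split_x (LitT.Cov.split_e (LitT.cov_of_chunkM cB19_14_3_12) (LitT.Cov.split_t (LitT.cov_of_chunkM cB19_14_3_13) (LitT.cov_of_chunkM cB19_14_3_14))) (LitT.cov_of_chunkM cB19_14_3_15))))))) (LitT.cov_of_chunkM cB19_14_3_16)) (LitT.Cov.split_t (LitT.Cov.split_t (LitT.cov_of_chunkM cB19_14_3_17) (LitT.Cov.split_e (LitT.Cov.split_e (LitT.Cov.split_t (LitT.cov_of_chunkM cB19_14_3_18) (LitT.Cov.split_E (LitT.cov_of_chunkM cB19_14_3_19) (LitT.Cov.split_x (LitT.cov_of_chunkM cB19_14_3_20) (LitT.cov_of_chunkM cB19_14_3_21)))) (LitT.cov_of_chunkM cB19_14_3_22)) (LitT.cov_of_chunkM cB19_14_3_23))) (LitT.Cov.split_t (LitT.Cov.split_e (LitT.Cov.split_E (LitT.cov_of_chunkM cB19_14_3_24) (LitT.Cov.split_e (LitT.Cov.split_t (LitT.Cov.split_x (LitT.Cov.split_t (LitT.Cov.split_e (LitT.cov_of_chunkM cB19_14_3_25)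 (LitT.cov_of_chunkM cB19_14_3_26)) (LitT.cov_of_chunkM cB19_14_3_27)) (LitT.cov_of_chunkM cB19_14_3_28)) (LitT.cov_of_chunkM cB19_14_3_29)) (LitT.Cov.split_x (LitT.cov_of_chunkM cB19_14_3_30) (LitT.Cov.split_t (LitT.Cov.split_e (LitT.cov_of_chunkM cB19_14_3_31) (LitT.cov_of_chunkM cB19_14_3_32)) (LitT.cov_of_chunkM cB19_14_3_33))))) (LitT.cov_of_chunkM cB19_14_3_34)) (LitT.cov_of_chunkM cB19_14_3_35))))))))))), (LitT.cov_of_chunkM cB19_14_1_0), (LitT.cov_of_chunkM cB19_14_2_0), (LitT.cov_of_chunkM cB19_14_0_0)⟩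

end Vale.Agent.helper4.Q4
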