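import Vale.Agent.helper4.Q4TreeM
import Vale.Agent.helper4.Q4G.PB20_14_0
import Vale.Agent.helper4.Q4G.PB20_14_1

/-!
Checks for pairs of intervals of second moments.
-/

set_option maxRecDepth 100000
set_option linter.unusedVariables false

namespace Vale.Agent.helper4.Q4

theorem covB20_14 : LB20_14.Full muQ.val RtB20_14 := ⟨(LitT.Cov.split_t (LitT.cov_of_chunkM cB20_14_3_0) (LitT.Cov.split_T (LitT.cov_of_chunkM cB20_14_3_1) (LitT.Cov.split_E (LitT.cov_of_chunkM cB20_14_3_2) (LitT.Cov.split_T (LitT.cov_of_chunkM cB20_14_3_3) (LitT.Cov.split_t (LitT.cov_of_chunkM cB20_14_3_4) (LitT.Cov.split_e (LitT.cov_of_chunkM cB20_14_3_5) (LitT.Cov.split_t (LitT.cov_of_chunkM cB20_14_3_6) (LitT.Cov.split_e (LitT.cov_of_chunkM cB20_14_3_7) (LitT.Cov.split_e (LitT.Cov.split_E (LitT.cov_of_chunkM cB20_14_3_8) (LitT.Cov.split_e (LitT.cov_of_chunkM cB20_14_3_9) (LitT.Cov.split_t (LitT.Cov.split_E (LitT.Cov.split_e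 (LitT.cov_of_chunkM cB20_14_3_10) (LitT.Cov.split_t (LitT.cov_of_chunkM cB20_14_3_11) (LitT.cov_of_chunkM cB20_14_3_12))) (LitT.Cov.split_E (LitT.Cov.split_e (LitT.cov_of_chunkM cB20_14_3_13) (LitT.cov_of_chunkM cB20_14_3_14)) (LitT.cov_of_chunkM cB20_14_3_15))) (LitT.cov_of_chunkM cB20_14_3_16)))) (LitT.Cov.split_e (LitT.Cov.split_E (LitT.cov_of_chunkM cB20_14_3_17) (LitT.Cov.split_t (LitT.cov_of_chunkM cB20_14_3_18) (LitT.Cov.split_x (LitT.cov_of_chunkM cB20_14_3_19) (LitT.Cov.split_t (LitT.Cov.split_e (LitT.Cov.split_E (LitT.cov_of_chunkM cB20_14_3_20) (LitT.cov_of_chunkM cB20_14_3_21)) (LitT.cov_of_chunkM cB20_14_3_22)) (LitT.cov_of_chunkM cB20_14_3_23))))) (LitT.cov_of_chunkM cB20_14_3_24))))))))))), (LitT.cov_of_chunkM cB20_14_1_0), (LitT.cov_of_chunkM cB20_14_2_0), (LitT.cov_of_chunkM cB20_14_0_0)⟩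

end Vale.Agent.helper4.Q4
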