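import Vale.Agent.helper4.Q4TreeM
import Vale.Agent.helper4.Q4G.PB21_15_0_0
import Vale.Agent.helper4.Q4G.PB21_15_0_1
import Vale.Agent.helper4.Q4G.PB21_15_0_2
import Vale.Agent.helper4.Q4G.PB21_15_0_3

/-!
Checks for pairs of intervals of second moments.
-/

set_option maxRecDepth 100000
set_option linter.unusedVariables false

namespace Vale.Agent.helper4.Q4

theorem covB21_15 : LB21_15.Full muQ.val RtB21_15 := ⟨(LitT.Cov.split_t (LitT.cov_of_chunkM cB21_15_3_0) (LitT.Cov.split_e (LitT.cov_of_chunkM cB21_15_3_1) (LitT.Cov.split_t (LitT.cov_of_chunkM cB21_15_3_2) (LitT.Cov.split_T (LitT.cov_of_chunkM cB21_15_3_3) (LitT.Cov.split_T (LitT.cov_of_chunkM cB21_15_3_4) (LitT.Cov.split_t (LitT.cov_of_chunkM cB21_15_3_5) (LitT.Cov.split_e (LitT.cov_of_chunkM cB21_15_3_6) (LitT.Cov.split_T (LitT.cov_of_chunkM cB21_15_3_7) (LitT.Cov.split_E (LitT.cov_of_chunkM cB21_15_3_8) (LitT.Cov.split_E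 (LitT.cov_of_chunkM cB21_15_3_9) (LitT.Cov.split_e (LitT.Cov.split_t (LitT.Cov.split_e (LitT.cov_of_chunkM cB21_15_3_10) (LitT.Cov.split_e (LitT.cov_of_chunkM cB21_15_3_11) (LitT.Cov.split_t (LitT.Cov.split_t (LitT.cov_of_chunkM cB21_15_3_12) (LitT.Cov.split_E (LitT.cov_of_chunkM cB21_15_3_13) (LitT.cov_of_chunkM cB21_15_3_14))) (LitT.cov_of_chunkM cB21_15_3_15)))) (LitT.cov_of_chunkM cB21_15_3_16)) (LitT.Cov.split_e (LitT.Cov.split_t (LitT.Cov.split_e (LitT.Cov.split_t (LitT.cov_of_chunkM cB21_15_3_17) (LitT.Cov.split_E (LitT.cov_of_chunkM cB21_15_3_18) (LitT.Cov.split_x (LitT.Cov.split_t (LitT.Cov.split_e (LitT.cov_of_chunkM cB21_15_3_19) (LitT.cov_of_chunkM cB21_15_3_20)) (LitT.cov_of_chunkM cB21_15_3_21)) (LitT.cov_of_chunkM cB21_15_3_22)))) (LitT.Cov.split_x (LitT.cov_of_chunkM cB21_15_3_23) (LitT.Cov.split_t (LitT.cov_of_chunkM cB21_15_3_24) (LitT.Cov.split_E (LitT.cov_of_chunkM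 cB21_15_3_25) (LitT.Cov.split_e (LitT.Cov.split_E (LitT.Cov.split_t (LitT.cov_of_chunkM cB21_15_3_26) (LitT.cov_of_chunkM cB21_15_3_27)) (LitT.cov_of_chunkM cB21_15_3_28)) (LitT.cov_of_chunkM cB21_15_3_29)))))) (LitT.cov_of_chunkM cB21_15_3_30)) (LitT.cov_of_chunkM cB21_15_3_31))))))))))))), (LitT.cov_of_chunkM cB21_15_1_0), (LitT.cov_of_chunkM cB21_15_2_0), (LitT.cov_of_chunkM cB21_15_0_0)⟩

end Vale.Agent.helper4.Q4
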